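import Vale.Agent.Lib.P171.Ekeland

/-!
# The abstract kink theorem

A function `f` on a convex subset of `ℓ¹ × ℝ` with tangent functionals of mean-field type and an
upper bound of Lebowitz-Penrose type must have a kink in the second variable.
-/

namespace Vale.Agent.Lib.P171

open Filter Topology

/-- The coupling space. -/
abbrev L1 := lp (fun _ : ℕ => ℝ) 1

/-- The coordinate vectors of the coupling space. -/
noncomputable def eL (m : ℕ) : L1 := lp.single 1 m (1:ℝ)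

/-- Nonnegative couplings of norm at most `R`. -/
def Dom (R : ℝ) : Set L1 := {c | (∀ k, 0 ≤ c k) ∧ ‖c‖ ≤ R}

lemma norm_eL (m : ℕ) : ‖eL m‖ = 1 := by
  simp [eL, lp.norm_single]

lemma eL_nonneg (m k : ℕ) : 0 ≤ eL m k := by
  simp only [eL, lp.single_apply, Pi.single_apply]
  split_ifs <;> norm_num

lemma Dom_mono {R R' : ℝ} (h : R ≤ R') : Dom R ⊆ Dom R' := fun _ hc => ⟨hc.1, hc.2.trans h⟩

lemma zero_mem_Dom {R : ℝ} (h : 0 ≤ R) : (0 : L1) ∈ Dom R :=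
  ⟨fun _ => by simp, by simpa using h⟩

lemma add_smul_mem_Dom {R t : ℝ} {c : L1} (hc : ∀ k, 0 ≤ c k) (ht : 0 ≤ t) (h : ‖c‖ + t ≤ R) (m : ℕ) :
    c + t • eL m ∈ Dom R := by
  refine ⟨fun k => ?_, ?_⟩
  · have : (c + t • eL m) k = c k + t * eL m k := by
      rw [lp.coeFn_add, lp.coeFn_smul]; simp
    rw [this]
    have := eL_nonneg m k
    have := hc k
    positivity
  · calc ‖c + t • eL m‖ ≤ ‖c‖ + ‖t • eL m‖ := norm_add_le _ _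
      _ = ‖c‖ + t := by rw [norm_smul, norm_eL, Real.norm_of_nonneg ht, mul_one]
      _ ≤ R := h

/-- The data needed for the abstract kink theorem. -/
structure PData (f : L1 → ℝ → ℝ) (τ : ℕ → ℝ) (Λ : ℝ → ℝ) (Γ B : ℝ) : Prop where
  tangent : ∀ c ∈ Dom 4, ∀ a, ∃ (ρ : ℝ) (lam : L1 →ₗ[ℝ] ℝ),
    (∀ b, |lam b| ≤ Λ a * ‖b‖) ∧ 0 ≤ ρ ∧ ρ ≤ Λ a ∧
    (∀ c' ∈ Dom 4, ∀ a', f c a + lam (c' - c) + ρ * (a' - a) ≤ f c' a') ∧
    (∀ m, ρ ^ 2 / 2 - τ m * ρ ≤ lam (eL m))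
  Λmono : Monotone Λ
  τnonneg : ∀ m, 0 ≤ τ m
  τlim : Tendsto τ atTop (𝓝 0)
  upper : ∀ c ∈ Dom 4, ∀ t, 0 < t → ‖c‖ + t ≤ 4 → ∀ a W,
    (∀ b, 0 ≤ b → f c (a + b) - b ^ 2 / (2 * t) ≤ W) →
    ∀ σ, 0 < σ → ∃ M, ∀ m, M ≤ m → f (c + t • eL m) a ≤ W + σ
  nonneg : ∀ c ∈ Dom 4, ∀ a, 0 ≤ f c a
  growth : ∀ c ∈ Dom 4, ∀ a, f c a ≤ 1 + Γ * (a + B) ^ 2
  Γnonneg : 0 ≤ Γ
  Γlt : Γ < 1 / 4
  chord : f 0 0 < (f 0 1 + f 0 (-1)) / 2 - 1 / 4

/-- The crossing lemma: a continuous family of functions on two compact intervals has a parameter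
for which the two maxima coincide. -/
lemma exists_cross (Q : ℝ → ℝ → ℝ) (hQc : Continuous (Function.uncurry Q)) (Mc amin : ℝ)
    (hMc : 0 ≤ Mc) (hamin : amin ≤ 0)
    (hend1 : ∀ a' ∈ Set.Icc 0 Mc, ∃ a'' ∈ Set.Icc (-Mc) 0, Q amin a' ≤ Q amin a'')
    (hend2 : ∀ a' ∈ Set.Icc (-Mc) 0, ∃ a'' ∈ Set.Icc 0 Mc, Q 0 a' ≤ Q 0 a'') :
    ∃ ac ∈ Set.Icc amin 0, ∃ a₁ ∈ Set.Icc (-Mc) (0:ℝ), ∃ a₂ ∈ Set.Icc 0 Mc,
      (∀ a' ∈ Set.Icc (-Mc) (0:ℝ), Q ac a' ≤ Q ac a₁) ∧ (∀ a' ∈ Set.Icc 0 Mc, Q ac a' ≤ Q ac a₂) ∧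
      Q ac a₁ = Q ac a₂ := by
  have hKn : IsCompact (Set.Icc (-Mc) (0:ℝ)) := isCompact_Icc
  have hKp : IsCompact (Set.Icc 0 Mc) := isCompact_Icc
  have hKnne : (Set.Icc (-Mc) (0:ℝ)).Nonempty := ⟨0, by linarith, le_refl _⟩
  have hKpne : (Set.Icc 0 Mc).Nonempty := ⟨0, le_refl _, hMc⟩
  have hQc2 : ∀ a, Continuous (Q a) := fun a =>
    hQc.comp (Continuous.prodMk continuous_const continuous_id)
  have hnc : Continuous (fun a => sSup (Q a '' Set.Icc (-Mc) (0:ℝ))) :=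
    hKn.continuous_sSup hQc
  have hpc : Continuous (fun a => sSup (Q a '' Set.Icc 0 Mc)) :=
    hKp.continuous_sSup hQc
  have hnle : ∀ a, ∀ a' ∈ Set.Icc (-Mc) (0:ℝ), Q a a' ≤ sSup (Q a '' Set.Icc (-Mc) (0:ℝ)) :=
    fun a a' ha' => le_csSup ((hKn.image (hQc2 a)).bddAbove) ⟨a', ha', rfl⟩
  have hple : ∀ a, ∀ a' ∈ Set.Icc 0 Mc, Q a a' ≤ sSup (Q a '' Set.Icc 0 Mc) :=
    fun a a' ha' => le_csSup ((hKp.image (hQc2 a)).bddAbove) ⟨a', ha', rfl⟩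
  have hnmem : ∀ a, ∃ a' ∈ Set.Icc (-Mc) (0:ℝ), Q a a' = sSup (Q a '' Set.Icc (-Mc) (0:ℝ)) := fun a =>
    (hKn.image (hQc2 a)).sSup_mem (hKnne.image _)
  have hpmem : ∀ a, ∃ a' ∈ Set.Icc 0 Mc, Q a a' = sSup (Q a '' Set.Icc 0 Mc) := fun a =>
    (hKp.image (hQc2 a)).sSup_mem (hKpne.image _)
  have hend1' : sSup (Q amin '' Set.Icc 0 Mc) ≤ sSup (Q amin '' Set.Icc (-Mc) (0:ℝ)) := by
    obtain ⟨a', ha', hval⟩ := hpmem amin
    obtain ⟨a'', ha'', hle⟩ := hend1 a' ha'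
    have := hnle amin a'' ha''
    linarith
  have hend2' : sSup (Q 0 '' Set.Icc (-Mc) (0:ℝ)) ≤ sSup (Q 0 '' Set.Icc 0 Mc) := by
    obtain ⟨a', ha', hval⟩ := hnmem 0
    obtain ⟨a'', ha'', hle⟩ := hend2 a' ha'
    have := hple 0 a'' ha''
    linarith
  have hcg : ContinuousOn (fun a => sSup (Q a '' Set.Icc (-Mc) (0:ℝ)) - sSup (Q a '' Set.Icc 0 Mc))
      (Set.Icc amin 0) := (hnc.sub hpc).continuousOn
  have hmem : (0:ℝ) ∈ Set.Icc (sSup (Q 0 '' Set.Icc (-Mc) (0:ℝ)) - sSup (Q 0 '' Set.Icc 0 Mc))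
      (sSup (Q amin '' Set.Icc (-Mc) (0:ℝ)) - sSup (Q amin '' Set.Icc 0 Mc)) := by
    constructor <;> linarith
  obtain ⟨ac, hac, he⟩ := intermediate_value_Icc' hamin hcg hmem
  obtain ⟨a₁, ha₁, hv₁⟩ := hnmem ac
  obtain ⟨a₂, ha₂, hv₂⟩ := hpmem ac
  refine ⟨ac, hac, a₁, ha₁, a₂, ha₂, ?_, ?_, ?_⟩
  · intro a' ha'; rw [hv₁]; exact hnle _ _ ha'
  · intro a' ha'; rw [hv₂]; exact hple _ _ ha'
  · rw [hv₁, hv₂]; simp only at he; linarith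

lemma quad_bound (Γ B κ x : ℝ) (hκ : 0 < κ) (hκdef : κ = 1 / 4 - Γ) :
    Γ * (x + B) ^ 2 - x ^ 2 / 4 ≤ (2 * (Γ * B) ^ 2 / κ + Γ * B ^ 2) - κ / 2 * x ^ 2 := by
  have h1 : 2 * (Γ * B) * x ≤ κ / 2 * x ^ 2 + 2 * (Γ * B) ^ 2 / κ := by
    have h2 : 0 ≤ (κ / 2) * (x - 2 * (Γ * B) / κ) ^ 2 := by positivity
    have h3 : (κ / 2) * (x - 2 * (Γ * B) / κ) ^ 2
        = κ / 2 * x ^ 2 - 2 * (Γ * B) * x + 2 * (Γ * B) ^ 2 / κ := by
      field_simp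
      ring
    linarith
  have : Γ * (x + B) ^ 2 - x ^ 2 / 4 = -κ * x ^ 2 + 2 * (Γ * B) * x + Γ * B ^ 2 := by
    rw [hκdef]; ring
  rw [this]
  nlinarith

/-- A real function with a double global maximum of `p - (a' - a)²/4`. -/
lemma exists_double_max (p : ℝ → ℝ) (hc : Continuous p) (hm : Monotone p) (h0 : ∀ a, 0 ≤ p a)
    (Γ B : ℝ) (hΓ0 : 0 ≤ Γ) (hΓ : Γ < 1 / 4) (hg : ∀ a, p a ≤ 1 + Γ * (a + B) ^ 2)
    (hch : p 0 < (p 1 + p (-1)) / 2 - 1 / 4) :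
    ∃ ac a₁ a₂, a₁ < a₂ ∧ (∀ a', p a' - (a' - ac) ^ 2 / 4 ≤ p a₁ - (a₁ - ac) ^ 2 / 4) ∧
      (∀ a', p a' - (a' - ac) ^ 2 / 4 ≤ p a₂ - (a₂ - ac) ^ 2 / 4) := by
  obtain ⟨κ, hκdef⟩ : ∃ κ : ℝ, κ = 1 / 4 - Γ := ⟨_, rfl⟩
  have hκ : 0 < κ := by rw [hκdef]; linarith
  obtain ⟨C1, hC1⟩ : ∃ C1 : ℝ, C1 = 2 * (Γ * B) ^ 2 / κ + Γ * B ^ 2 := ⟨_, rfl⟩
  have hC1nn : 0 ≤ C1 := by rw [hC1]; positivity
  have hquad : ∀ x : ℝ, Γ * (x + B) ^ 2 - x ^ 2 / 4 ≤ C1 - κ / 2 * x ^ 2 := by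
    intro x; rw [hC1]; exact quad_bound Γ B κ x hκ hκdef
  obtain ⟨amin, hamin⟩ : ∃ amin : ℝ, amin = -(4 * (1 + C1) + 2) := ⟨_, rfl⟩
  have hamin_neg : amin < 0 := by rw [hamin]; linarith
  have hamin_sq : 1 + C1 < amin ^ 2 / 4 := by
    rw [hamin]; nlinarith
  have hd0 : 0 ≤ 2 * (1 + C1) / κ := by positivity
  have hΓB : 0 ≤ Γ * B ^ 2 := by positivity
  obtain ⟨Mc, hM⟩ : ∃ Mc : ℝ, Mc = -amin + 2 * (1 + Γ * B ^ 2) + 2 + 2 * (1 + C1) / κ + 2 := ⟨_, rfl⟩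
  have hM1 : 1 ≤ Mc := by rw [hM]; linarith
  have hMamin : -Mc ≤ amin := by rw [hM]; linarith
  have hQc : Continuous (Function.uncurry (fun (a a' : ℝ) => p a' - (a' - a) ^ 2 / 4)) := by
    unfold Function.uncurry
    fun_prop
  have hout1 : ∀ a : ℝ, a ≤ 0 → ∀ a', Mc < a' → p a' - (a' - a) ^ 2 / 4 < 0 := by
    intro a ha a' ha'
    have ha'pos : 0 < a' := by linarith
    have h1 : a' ^ 2 ≤ (a' - a) ^ 2 := by nlinarith
    have h2 := hg a'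
    have h3 := hquad a'
    have h4 : 2 * (1 + C1) / κ ≤ Mc := by rw [hM]; linarith
    have h5 : 2 * (1 + C1) / κ < a' := by linarith
    have h6 : 2 * (1 + C1) < a' * κ := by
      rwa [div_lt_iff₀ hκ] at h5
    have h7 : 1 ≤ a' := by linarith
    have h8 : 1 + C1 < κ / 2 * a' ^ 2 := by nlinarith
    nlinarith
  have hout2 : ∀ a : ℝ, amin ≤ a → a ≤ 0 → ∀ a', a' < -Mc → p a' - (a' - a) ^ 2 / 4 < 0 := by
    intro a ha ha0 a' ha'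
    have h1 : p a' ≤ p 0 := hm (by linarith)
    have h2 := hg 0
    have h3 : a - a' ≥ 2 * (1 + Γ * B ^ 2) + 2 := by
      have hh : a - a' > amin + Mc := by linarith
      rw [hM] at hh
      linarith
    have h4 : (a' - a) ^ 2 / 4 > 1 + Γ * B ^ 2 := by
      have : (a' - a) ^ 2 = (a - a') ^ 2 := by ring
      rw [this]
      nlinarith
    have h5 : p 0 ≤ 1 + Γ * B ^ 2 := by simpa using h2
    linarith
  obtain ⟨ac, hac, a₁, ha₁, a₂, ha₂, hmax1, hmax2, heq⟩ := exists_cross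
    (fun (a a' : ℝ) => p a' - (a' - a) ^ 2 / 4) hQc Mc amin (by linarith) hamin_neg.le
    (by
      intro a' ha'
      refine ⟨amin, ⟨hMamin, hamin_neg.le⟩, ?_⟩
      have h3 := h0 amin
      have h5 := hg a'
      have h6 := hquad a'
      have h7 : a' ^ 2 + amin ^ 2 ≤ (a' - amin) ^ 2 := by nlinarith [ha'.1]
      simp only [sub_self, ne_eq, OfNat.ofNat_ne_zero, not_false_eq_true, zero_pow, zero_div, sub_zero]
      nlinarith [sq_nonneg a'])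
    (by
      intro a' ha'
      refine ⟨0, ⟨le_refl _, by linarith⟩, ?_⟩
      have : p a' ≤ p 0 := hm ha'.2
      simp only [sub_zero, ne_eq, OfNat.ofNat_ne_zero, not_false_eq_true, zero_pow, zero_div]
      nlinarith [sq_nonneg a'])
  have hnn : 0 ≤ p a₁ - (a₁ - ac) ^ 2 / 4 := by
    have h1 := hmax1 ac ⟨by linarith [hac.1], hac.2⟩
    have h3 := h0 ac
    simp only [sub_self, ne_eq, OfNat.ofNat_ne_zero, not_false_eq_true, zero_pow, zero_div, sub_zero] at h1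
    linarith
  have hglobal : ∀ a', p a' - (a' - ac) ^ 2 / 4 ≤ p a₁ - (a₁ - ac) ^ 2 / 4 := by
    intro a'
    by_cases h1 : a' < -Mc
    · linarith [hout2 ac hac.1 hac.2 a' h1]
    by_cases h2 : Mc < a'
    · linarith [hout1 ac hac.2 a' h2]
    push Not at h1 h2
    rcases le_total a' 0 with h3 | h3
    · exact hmax1 a' ⟨h1, h3⟩
    · have := hmax2 a' ⟨h3, h2⟩
      linarith
  have hnotzero : ∀ a : ℝ, ¬ (∀ a', p a' - (a' - a) ^ 2 / 4 ≤ p 0 - (0 - a) ^ 2 / 4) := by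
    intro a hmaxa
    have h1 := hmaxa 1
    have h2 := hmaxa (-1)
    nlinarith
  have ha₁ne : a₁ ≠ 0 := by
    rintro rfl
    exact hnotzero ac hglobal
  have ha₂ne : a₂ ≠ 0 := by
    rintro rfl
    exact hnotzero ac (fun a' => by rw [← heq]; exact hglobal a')
  refine ⟨ac, a₁, a₂, ?_, hglobal, fun a' => by rw [← heq]; exact hglobal a'⟩
  have h1 : a₁ < 0 := lt_of_le_of_ne ha₁.2 ha₁ne
  have h2 : 0 < a₂ := lt_of_le_of_ne ha₂.1 (Ne.symm ha₂ne)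
  linarith

section Main

variable {f : L1 → ℝ → ℝ} {τ : ℕ → ℝ} {Λ : ℝ → ℝ} {Γ B : ℝ}

lemma PData.Λnonneg (h : PData f τ Λ Γ B) (a : ℝ) : 0 ≤ Λ a := by
  obtain ⟨ρ, lam, _, h0, h1, _⟩ := h.tangent 0 (zero_mem_Dom (by norm_num)) a
  exact h0.trans h1

/-- One-sided Lipschitz bound from a tangent. -/
lemma PData.lip_one (h : PData f τ Λ Γ B) {c c' : L1} (hc : c ∈ Dom 4) (hc' : c' ∈ Dom 4) (a a' : ℝ) :
    f c a - f c' a' ≤ Λ a * (‖c' - c‖ + |a' - a|) := by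
  obtain ⟨ρ, lam, hl, h0, h1, ht, _⟩ := h.tangent c hc a
  have h2 := ht c' hc' a'
  have h3 := hl (c' - c)
  have h4 := (abs_le.mp h3).1
  have h5 : ρ * (a' - a) ≥ -(Λ a * |a' - a|) := by
    have h6 : -|a' - a| ≤ a' - a := neg_abs_le _
    have h7 : 0 ≤ |a' - a| := abs_nonneg _
    nlinarith
  nlinarith

lemma PData.lip (h : PData f τ Λ Γ B) {c c' : L1} (hc : c ∈ Dom 4) (hc' : c' ∈ Dom 4) {a a' b : ℝ}
    (ha : a ≤ b) (ha' : a' ≤ b) :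
    |f c a - f c' a'| ≤ Λ b * (‖c' - c‖ + |a' - a|) := by
  have h1 := h.lip_one hc hc' a a'
  have h2 := h.lip_one hc' hc a' a
  have hm1 := h.Λmono ha
  have hm2 := h.Λmono ha'
  have hn : 0 ≤ ‖c' - c‖ + |a' - a| := by positivity
  rw [norm_sub_rev c c', abs_sub_comm a a'] at h2
  rw [abs_le]
  constructor <;> nlinarith

lemma PData.mono (h : PData f τ Λ Γ B) {c : L1} (hc : c ∈ Dom 4) : Monotone (f c) := by
  intro a a' haa
  obtain ⟨ρ, lam, _, h0, _, ht, _⟩ := h.tangent c hc a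
  have h2 := ht c hc a'
  simp only [sub_self, map_zero] at h2
  have : 0 ≤ ρ * (a' - a) := mul_nonneg h0 (by linarith)
  linarith

lemma PData.cont (h : PData f τ Λ Γ B) {c : L1} (hc : c ∈ Dom 4) : Continuous (f c) := by
  rw [continuous_iff_continuousAt]
  intro a
  rw [Metric.continuousAt_iff]
  intro ε hε
  have hΛ := h.Λnonneg (a + 1)
  refine ⟨min 1 (ε / (Λ (a + 1) + 1)), by positivity, ?_⟩
  intro a' ha'
  rw [Real.dist_eq] at ha' ⊢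
  have h1 : |a' - a| < 1 := lt_of_lt_of_le ha' (min_le_left _ _)
  have h2 : |a' - a| < ε / (Λ (a + 1) + 1) := lt_of_lt_of_le ha' (min_le_right _ _)
  have h3 := h.lip hc hc (a := a') (a' := a) (b := a + 1) (by linarith [(abs_lt.mp h1).2]) (by linarith)
  simp only [sub_self, norm_zero, zero_add] at h3
  rw [abs_sub_comm a a'] at h3
  have h4 : |a' - a| * (Λ (a + 1) + 1) < ε := by
    rwa [lt_div_iff₀ (by positivity)] at h2
  have h5 : 0 ≤ |a' - a| := abs_nonneg _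
  nlinarith

/-- The slope of a tangent at a maximiser of `p - (a' - ac)²/4`. -/
lemma rho_eq {p : ℝ → ℝ} {ac ai ρ : ℝ}
    (hmax : ∀ a', p a' - (a' - ac) ^ 2 / 4 ≤ p ai - (ai - ac) ^ 2 / 4)
    (ht : ∀ a', p ai + ρ * (a' - ai) ≤ p a') : ρ = (ai - ac) / 2 := by
  have key : ∀ u : ℝ, (ρ - (ai - ac) / 2) * u ≤ u ^ 2 / 4 := by
    intro u
    have h1 := hmax (ai + u)
    have h2 := ht (ai + u)
    nlinarith
  have h3 := key (2 * (ρ - (ai - ac) / 2))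
  have h4 : (ρ - (ai - ac) / 2) ^ 2 ≤ 0 := by nlinarith
  have h5 : ρ - (ai - ac) / 2 = 0 := by
    have := sq_nonneg (ρ - (ai - ac) / 2)
    exact pow_eq_zero_iff (two_ne_zero) |>.mp (le_antisymm h4 this)
  linarith

lemma eL_mem_Dom3 (m : ℕ) : (2:ℝ) • eL m ∈ Dom 3 := by
  have := add_smul_mem_Dom (R := 3) (c := 0) (t := 2) (fun k => by simp) (by norm_num) (by simp; norm_num) m
  simpa using this

lemma eL_mem_Dom (t : ℝ) (ht : 0 ≤ t) (ht4 : t ≤ 4) (m : ℕ) : t • eL m ∈ Dom 4 := by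
  have := add_smul_mem_Dom (R := 4) (c := 0) (t := t) (fun k => by simp) ht (by simpa using ht4) m
  simpa using this

lemma corner_up {H ρ l τk δ ρp ac Gp G0 : ℝ} (hδ : 0 < δ) (hτρ : 2 * τk * ρ ≤ δ ^ 2 / 2)
    (hG : H + ρ ^ 2 + 2 * l + ρ * (ac + δ - (ac + 2 * ρ)) ≤ Gp)
    (hp : Gp + ρp * (ac - (ac + δ)) ≤ G0) (hub : G0 ≤ H + δ ^ 2 / 2)
    (hl : ρ ^ 2 / 2 - τk * ρ ≤ l) : ρ - ρp ≤ δ := by
  have h1 : (ρ - ρp) * δ ≤ δ ^ 2 := by nlinarith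
  by_contra hc
  push Not at hc
  nlinarith

lemma corner_down {H ρ l τk δ ρm ac Gm G0 : ℝ} (hδ : 0 < δ) (hτρ : 2 * τk * ρ ≤ δ ^ 2 / 2)
    (hG : H + ρ ^ 2 + 2 * l + ρ * (ac - δ - (ac + 2 * ρ)) ≤ Gm)
    (hm : Gm + ρm * (ac - (ac - δ)) ≤ G0) (hub : G0 ≤ H + δ ^ 2 / 2)
    (hl : ρ ^ 2 / 2 - τk * ρ ≤ l) : ρm - ρ ≤ δ := by
  have h1 : (ρm - ρ) * δ ≤ δ ^ 2 := by nlinarith
  by_contra hc
  push Not at hc
  nlinarith

/-- The first step: near the coexistence point, the perturbed function has a nearly-flat corner. -/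
lemma step1 (h : PData f τ Λ Γ B) :
    ∃ ac Δ : ℝ, 0 < Δ ∧ ∀ δ, 0 < δ → ∃ k : ℕ, ∀ ρp ρm : ℝ,
      (∀ a', f ((2:ℝ) • eL k) (ac + δ) + ρp * (a' - (ac + δ)) ≤ f ((2:ℝ) • eL k) a') →
      (∀ a', f ((2:ℝ) • eL k) (ac - δ) + ρm * (a' - (ac - δ)) ≤ f ((2:ℝ) • eL k) a') →
      Δ - 2 * δ ≤ ρp - ρm := by
  have h0D : (0 : L1) ∈ Dom 4 := zero_mem_Dom (by norm_num)
  obtain ⟨ac, a₁, a₂, hlt, hmax1, hmax2⟩ := exists_double_max (f 0) (h.cont h0D) (h.mono h0D)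
    (h.nonneg 0 h0D) Γ B h.Γnonneg h.Γlt (h.growth 0 h0D) h.chord
  obtain ⟨ρ₁, lam₁, _, hρ₁0, _, ht₁, hlow₁⟩ := h.tangent 0 h0D a₁
  obtain ⟨ρ₂, lam₂, _, hρ₂0, _, ht₂, hlow₂⟩ := h.tangent 0 h0D a₂
  have hρ₁ : ρ₁ = (a₁ - ac) / 2 := rho_eq hmax1 (fun a' => by
    have := ht₁ 0 h0D a'
    simpa using this)
  have hρ₂ : ρ₂ = (a₂ - ac) / 2 := rho_eq hmax2 (fun a' => by
    have := ht₂ 0 h0D a'
    simpa using this)
  refine ⟨ac, ρ₂ - ρ₁, by rw [hρ₁, hρ₂]; linarith, ?_⟩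
  intro δ hδ
  -- the choice of k
  have hup := h.upper 0 h0D 2 (by norm_num) (by simp; norm_num) ac (f 0 a₁ - (a₁ - ac) ^ 2 / 4)
    (by
      intro b _
      have := hmax1 (ac + b)
      have e : (ac + b - ac) ^ 2 = b ^ 2 := by ring
      rw [e] at this
      have e2 : b ^ 2 / (2 * 2) = b ^ 2 / 4 := by ring
      rw [e2]
      exact this)
    (δ ^ 2 / 2) (by positivity)
  obtain ⟨M, hM⟩ := hup
  have hτ : ∀ᶠ m in atTop, τ m * (2 * (ρ₁ + ρ₂ + 1)) < δ ^ 2 / 2 := by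
    have h1 : Tendsto (fun m => τ m * (2 * (ρ₁ + ρ₂ + 1))) atTop (𝓝 (0 * (2 * (ρ₁ + ρ₂ + 1)))) :=
      h.τlim.mul_const _
    rw [zero_mul] at h1
    exact h1.eventually (gt_mem_nhds (by positivity))
  obtain ⟨k, hk1, hk2⟩ := ((eventually_ge_atTop M).and hτ).exists
  refine ⟨k, ?_⟩
  intro ρp ρm htp htm
  have hub : f (0 + (2:ℝ) • eL k) ac ≤ f 0 a₁ - (a₁ - ac) ^ 2 / 4 + δ ^ 2 / 2 := hM k hk1
  rw [zero_add] at hub
  have h2D : (2:ℝ) • eL k ∈ Dom 4 := eL_mem_Dom 2 (by norm_num) (by norm_num) k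
  have hτk := h.τnonneg k
  have e2 : (2 : ℝ) • eL k - 0 = (2:ℝ) • eL k := by simp
  -- lower bounds
  have hG₂ := ht₂ _ h2D (ac + δ)
  have hG₁ := ht₁ _ h2D (ac - δ)
  rw [e2, map_smul, smul_eq_mul] at hG₁ hG₂
  have hsame : f 0 a₂ - (a₂ - ac) ^ 2 / 4 = f 0 a₁ - (a₁ - ac) ^ 2 / 4 :=
    le_antisymm (hmax1 a₂) (hmax2 a₁)
  have ea₁ : a₁ = ac + 2 * ρ₁ := by rw [hρ₁]; ring
  have ea₂ : a₂ = ac + 2 * ρ₂ := by rw [hρ₂]; ring
  obtain ⟨H, hH⟩ : ∃ H, H = f 0 a₁ - (a₁ - ac) ^ 2 / 4 := ⟨_, rfl⟩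
  rw [← hH] at hub hsame
  have hf₁ : f 0 a₁ = H + ρ₁ ^ 2 := by
    rw [hH, hρ₁]
    ring
  have hf₂ : f 0 a₂ = H + ρ₂ ^ 2 := by
    have : f 0 a₂ = H + (a₂ - ac) ^ 2 / 4 := by linarith
    rw [this, hρ₂]
    ring
  rw [hf₂, ea₂] at hG₂
  rw [hf₁, ea₁] at hG₁
  have h1τ : 2 * τ k * ρ₂ ≤ δ ^ 2 / 2 := by nlinarith [mul_nonneg hτk hρ₁0]
  have h2τ : 2 * τ k * ρ₁ ≤ δ ^ 2 / 2 := by nlinarith [mul_nonneg hτk hρ₂0]
  have h3 := corner_up hδ h1τ hG₂ (htp ac) hub (hlow₂ k)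
  have h4 := corner_down hδ h2τ hG₁ (htm ac) hub (hlow₁ k)
  linarith

/-- Local linear bound from the derivative. -/
lemma local_slope {g : ℝ → ℝ} {a D : ℝ} (hD : HasDerivAt g D a) {η : ℝ} (hη : 0 < η) :
    ∃ u₀ > 0, ∀ u, |u| ≤ u₀ → |g (a + u) - g a - u * D| ≤ η * |u| := by
  have h1 := (hasDerivAt_iff_isLittleO_nhds_zero.mp hD).def hη
  obtain ⟨u₀, hu₀, hb⟩ := Metric.eventually_nhds_iff.mp h1
  refine ⟨u₀ / 2, by positivity, fun u hu => ?_⟩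
  have h2 := @hb u (by rw [Real.dist_eq, sub_zero]; linarith)
  simpa [Real.norm_eq_abs, smul_eq_mul] using h2

/-- The derivative at an Ekeland point is close to the prescribed slope. -/
lemma deriv_close {g : ℝ → ℝ} {a D ρ0 s u₁ : ℝ} (hD : HasDerivAt g D a) (hu₁ : 0 < u₁)
    (hE : ∀ u, |u| ≤ u₁ → g a - ρ0 * a ≤ g (a + u) - ρ0 * (a + u) + s * |u|) :
    ρ0 - s ≤ D ∧ D ≤ ρ0 + s := by
  constructor
  · refine le_of_forall_pos_le_add (fun η hη => ?_)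
    obtain ⟨u₀, hu₀, hb⟩ := local_slope hD hη
    obtain ⟨u, hu, hu2⟩ : ∃ u : ℝ, 0 < u ∧ u ≤ min u₀ u₁ := ⟨min u₀ u₁, by positivity, le_refl _⟩
    have hua : |u| = u := abs_of_pos hu
    have h1 := hE u (by rw [hua]; exact hu2.trans (min_le_right _ _))
    have h2 := hb u (by rw [hua]; exact hu2.trans (min_le_left _ _))
    rw [hua] at h1 h2
    have h3 := (abs_le.mp h2).2
    have h4 : (ρ0 - s) * u ≤ (D + η) * u := by nlinarith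
    exact le_of_mul_le_mul_right h4 hu
  · refine le_of_forall_pos_le_add (fun η hη => ?_)
    obtain ⟨u₀, hu₀, hb⟩ := local_slope hD hη
    obtain ⟨u, hu, hu2⟩ : ∃ u : ℝ, 0 < u ∧ u ≤ min u₀ u₁ := ⟨min u₀ u₁, by positivity, le_refl _⟩
    have hua : |(-u)| = u := by rw [abs_neg]; exact abs_of_pos hu
    have h1 := hE (-u) (by rw [hua]; exact hu2.trans (min_le_right _ _))
    have h2 := hb (-u) (by rw [hua]; exact hu2.trans (min_le_left _ _))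
    rw [hua] at h1 h2
    have h3 := (abs_le.mp h2).2
    have h4 : D * u ≤ (ρ0 + s + η) * u := by nlinarith
    exact le_of_mul_le_mul_right h4 hu

/-- The small `t` claim. -/
lemma small_t (h : PData f τ Λ Γ B) {c : L1} (hc : c ∈ Dom 4) {a Dp : ℝ} {u₀ : ℝ} (hu₀ : 0 < u₀)
    (hb : ∀ b, 0 ≤ b → b ≤ u₀ → f c (a + b) ≤ f c a + Dp * b) (_hDp : 0 ≤ Dp) :
    ∃ t : ℝ, 0 < t ∧ t ≤ 1 / 2 ∧ ∀ b, 0 ≤ b → f c (a + b) - b ^ 2 / (2 * t) ≤ f c a + t * Dp ^ 2 / 2 := by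
  have hΓ := h.Γnonneg
  obtain ⟨C1, hC1⟩ : ∃ C1, C1 = 1 + 2 * Γ * (a + B) ^ 2 := ⟨_, rfl⟩
  have hC1p : 0 ≤ C1 := by rw [hC1]; positivity
  refine ⟨min (1 / 2) (min (1 / (8 * Γ + 1)) (u₀ ^ 2 / (4 * C1 + 1))), by positivity, min_le_left _ _, ?_⟩
  obtain ⟨t, ht⟩ : ∃ t, t = min (1 / 2) (min (1 / (8 * Γ + 1)) (u₀ ^ 2 / (4 * C1 + 1))) := ⟨_, rfl⟩
  rw [← ht]
  have htpos : 0 < t := by rw [ht]; positivity
  have ht1 : t ≤ 1 / (8 * Γ + 1) := by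
    rw [ht]; exact (min_le_right _ _).trans (min_le_left _ _)
  have ht2 : t ≤ u₀ ^ 2 / (4 * C1 + 1) := by
    rw [ht]; exact (min_le_right _ _).trans (min_le_right _ _)
  have ht1' : t * (8 * Γ + 1) ≤ 1 := by
    rwa [le_div_iff₀ (by positivity)] at ht1
  have ht2' : t * (4 * C1 + 1) ≤ u₀ ^ 2 := by
    rwa [le_div_iff₀ (by positivity)] at ht2
  intro b hb0
  by_cases hbu : b ≤ u₀
  · have h1 := hb b hb0 hbu
    have h2 : Dp * b ≤ b ^ 2 / (2 * t) + t * Dp ^ 2 / 2 := by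
      have h3 : 0 ≤ (b - t * Dp) ^ 2 / (2 * t) := by positivity
      have h4 : (b - t * Dp) ^ 2 / (2 * t) = b ^ 2 / (2 * t) + t * Dp ^ 2 / 2 - Dp * b := by
        field_simp
        ring
      linarith
    linarith
  · push Not at hbu
    have h1 := h.growth c hc (a + b)
    have h2 := h.nonneg c hc a
    have h3 : (a + b + B) ^ 2 ≤ 2 * (a + B) ^ 2 + 2 * b ^ 2 := by nlinarith [sq_nonneg (a + B - b)]
    have h4 : f c (a + b) ≤ C1 + 2 * Γ * b ^ 2 := by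
      rw [hC1]
      nlinarith
    have h5 : 2 * Γ * b ^ 2 + b ^ 2 / (4 * t) ≤ b ^ 2 / (2 * t) := by
      have e : b ^ 2 / (2 * t) - b ^ 2 / (4 * t) = b ^ 2 / (4 * t) := by
        field_simp
        ring
      have h6 : 2 * Γ * b ^ 2 ≤ b ^ 2 / (4 * t) := by
        rw [le_div_iff₀ (by positivity)]
        nlinarith [sq_nonneg b]
      linarith
    have h6 : C1 ≤ b ^ 2 / (4 * t) := by
      rw [le_div_iff₀ (by positivity)]
      nlinarith [sq_nonneg b]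
    have h7 : 0 ≤ t * Dp ^ 2 / 2 := by positivity
    linarith

/-- The final computation at the Ekeland point. -/
lemma final_step (h : PData f τ Λ Γ B) {cs : L1} (hcs3 : cs ∈ Dom 3) (hnorm : ‖cs‖ ≤ 5 / 2)
    {as : ℝ} {lam0 : L1 →ₗ[ℝ] ℝ} {ρ0 s ρb ρp ρm : ℝ}
    (hρ0 : 0 ≤ ρ0) (hs : 0 < s) (hs2 : s ≤ 1 / 2) (hρb : ρ0 ≤ ρb)
    (hρ0def : ρ0 = (ρp + ρm) / 2)
    (hEa : ∀ u, |u| ≤ 1 / 2 → f cs as - lam0 cs - ρ0 * as ≤ f cs (as + u) - lam0 cs - ρ0 * (as + u) + s * |u|)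
    (hEc : ∀ t, 0 < t → t ≤ 1 / 2 → ∀ m, f cs as - lam0 cs - ρ0 * as ≤
      f (cs + t • eL m) as - lam0 (cs + t • eL m) - ρ0 * as + s * t)
    (hdiff : DifferentiableAt ℝ (f cs) as)
    (hlow : ∀ m, (ρp ^ 2 + ρm ^ 2) / 4 - τ m * ρ0 ≤ lam0 (eL m)) :
    (ρp - ρm) ^ 2 / 8 ≤ s * (2 * ρb + 4) := by
  have hcs4 : cs ∈ Dom 4 := Dom_mono (by norm_num) hcs3
  obtain ⟨D, hD⟩ : ∃ D, HasDerivAt (f cs) D as := ⟨_, hdiff.hasDerivAt⟩
  have hclose := deriv_close (s := s) (ρ0 := ρ0) (u₁ := 1 / 2) hD (by norm_num)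
    (fun u hu => by have := hEa u hu; linarith)
  have hDabs : |D| ≤ ρ0 + s := abs_le.mpr ⟨by linarith [hclose.1], hclose.2⟩
  obtain ⟨Dp, hDpdef⟩ : ∃ Dp, Dp = |D| + s := ⟨_, rfl⟩
  have hDp0 : 0 ≤ Dp := by rw [hDpdef]; positivity
  have hDple : Dp ≤ ρ0 + 2 * s := by rw [hDpdef]; linarith
  obtain ⟨u₀, hu₀, hloc⟩ := local_slope hD hs
  obtain ⟨t, ht0, ht2, htb⟩ := small_t h hcs4 hu₀ (Dp := Dp) (fun b hb0 hbu => by
    have h1 := hloc b (by rw [abs_of_nonneg hb0]; exact hbu)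
    rw [abs_of_nonneg hb0] at h1
    have h2 := (abs_le.mp h1).2
    have h3 : D ≤ |D| := le_abs_self D
    rw [hDpdef]
    nlinarith) hDp0
  obtain ⟨M, hM⟩ := h.upper cs hcs4 t ht0 (by linarith) as _ htb (t * s) (by positivity)
  have hτ : ∀ᶠ m in atTop, τ m * (ρb + 1) < s := by
    have h1 : Tendsto (fun m => τ m * (ρb + 1)) atTop (𝓝 (0 * (ρb + 1))) :=
      h.τlim.mul_const _
    rw [zero_mul] at h1
    exact h1.eventually (gt_mem_nhds hs)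
  obtain ⟨m, hm1, hm2⟩ := ((eventually_ge_atTop M).and hτ).exists
  have hup := hM m hm1
  have hE := hEc t ht0 ht2 m
  rw [map_add, map_smul, smul_eq_mul] at hE
  have hl := hlow m
  have hτm := h.τnonneg m
  have h1 : t * lam0 (eL m) ≤ t * (Dp ^ 2 / 2 + 2 * s) := by nlinarith
  have h2 : lam0 (eL m) ≤ Dp ^ 2 / 2 + 2 * s := le_of_mul_le_mul_left h1 ht0
  have h3 : Dp ^ 2 ≤ (ρ0 + 2 * s) ^ 2 := by
    apply pow_le_pow_left₀ hDp0 hDple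
  have h4 : τ m * ρ0 ≤ s := by
    have : τ m * ρ0 ≤ τ m * (ρb + 1) := mul_le_mul_of_nonneg_left (by linarith) hτm
    linarith
  have h5 : (ρp ^ 2 + ρm ^ 2) / 4 - ρ0 ^ 2 / 2 = (ρp - ρm) ^ 2 / 8 := by
    rw [hρ0def]; ring
  have h6 : s * ρ0 ≤ s * ρb := mul_le_mul_of_nonneg_left hρb hs.le
  nlinarith

/-- The closed set on which Ekeland's principle is applied. -/
def Sset (ac : ℝ) : Set (L1 × ℝ) := {y | y.1 ∈ Dom 3 ∧ |y.2 - ac| ≤ 1}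

lemma isClosed_Dom (R : ℝ) : IsClosed (Dom R) := by
  have h1 : Dom R = (⋂ k, {c : L1 | 0 ≤ c k}) ∩ {c : L1 | ‖c‖ ≤ R} := by
    ext c
    simp [Dom]
  rw [h1]
  refine IsClosed.inter (isClosed_iInter fun k => ?_) (isClosed_le continuous_norm continuous_const)
  have hc : Continuous (fun c : L1 => c k) := by
    have := (lp.evalCLM (𝕜 := ℝ) (E := fun _ : ℕ => ℝ) (p := 1) k).continuous
    exact this
  exact isClosed_le continuous_const hc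

lemma isClosed_Sset (ac : ℝ) : IsClosed (Sset ac) := by
  have h1 : Sset ac = (Prod.fst ⁻¹' Dom 3) ∩ {y : L1 × ℝ | |y.2 - ac| ≤ 1} := by
    ext y
    simp [Sset]
  rw [h1]
  refine IsClosed.inter ((isClosed_Dom 3).preimage continuous_fst) ?_
  exact isClosed_le (by fun_prop) continuous_const

lemma dist_fst_le' (x y : L1 × ℝ) : dist x.1 y.1 ≤ dist x y := by
  rw [Prod.dist_eq]; exact le_max_left _ _

lemma dist_snd_le' (x y : L1 × ℝ) : dist x.2 y.2 ≤ dist x y := by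
  rw [Prod.dist_eq]; exact le_max_right _ _

/-- Ekeland's principle on `Sset`. -/
lemma ekeland_on (h : PData f τ Λ Γ B) {ac : ℝ} {lam0 : L1 →ₗ[ℝ] ℝ} {ρ0 : ℝ} {R : ℝ}
    (hlam : ∀ b, |lam0 b| ≤ R * ‖b‖) (hR : 0 ≤ R) {c0 : L1} {a0 : ℝ} (h0 : (c0, a0) ∈ Sset ac)
    {ε κ : ℝ} (hκ : 0 < κ)
    (hmin : ∀ y ∈ Sset ac, f c0 a0 - lam0 c0 - ρ0 * a0 ≤ f y.1 y.2 - lam0 y.1 - ρ0 * y.2 + ε) :
    ∃ x ∈ Sset ac, κ * dist x (c0, a0) ≤ ε ∧ ∀ y ∈ Sset ac,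
      f x.1 x.2 - lam0 x.1 - ρ0 * x.2 ≤ f y.1 y.2 - lam0 y.1 - ρ0 * y.2 + κ * dist x y := by
  have : CompleteSpace (Sset ac) := (isClosed_Sset ac).completeSpace_coe
  let F : Sset ac → ℝ := fun y => f y.1.1 y.1.2 - lam0 y.1.1 - ρ0 * y.1.2
  have hlam0 : Continuous (fun y : Sset ac => lam0 y.1.1) := by
    have : Continuous (fun b : L1 => lam0 b) :=
      (lam0.mkContinuous R hlam).continuous
    exact this.comp (continuous_fst.comp continuous_subtype_val)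
  have hfc : Continuous (fun y : Sset ac => f y.1.1 y.1.2) := by
    have hL : LipschitzWith (Real.toNNReal (2 * Λ (ac + 1))) (fun y : Sset ac => f y.1.1 y.1.2) := by
      refine LipschitzWith.of_dist_le_mul (fun x y => ?_)
      have hx4 : x.1.1 ∈ Dom 4 := Dom_mono (by norm_num) x.2.1
      have hy4 : y.1.1 ∈ Dom 4 := Dom_mono (by norm_num) y.2.1
      have hxa : x.1.2 ≤ ac + 1 := by linarith [(abs_le.mp x.2.2).2]
      have hya : y.1.2 ≤ ac + 1 := by linarith [(abs_le.mp y.2.2).2]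
      have h1 := h.lip hx4 hy4 hxa hya
      rw [Real.dist_eq]
      have hnn := h.Λnonneg (ac + 1)
      rw [Real.coe_toNNReal _ (by positivity)]
      have h2 : ‖y.1.1 - x.1.1‖ ≤ dist x y := by
        rw [← dist_eq_norm, dist_comm]
        exact (dist_fst_le' x.1 y.1)
      have h3 : |y.1.2 - x.1.2| ≤ dist x y := by
        rw [← Real.dist_eq, dist_comm]
        exact (dist_snd_le' x.1 y.1)
      calc |f x.1.1 x.1.2 - f y.1.1 y.1.2| ≤ _ := h1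
        _ ≤ Λ (ac + 1) * (dist x y + dist x y) := by
          apply mul_le_mul_of_nonneg_left _ hnn
          linarith
        _ = 2 * Λ (ac + 1) * dist x y := by ring
    exact hL.continuous
  have hF : Continuous F := by
    have h2 : Continuous (fun y : Sset ac => y.1.2) := continuous_snd.comp continuous_subtype_val
    exact (hfc.sub hlam0).sub (continuous_const.mul h2)
  obtain ⟨x, hx1, hx2⟩ := ekeland F hF ε κ hκ ⟨(c0, a0), h0⟩ (fun y => hmin y.1 y.2)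
  refine ⟨x.1, x.2, ?_, fun y hy => hx2 ⟨y, hy⟩⟩
  simpa [Subtype.dist_eq] using hx1

/-- The approximate minimality of the average of two tangents. -/
lemma almost_min {x0 xp xm : ℝ} {c0 : L1} {lamp lamm : L1 →ₗ[ℝ] ℝ} {ρp ρm δ ρz : ℝ}
    {lamz : L1 →ₗ[ℝ] ℝ}
    (hzp : f c0 x0 + lamz (c0 - c0) + ρz * (xp - x0) ≤ f c0 xp)
    (hzm : f c0 x0 + lamz (c0 - c0) + ρz * (xm - x0) ≤ f c0 xm)
    (hxp : xp = x0 + δ) (hxm : xm = x0 - δ) {c : L1} {a : ℝ}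
    (htp : f c0 xp + lamp (c - c0) + ρp * (a - xp) ≤ f c a)
    (htm : f c0 xm + lamm (c - c0) + ρm * (a - xm) ≤ f c a) :
    f c0 x0 - ((1 / 2 : ℝ) • (lamp + lamm)) c0 - (ρp + ρm) / 2 * x0 ≤
      f c a - ((1 / 2 : ℝ) • (lamp + lamm)) c - (ρp + ρm) / 2 * a + (ρp - ρm) * δ / 2 := by
  simp only [map_sub, sub_self, map_zero, add_zero] at hzp hzm htp htm
  simp only [LinearMap.smul_apply, LinearMap.add_apply, smul_eq_mul]
  subst hxp hxm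
  nlinarith

/-- From approximate minimality to the inequality on the gap of the two slopes. -/
lemma ekeland_to_final (h : PData f τ Λ Γ B)
    (hcon : ∀ c ∈ Dom 3, ∀ a, DifferentiableAt ℝ (f c) a)
    {ac s ρb ρp ρm : ℝ} {c0 : L1} {lam0 : L1 →ₗ[ℝ] ℝ} (hs0 : 0 < s) (hs1 : s ≤ 1 / 2)
    (hρbnn : 0 ≤ ρb) (hρp0 : 0 ≤ ρp) (hρm0 : 0 ≤ ρm) (hρpb : ρp ≤ ρb) (hρmb : ρm ≤ ρb)
    (hlam0b : ∀ b, |lam0 b| ≤ ρb * ‖b‖)
    (hlow : ∀ m, (ρp ^ 2 + ρm ^ 2) / 4 - τ m * ((ρp + ρm) / 2) ≤ lam0 (eL m))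
    (hmem0 : (c0, ac) ∈ Sset ac) (hc0 : ‖c0‖ ≤ 2)
    (hmin : ∀ y ∈ Sset ac, f c0 ac - lam0 c0 - (ρp + ρm) / 2 * ac ≤
      f y.1 y.2 - lam0 y.1 - (ρp + ρm) / 2 * y.2 + s ^ 2) :
    (ρp - ρm) ^ 2 / 8 ≤ s * (2 * ρb + 4) := by
  have hρ0nn : 0 ≤ (ρp + ρm) / 2 := by positivity
  have hρ0b : (ρp + ρm) / 2 ≤ ρb := by linarith
  obtain ⟨x, hxS, hxd, hxE⟩ := ekeland_on h hlam0b hρbnn hmem0 (ε := s ^ 2) hs0 hmin
  have hdist : dist x (c0, ac) ≤ s := by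
    have : s * dist x (c0, ac) ≤ s * s := by nlinarith
    exact le_of_mul_le_mul_left this hs0
  have hd1 : ‖x.1 - c0‖ ≤ s := by
    rw [← dist_eq_norm]
    exact (dist_fst_le' x (c0, ac)).trans hdist
  have hd2 : |x.2 - ac| ≤ s := by
    rw [← Real.dist_eq]
    exact (dist_snd_le' x (c0, ac)).trans hdist
  have hnorm : ‖x.1‖ ≤ 5 / 2 := by
    have h1 : ‖x.1‖ ≤ ‖x.1 - c0‖ + ‖c0‖ := norm_le_norm_sub_add _ _
    linarith
  refine final_step h (cs := x.1) (as := x.2) (lam0 := lam0) (ρ0 := (ρp + ρm) / 2) (s := s) (ρb := ρb)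
    (ρp := ρp) (ρm := ρm) hxS.1 hnorm hρ0nn hs0 hs1 hρ0b rfl ?_ ?_ (hcon _ hxS.1 _) hlow
  · intro u hu
    have hy : (x.1, x.2 + u) ∈ Sset ac := by
      refine ⟨hxS.1, ?_⟩
      have : x.2 + u - ac = (x.2 - ac) + u := by ring
      simp only
      rw [this]
      exact (abs_add_le _ _).trans (by linarith)
    have h1 := hxE _ hy
    have h2 : dist x (x.1, x.2 + u) = |u| := by
      rw [Prod.dist_eq]
      simp only [dist_self, Real.dist_eq]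
      have e : x.2 - (x.2 + u) = -u := by ring
      rw [e, abs_neg]
      exact max_eq_right (abs_nonneg _)
    rw [h2] at h1
    simpa using h1
  · intro t ht0 ht2 m
    have hy : (x.1 + t • eL m, x.2) ∈ Sset ac := by
      refine ⟨add_smul_mem_Dom hxS.1.1 ht0.le (by linarith) m, hxS.2⟩
    have h1 := hxE _ hy
    have h2 : dist x (x.1 + t • eL m, x.2) = t := by
      rw [Prod.dist_eq]
      simp only [dist_self]
      rw [dist_eq_norm]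
      have e : x.1 - (x.1 + t • eL m) = -(t • eL m) := by abel
      rw [e, norm_neg, norm_smul, norm_eL, mul_one, Real.norm_of_nonneg ht0.le]
      exact max_eq_left ht0.le
    rw [h2] at h1
    simpa using h1

theorem abstract_kink (h : PData f τ Λ Γ B) : ∃ c ∈ Dom 3, ∃ a, ¬ DifferentiableAt ℝ (f c) a := by
  by_contra hcon
  push Not at hcon
  obtain ⟨ac, Δ, hΔ, hstep⟩ := step1 h
  have hρbnn := h.Λnonneg (ac + 1)
  obtain ⟨ρb, hρbdef⟩ : ∃ ρb, ρb = Λ (ac + 1) := ⟨_, rfl⟩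
  rw [← hρbdef] at hρbnn
  obtain ⟨s, hs⟩ : ∃ s, s = min (1 / 2) (min (Δ ^ 2 / (128 * (ρb + 2))) (Δ / 2)) := ⟨_, rfl⟩
  have hs0 : 0 < s := by rw [hs]; positivity
  have hs1 : s ≤ 1 / 2 := by rw [hs]; exact min_le_left _ _
  have hs2 : s ≤ Δ ^ 2 / (128 * (ρb + 2)) := by
    rw [hs]; exact (min_le_right _ _).trans (min_le_left _ _)
  have hs3 : s ≤ Δ / 2 := by
    rw [hs]; exact (min_le_right _ _).trans (min_le_right _ _)
  obtain ⟨δ, hδdef⟩ : ∃ δ, δ = s ^ 2 / (ρb + 1) := ⟨_, rfl⟩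
  have hδ0 : 0 < δ := by rw [hδdef]; positivity
  have hδs : δ * (ρb + 1) = s ^ 2 := by rw [hδdef]; field_simp
  have hδle : δ ≤ s ^ 2 := by nlinarith
  have hδ1 : δ ≤ 1 / 4 := by nlinarith
  have hδ4 : δ ≤ Δ / 4 := by nlinarith
  obtain ⟨k, hk⟩ := hstep δ hδ0
  have h2D : (2:ℝ) • eL k ∈ Dom 4 := eL_mem_Dom 2 (by norm_num) (by norm_num) k
  have h2D3 : (2:ℝ) • eL k ∈ Dom 3 := eL_mem_Dom3 k
  obtain ⟨ρz, lamz, _, _, _, htz, _⟩ := h.tangent _ h2D ac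
  obtain ⟨ρp, lamp, hlp, hρp0, hρp1, htp, hlowp⟩ := h.tangent _ h2D (ac + δ)
  obtain ⟨ρm, lamm, hlm, hρm0, hρm1, htm, hlowm⟩ := h.tangent _ h2D (ac - δ)
  have hΛp : Λ (ac + δ) ≤ ρb := by rw [hρbdef]; exact h.Λmono (by linarith)
  have hΛm : Λ (ac - δ) ≤ ρb := by rw [hρbdef]; exact h.Λmono (by linarith)
  have hcorner := hk ρp ρm (fun a' => by simpa using htp _ h2D a') (fun a' => by simpa using htm _ h2D a')
  have hdiff : Δ / 2 ≤ ρp - ρm := by linarith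
  have hfinal : (ρp - ρm) ^ 2 / 8 ≤ s * (2 * ρb + 4) := by
    refine ekeland_to_final h hcon (ac := ac) (c0 := (2:ℝ) • eL k) (lam0 := (1 / 2 : ℝ) • (lamp + lamm))
      hs0 hs1 hρbnn hρp0 hρm0 (by linarith) (by linarith) ?_ ?_ ⟨h2D3, by simp⟩ (by simp [norm_smul, norm_eL]) ?_
    · intro b
      simp only [LinearMap.smul_apply, LinearMap.add_apply, smul_eq_mul]
      have h1 := hlp b
      have h2 := hlm b
      have hn := norm_nonneg b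
      have h3 : Λ (ac + δ) * ‖b‖ ≤ ρb * ‖b‖ := mul_le_mul_of_nonneg_right hΛp hn
      have h4 : Λ (ac - δ) * ‖b‖ ≤ ρb * ‖b‖ := mul_le_mul_of_nonneg_right hΛm hn
      rw [abs_le] at h1 h2 ⊢
      constructor <;> nlinarith [h1.1, h1.2, h2.1, h2.2]
    · intro m
      have h1 := hlowp m
      have h2 := hlowm m
      simp only [LinearMap.smul_apply, LinearMap.add_apply, smul_eq_mul]
      nlinarith
    · intro y hy
      have hy4 : y.1 ∈ Dom 4 := Dom_mono (by norm_num) hy.1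
      have h1 := almost_min (f := f) (c0 := (2:ℝ) • eL k) (x0 := ac) (xp := ac + δ) (xm := ac - δ)
        (lamp := lamp) (lamm := lamm) (ρp := ρp) (ρm := ρm) (δ := δ) (ρz := ρz) (lamz := lamz)
        (htz _ h2D _) (htz _ h2D _) rfl rfl (c := y.1) (a := y.2)
        (htp _ hy4 _) (htm _ hy4 _)
      have h2 : (ρp - ρm) * δ / 2 ≤ s ^ 2 := by
        have h3 : ρp - ρm ≤ ρb + 1 := by linarith
        have h4 : (ρp - ρm) * δ ≤ (ρb + 1) * δ := mul_le_mul_of_nonneg_right h3 hδ0.le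
        nlinarith [sq_nonneg s]
      linarith
  have hsq : (Δ / 2) ^ 2 ≤ (ρp - ρm) ^ 2 := pow_le_pow_left₀ (by positivity) hdiff 2
  have hsb : s * (2 * ρb + 4) ≤ Δ ^ 2 / 64 := by
    have h1 : s * (128 * (ρb + 2)) ≤ Δ ^ 2 := by
      rwa [le_div_iff₀ (by positivity)] at hs2
    nlinarith
  nlinarith [sq_pos_of_pos hΔ]

end Main

end Vale.Agent.Lib.P171
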