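import Mathlib

/-!
# Configuration integrals

Iterated integrals over lists of points, the superposition formula and product bounds.
-/

set_option linter.unusedSectionVars false
set_option linter.unusedVariables false
set_option linter.unusedSimpArgs false

namespace Vale.Agent.Lib.P171

open MeasureTheory Finset
open scoped ENNReal

variable {α : Type} [MeasurableSpace α]

/-- The iterated integral of a function of lists of length `n`. -/
noncomputable def It (μ : Measure α) : ℕ → (List α → ℝ≥0∞) → ℝ≥0∞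
  | 0, G => G []
  | n + 1, G => ∫⁻ y, It μ n (fun l => G (y :: l)) ∂μ

/-- Measurability in a parameter and in all the points of a list. -/
def MeasP {P : Type} [MeasurableSpace P] (G : P → List α → ℝ≥0∞) : Prop :=
  ∀ n, Measurable (fun q : P × (Fin n → α) => G q.1 (List.ofFn q.2))

/-- Measurability in all the points of a list. -/
def LMeas (G : List α → ℝ≥0∞) : Prop := ∀ n, Measurable (fun x : Fin n → α => G (List.ofFn x))

/-- Invariance under permutation of the points. -/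
def PermInv (G : List α → ℝ≥0∞) : Prop := ∀ l l', List.Perm l l' → G l = G l'

lemma ofFn_cons' {n : ℕ} (y : α) (x : Fin n → α) :
    List.ofFn (Fin.cons y x : Fin (n + 1) → α) = y :: List.ofFn x := by
  simp [List.ofFn_succ]

lemma measurable_fin_cons {P : Type} [MeasurableSpace P] {n : ℕ} {a : P → α} {b : P → Fin n → α}
    (ha : Measurable a) (hb : Measurable b) :
    Measurable (fun p => (Fin.cons (a p) (b p) : Fin (n + 1) → α)) := by
  refine measurable_pi_lambda _ (fun i => ?_)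
  refine Fin.cases ?_ (fun j => ?_) i
  · simpa using ha
  · simpa using measurable_pi_iff.mp hb j

lemma measurable_fin_append {P : Type} [MeasurableSpace P] {m n : ℕ} {a : P → Fin m → α}
    {b : P → Fin n → α} (ha : Measurable a) (hb : Measurable b) :
    Measurable (fun p => (Fin.append (a p) (b p) : Fin (m + n) → α)) := by
  refine measurable_pi_lambda _ (fun i => ?_)
  refine Fin.addCases (fun j => ?_) (fun j => ?_) i
  · simpa [Fin.append_left] using measurable_pi_iff.mp ha j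
  · simpa [Fin.append_right] using measurable_pi_iff.mp hb j

lemma MeasP.cons {P : Type} [MeasurableSpace P] {G : P → List α → ℝ≥0∞} (hG : MeasP G) :
    MeasP (P := P × α) (fun q l => G q.1 (q.2 :: l)) := by
  intro n
  have h1 := hG (n + 1)
  have h2 : Measurable (fun q : (P × α) × (Fin n → α) =>
      (q.1.1, (Fin.cons q.1.2 q.2 : Fin (n + 1) → α))) :=
    (measurable_fst.comp measurable_fst).prodMk
      (measurable_fin_cons (measurable_snd.comp measurable_fst) measurable_snd)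
  have h3 := h1.comp h2
  convert h3 using 2 with q
  simp

lemma measurable_It (μ : Measure α) [SFinite μ] (n : ℕ) :
    ∀ {P : Type} [MeasurableSpace P] {G : P → List α → ℝ≥0∞}, MeasP G →
      Measurable (fun p => It μ n (G p)) := by
  induction n with
  | zero =>
    intro P _ G hG
    have h1 := hG 0
    have h2 : Measurable (fun p : P => (p, (Fin.elim0 : Fin 0 → α))) :=
      measurable_id.prodMk measurable_const
    have h3 := h1.comp h2
    convert h3 using 2 with p
    simp [It]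
  | succ n ih =>
    intro P _ G hG
    have h1 := ih (P := P × α) hG.cons
    simp only [It]
    exact h1.lintegral_prod_right'

/-- A parameter-dependent prefix. -/
lemma meas_append {P : Type} [MeasurableSpace P] {G : List α → ℝ≥0∞} (hG : LMeas G) {k : ℕ}
    {u : P → Fin k → α} (hu : Measurable u) :
    MeasP (fun p Y => G (List.ofFn (u p) ++ Y)) := by
  intro n
  have h1 := hG (k + n)
  have h2 : Measurable (fun q : P × (Fin n → α) => (Fin.append (u q.1) q.2 : Fin (k + n) → α)) :=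
    measurable_fin_append (hu.comp measurable_fst) measurable_snd
  have h3 := h1.comp h2
  convert h3 using 2 with q
  simp

lemma It_append_meas (μ : Measure α) [SFinite μ] {G : List α → ℝ≥0∞} (hG : LMeas G) (j : ℕ) :
    LMeas (fun X => It μ j (fun Y => G (X ++ Y))) := by
  intro n
  exact measurable_It μ j (meas_append hG (P := Fin n → α) (u := id) measurable_id)

lemma It_append_meas_param (μ : Measure α) [SFinite μ] {G : List α → ℝ≥0∞} (hG : LMeas G) (j : ℕ) :
    MeasP (fun (y : α) X => It μ j (fun Y => G (y :: (X ++ Y)))) := by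
  intro n
  have h := measurable_It μ j (meas_append hG (P := α × (Fin n → α)) (k := n + 1)
    (u := fun q => (Fin.cons q.1 q.2 : Fin (n + 1) → α))
    (measurable_fin_cons measurable_fst measurable_snd))
  convert h using 2 with q
  simp

lemma LMeas.cons {G : List α → ℝ≥0∞} (hG : LMeas G) (y : α) : LMeas (fun l => G (y :: l)) := by
  intro n
  have h1 := hG (n + 1)
  have h2 : Measurable (fun x : Fin n → α => (Fin.cons y x : Fin (n + 1) → α)) :=
    measurable_fin_cons measurable_const measurable_id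
  have h3 := h1.comp h2
  convert h3 using 2 with x
  simp

/-- Tonelli for iterated integrals. -/
lemma It_tonelli (μ ν : Measure α) [SFinite μ] [SFinite ν] (k : ℕ) :
    ∀ {H : α → List α → ℝ≥0∞}, MeasP H →
      ∫⁻ y, It μ k (H y) ∂ν = It μ k (fun X => ∫⁻ y, H y X ∂ν) := by
  induction k with
  | zero => intro H _; rfl
  | succ k ih =>
    intro H hH
    simp only [It]
    have hmeas : Measurable (Function.uncurry (fun (y z : α) => It μ k (fun l => H y (z :: l)))) :=
      measurable_It μ k (P := α × α) (G := fun q l => H q.1 (q.2 :: l)) hH.cons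
    rw [lintegral_lintegral_swap hmeas.aemeasurable]
    refine lintegral_congr (fun z => ?_)
    have hH' : MeasP (fun y l => H y (z :: l)) := by
      intro n
      have h1 := hH (n + 1)
      have h2 : Measurable (fun q : α × (Fin n → α) => (q.1, (Fin.cons z q.2 : Fin (n + 1) → α))) :=
        measurable_fst.prodMk (measurable_fin_cons measurable_const measurable_snd)
      have h3 := h1.comp h2
      convert h3 using 2 with q
      simp
    exact ih hH'

lemma It_const_mul (μ : Measure α) [SFinite μ] (c : ℝ≥0∞) (n : ℕ) :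
    ∀ {G : List α → ℝ≥0∞}, LMeas G → It μ n (fun l => c * G l) = c * It μ n G := by
  induction n with
  | zero => intro G _; rfl
  | succ n ih =>
    intro G hG
    simp only [It]
    simp_rw [fun y => ih (G := fun l => G (y :: l)) (hG.cons y)]
    rw [lintegral_const_mul]
    exact measurable_It μ n (P := α) (G := fun y l => G (y :: l)) (by
      intro m
      have h1 := hG (m + 1)
      have h2 : Measurable (fun q : α × (Fin m → α) => (Fin.cons q.1 q.2 : Fin (m + 1) → α)) :=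
        measurable_fin_cons measurable_fst measurable_snd
      have h3 := h1.comp h2
      convert h3 using 2 with q
      simp)

lemma It_mono (μ : Measure α) (n : ℕ) :
    ∀ {G G' : List α → ℝ≥0∞}, (∀ l, G l ≤ G' l) → It μ n G ≤ It μ n G' := by
  induction n with
  | zero => intro G G' h; exact h _
  | succ n ih =>
    intro G G' h
    exact lintegral_mono (fun y => ih (fun l => h (y :: l)))

/-- Monotonicity on the support of a restricted measure. -/
lemma It_mono_on (ν : Measure α) {R : Set α} (hR : MeasurableSet R) (n : ℕ) :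
    ∀ {G G' : List α → ℝ≥0∞}, (∀ l, (∀ x ∈ l, x ∈ R) → G l ≤ G' l) →
      It (ν.restrict R) n G ≤ It (ν.restrict R) n G' := by
  induction n with
  | zero => intro G G' h; exact h _ (by simp)
  | succ n ih =>
    intro G G' h
    refine lintegral_mono_ae ?_
    filter_upwards [ae_restrict_mem hR] with y hy
    refine ih (fun l hl => h (y :: l) ?_)
    intro x hx
    rcases List.mem_cons.mp hx with rfl | hx
    · exact hy
    · exact hl x hx

lemma It_mono_measure {μ μ' : Measure α} (hμ : μ ≤ μ') (n : ℕ) (G : List α → ℝ≥0∞) :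
    It μ n G ≤ It μ' n G := by
  induction n generalizing G with
  | zero => exact le_refl _
  | succ n ih =>
    calc ∫⁻ y, It μ n (fun l => G (y :: l)) ∂μ
        ≤ ∫⁻ y, It μ' n (fun l => G (y :: l)) ∂μ := lintegral_mono (fun y => ih _)
      _ ≤ ∫⁻ y, It μ' n (fun l => G (y :: l)) ∂μ' := lintegral_mono' hμ (le_refl _)

lemma It_zero_measure (n : ℕ) (G : List α → ℝ≥0∞) :
    It (0 : Measure α) (n + 1) G = 0 := by
  simp [It]

section superposition

variable (μ₁ μ₂ : Measure α) [SFinite μ₁] [SFinite μ₂]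

lemma PermInv.cons {G : List α → ℝ≥0∞} (hG : PermInv G) (y : α) : PermInv (fun l => G (y :: l)) :=
  fun l l' h => hG _ _ (List.Perm.cons y h)

/-- The term of the superposition formula. -/
noncomputable def Tm (G : List α → ℝ≥0∞) (k j : ℕ) : ℝ≥0∞ :=
  It μ₁ k (fun X => It μ₂ j (fun Y => G (X ++ Y)))

lemma Tm_step1 {G : List α → ℝ≥0∞} (k j : ℕ) :
    ∫⁻ y, Tm μ₁ μ₂ (fun l => G (y :: l)) k j ∂μ₁ = Tm μ₁ μ₂ G (k + 1) j := rfl

lemma Tm_step2 {G : List α → ℝ≥0∞} (hG : LMeas G) (hP : PermInv G) (k j : ℕ) :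
    ∫⁻ y, Tm μ₁ μ₂ (fun l => G (y :: l)) k j ∂μ₂ = Tm μ₁ μ₂ G k (j + 1) := by
  unfold Tm
  rw [It_tonelli μ₁ μ₂ k (It_append_meas_param μ₂ hG j)]
  simp only [It]
  congr 1
  funext X
  refine lintegral_congr (fun y => ?_)
  congr 1
  funext Y
  exact hP _ _ List.perm_middle.symm

lemma Tm_meas {G : List α → ℝ≥0∞} (hG : LMeas G) (k j : ℕ) :
    Measurable (fun y => Tm μ₁ μ₂ (fun l => G (y :: l)) k j) := by
  unfold Tm
  refine measurable_It μ₁ k (P := α) (G := fun y X => It μ₂ j (fun Y => G (y :: (X ++ Y)))) ?_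
  exact It_append_meas_param μ₂ hG j

/-- The superposition formula. -/
theorem It_add (N : ℕ) :
    ∀ {G : List α → ℝ≥0∞}, LMeas G → PermInv G →
      It (μ₁ + μ₂) N G = ∑ p ∈ antidiagonal N, (N.choose p.1 : ℝ≥0∞) * Tm μ₁ μ₂ G p.1 p.2 := by
  induction N with
  | zero =>
    intro G _ _
    simp [It, Tm]
  | succ N ih =>
    intro G hG hP
    have h0 : It (μ₁ + μ₂) (N + 1) G = ∫⁻ y, It (μ₁ + μ₂) N (fun l => G (y :: l)) ∂(μ₁ + μ₂) := rfl
    rw [h0, lintegral_add_measure]
    simp_rw [fun y => ih (G := fun l => G (y :: l)) (hG.cons y) (hP.cons y)]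
    rw [lintegral_finset_sum _ (fun p _ => (Tm_meas μ₁ μ₂ hG p.1 p.2).const_mul _),
      lintegral_finset_sum _ (fun p _ => (Tm_meas μ₁ μ₂ hG p.1 p.2).const_mul _)]
    simp_rw [lintegral_const_mul _ (Tm_meas μ₁ μ₂ hG _ _), Tm_step1, Tm_step2 μ₁ μ₂ hG hP]
    have h1 := Finset.sum_antidiagonal_choose_succ_mul (R := ℝ≥0∞)
      (fun k j => Tm μ₁ μ₂ G k j) N
    rw [h1, add_comm]
    congr 1
    refine Finset.sum_congr rfl (fun p hp => ?_)
    have hp' := mem_antidiagonal.mp hp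
    have : N.choose p.2 = N.choose p.1 := by
      rw [← hp']
      exact Nat.choose_symm_add.symm
    rw [this]

end superposition

/-- The configuration integral: the Poisson (grand-canonical) sum. -/
noncomputable def Cfg (μ : Measure α) (G : List α → ℝ≥0∞) : ℝ≥0∞ :=
  ∑' n : ℕ, ((n.factorial : ℝ≥0∞))⁻¹ * It μ n G

lemma choose_factorial_aux (k j : ℕ) :
    (((k + j).factorial : ℝ≥0∞))⁻¹ * ((k + j).choose k : ℝ≥0∞) =
      ((k.factorial : ℝ≥0∞))⁻¹ * ((j.factorial : ℝ≥0∞))⁻¹ := by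
  have h1 : (((k + j).choose k : ℝ≥0∞)) * (k.factorial : ℝ≥0∞) * (j.factorial : ℝ≥0∞)
      = ((k + j).factorial : ℝ≥0∞) := by
    have h0 := Nat.add_choose_mul_factorial_mul_factorial k j
    rw [← Nat.choose_symm_add] at h0
    exact_mod_cast h0
  have hk0 : (k.factorial : ℝ≥0∞) ≠ 0 := by exact_mod_cast k.factorial_ne_zero
  have hj0 : (j.factorial : ℝ≥0∞) ≠ 0 := by exact_mod_cast j.factorial_ne_zero
  have hC0 : ((k + j).choose k : ℝ≥0∞) ≠ 0 := by
    exact_mod_cast (Nat.choose_pos (Nat.le_add_right k j)).ne'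
  have hkt : (k.factorial : ℝ≥0∞) ≠ ⊤ := ENNReal.natCast_ne_top _
  have hjt : (j.factorial : ℝ≥0∞) ≠ ⊤ := ENNReal.natCast_ne_top _
  have hCt : ((k + j).choose k : ℝ≥0∞) ≠ ⊤ := ENNReal.natCast_ne_top _
  rw [← h1, ENNReal.mul_inv (by simp [hC0, hk0]) (by simp [hj0]),
    ENNReal.mul_inv (by simp [hC0]) (by simp [hk0])]
  calc ((((k + j).choose k : ℝ≥0∞))⁻¹ * ((k.factorial : ℝ≥0∞))⁻¹ * ((j.factorial : ℝ≥0∞))⁻¹)
        * ((k + j).choose k : ℝ≥0∞)
      = (((k + j).choose k : ℝ≥0∞))⁻¹ * ((k + j).choose k : ℝ≥0∞) *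
          (((k.factorial : ℝ≥0∞))⁻¹ * ((j.factorial : ℝ≥0∞))⁻¹) := by ring
    _ = _ := by rw [ENNReal.inv_mul_cancel hC0 hCt, one_mul]

/-- The double-sum form of the configuration integral of a superposition. -/
theorem Cfg_add (μ₁ μ₂ : Measure α) [SFinite μ₁] [SFinite μ₂] {G : List α → ℝ≥0∞}
    (hG : LMeas G) (hP : PermInv G) :
    Cfg (μ₁ + μ₂) G = ∑' k : ℕ, ∑' j : ℕ, ((k.factorial : ℝ≥0∞))⁻¹ * ((j.factorial : ℝ≥0∞))⁻¹ *
      Tm μ₁ μ₂ G k j := by
  unfold Cfg
  simp_rw [It_add μ₁ μ₂ _ hG hP]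
  rw [← ENNReal.tsum_prod (f := fun k j => ((k.factorial : ℝ≥0∞))⁻¹ * ((j.factorial : ℝ≥0∞))⁻¹ *
      Tm μ₁ μ₂ G k j)]
  rw [← (Finset.HasAntidiagonal.sigmaAntidiagonalEquivProd (A := ℕ)).tsum_eq, ENNReal.tsum_sigma']
  refine tsum_congr (fun N => ?_)
  rw [Finset.mul_sum, tsum_fintype, Finset.univ_eq_attach,
    ← Finset.sum_attach (antidiagonal N)]
  refine Finset.sum_congr rfl (fun p _ => ?_)
  have hp := mem_antidiagonal.mp p.2
  simp only [Finset.HasAntidiagonal.sigmaAntidiagonalEquivProd_apply]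
  have h := choose_factorial_aux p.1.1 p.1.2
  rw [hp] at h
  rw [← mul_assoc, h]

/-- Upper product bound. -/
theorem Cfg_add_le (μ₁ μ₂ : Measure α) [SFinite μ₁] [SFinite μ₂] {G G₁ G₂ : List α → ℝ≥0∞}
    (hG : LMeas G) (hP : PermInv G) (hG₁ : LMeas G₁) (hG₂ : LMeas G₂)
    (h : ∀ k j, It μ₁ k (fun X => It μ₂ j (fun Y => G (X ++ Y))) ≤
      It μ₁ k (fun X => It μ₂ j (fun Y => G₁ X * G₂ Y))) :
    Cfg (μ₁ + μ₂) G ≤ Cfg μ₁ G₁ * Cfg μ₂ G₂ := by
  rw [Cfg_add μ₁ μ₂ hG hP]
  unfold Cfg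
  rw [← ENNReal.tsum_mul_right]
  refine ENNReal.tsum_le_tsum (fun k => ?_)
  rw [← ENNReal.tsum_mul_left]
  refine ENNReal.tsum_le_tsum (fun j => ?_)
  have h1 := h k j
  have h2 : It μ₁ k (fun X => It μ₂ j (fun Y => G₁ X * G₂ Y)) = It μ₁ k G₁ * It μ₂ j G₂ := by
    simp_rw [fun X => It_const_mul μ₂ (G₁ X) j hG₂]
    simp_rw [mul_comm (G₁ _)]
    rw [It_const_mul μ₁ _ k hG₁]
    ring
  rw [h2] at h1
  unfold Tm
  calc ((k.factorial : ℝ≥0∞))⁻¹ * ((j.factorial : ℝ≥0∞))⁻¹ * _
      ≤ ((k.factorial : ℝ≥0∞))⁻¹ * ((j.factorial : ℝ≥0∞))⁻¹ * (It μ₁ k G₁ * It μ₂ j G₂) := by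
        gcongr
    _ = _ := by ring

/-- Lower product bound. -/
theorem Cfg_add_ge (μ₁ μ₂ : Measure α) [SFinite μ₁] [SFinite μ₂] {G G₁ G₂ : List α → ℝ≥0∞}
    (hG : LMeas G) (hP : PermInv G) (hG₁ : LMeas G₁) (hG₂ : LMeas G₂)
    (h : ∀ k j, It μ₁ k (fun X => It μ₂ j (fun Y => G₁ X * G₂ Y)) ≤
      It μ₁ k (fun X => It μ₂ j (fun Y => G (X ++ Y)))) :
    Cfg μ₁ G₁ * Cfg μ₂ G₂ ≤ Cfg (μ₁ + μ₂) G := by
  rw [Cfg_add μ₁ μ₂ hG hP]
  unfold Cfg
  rw [← ENNReal.tsum_mul_right]
  refine ENNReal.tsum_le_tsum (fun k => ?_)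
  rw [← ENNReal.tsum_mul_left]
  refine ENNReal.tsum_le_tsum (fun j => ?_)
  have h1 := h k j
  have h2 : It μ₁ k (fun X => It μ₂ j (fun Y => G₁ X * G₂ Y)) = It μ₁ k G₁ * It μ₂ j G₂ := by
    simp_rw [fun X => It_const_mul μ₂ (G₁ X) j hG₂]
    simp_rw [mul_comm (G₁ _)]
    rw [It_const_mul μ₁ _ k hG₁]
    ring
  rw [h2] at h1
  unfold Tm
  calc _ = ((k.factorial : ℝ≥0∞))⁻¹ * ((j.factorial : ℝ≥0∞))⁻¹ * (It μ₁ k G₁ * It μ₂ j G₂) := by
        ring
    _ ≤ _ := by gcongr


lemma Cfg_mono_on (ν : Measure α) {R : Set α} (hR : MeasurableSet R) {G G' : List α → ℝ≥0∞}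
    (h : ∀ l, (∀ x ∈ l, x ∈ R) → G l ≤ G' l) :
    Cfg (ν.restrict R) G ≤ Cfg (ν.restrict R) G' :=
  ENNReal.tsum_le_tsum (fun n => by gcongr; exact It_mono_on ν hR n h)

lemma Cfg_mono {μ : Measure α} {G G' : List α → ℝ≥0∞} (h : ∀ l, G l ≤ G' l) :
    Cfg μ G ≤ Cfg μ G' :=
  ENNReal.tsum_le_tsum (fun n => by gcongr; exact It_mono μ n h)

lemma Cfg_mono_measure {μ μ' : Measure α} (hμ : μ ≤ μ') (G : List α → ℝ≥0∞) :
    Cfg μ G ≤ Cfg μ' G :=
  ENNReal.tsum_le_tsum (fun n => by gcongr; exact It_mono_measure hμ n G)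

lemma Cfg_zero (G : List α → ℝ≥0∞) : Cfg (0 : Measure α) G = G [] := by
  unfold Cfg
  rw [tsum_eq_single 0]
  · simp [It]
  · intro n hn
    obtain ⟨m, rfl⟩ := Nat.exists_eq_succ_of_ne_zero hn
    simp [It_zero_measure]

lemma Cfg_term_le (μ : Measure α) (G : List α → ℝ≥0∞) (n : ℕ) :
    ((n.factorial : ℝ≥0∞))⁻¹ * It μ n G ≤ Cfg μ G :=
  ENNReal.le_tsum n

lemma one_le_Cfg (μ : Measure α) {G : List α → ℝ≥0∞} (h : 1 ≤ G []) : 1 ≤ Cfg μ G := by
  refine le_trans ?_ (Cfg_term_le μ G 0)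
  simpa [It] using h

/-- Splitting over two disjoint sets (upper bound). -/
theorem Cfg_union_le (ν : Measure α) [SFinite ν] {R₁ R₂ : Set α} (h₁ : MeasurableSet R₁)
    (h₂ : MeasurableSet R₂) (hd : Disjoint R₁ R₂) {G G₁ G₂ : List α → ℝ≥0∞}
    (hG : LMeas G) (hP : PermInv G) (hG₁ : LMeas G₁) (hG₂ : LMeas G₂)
    (h : ∀ X Y, (∀ x ∈ X, x ∈ R₁) → (∀ y ∈ Y, y ∈ R₂) → G (X ++ Y) ≤ G₁ X * G₂ Y) :
    Cfg (ν.restrict (R₁ ∪ R₂)) G ≤ Cfg (ν.restrict R₁) G₁ * Cfg (ν.restrict R₂) G₂ := by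
  rw [Measure.restrict_union hd h₂]
  refine Cfg_add_le _ _ hG hP hG₁ hG₂ (fun k j => ?_)
  exact It_mono_on ν h₁ k (fun X hX => It_mono_on ν h₂ j (fun Y hY => h X Y hX hY))

/-- Splitting over two disjoint sets (lower bound). -/
theorem Cfg_union_ge (ν : Measure α) [SFinite ν] {R₁ R₂ : Set α} (h₁ : MeasurableSet R₁)
    (h₂ : MeasurableSet R₂) (hd : Disjoint R₁ R₂) {G G₁ G₂ : List α → ℝ≥0∞}
    (hG : LMeas G) (hP : PermInv G) (hG₁ : LMeas G₁) (hG₂ : LMeas G₂)
    (h : ∀ X Y, (∀ x ∈ X, x ∈ R₁) → (∀ y ∈ Y, y ∈ R₂) → G₁ X * G₂ Y ≤ G (X ++ Y)) :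
    Cfg (ν.restrict R₁) G₁ * Cfg (ν.restrict R₂) G₂ ≤ Cfg (ν.restrict (R₁ ∪ R₂)) G := by
  rw [Measure.restrict_union hd h₂]
  refine Cfg_add_ge _ _ hG hP hG₁ hG₂ (fun k j => ?_)
  exact It_mono_on ν h₁ k (fun X hX => It_mono_on ν h₂ j (fun Y hY => h X Y hX hY))

/-- Upper bound over a finite disjoint union of regions. -/
theorem Cfg_biUnion_le {ι : Type} [DecidableEq ι] (ν : Measure α) [SFinite ν] (R : ι → Set α)
    (hR : ∀ b, MeasurableSet (R b)) (hd : Pairwise (Function.onFun Disjoint R))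
    {G : List α → ℝ≥0∞} (hG : LMeas G) (hP : PermInv G) (h0 : G [] = 1) {C : ℝ≥0∞}
    (hC : ∀ b, Cfg (ν.restrict (R b)) G ≤ C)
    (hmul : ∀ (F : Finset ι) (b : ι), b ∉ F → ∀ X Y, (∀ x ∈ X, x ∈ ⋃ i ∈ F, R i) →
      (∀ y ∈ Y, y ∈ R b) → G (X ++ Y) ≤ G X * G Y)
    (F : Finset ι) :
    Cfg (ν.restrict (⋃ i ∈ F, R i)) G ≤ C ^ F.card := by
  induction F using Finset.induction_on with
  | empty => simp [Cfg_zero, h0]
  | insert b F hb ih =>
    have hmeas : MeasurableSet (⋃ i ∈ F, R i) := F.measurableSet_biUnion (fun i _ => hR i)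
    have hdis : Disjoint (⋃ i ∈ F, R i) (R b) := by
      rw [Set.disjoint_iUnion₂_left]
      intro i hi
      exact hd (fun e => hb (e ▸ hi))
    have e : (⋃ i ∈ insert b F, R i) = (⋃ i ∈ F, R i) ∪ R b := by
      rw [Finset.set_biUnion_insert, Set.union_comm]
    rw [e, Finset.card_insert_of_notMem hb, pow_succ]
    calc Cfg (ν.restrict ((⋃ i ∈ F, R i) ∪ R b)) G
        ≤ Cfg (ν.restrict (⋃ i ∈ F, R i)) G * Cfg (ν.restrict (R b)) G :=
          Cfg_union_le ν hmeas (hR b) hdis hG hP hG hG (hmul F b hb)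
      _ ≤ C ^ F.card * C := mul_le_mul' ih (hC b)

/-- Lower bound over a finite disjoint union of regions. -/
theorem Cfg_biUnion_ge {ι : Type} [DecidableEq ι] (ν : Measure α) [SFinite ν] (R : ι → Set α)
    (hR : ∀ b, MeasurableSet (R b)) (hd : Pairwise (Function.onFun Disjoint R))
    {G : List α → ℝ≥0∞} (hG : LMeas G) (hP : PermInv G) (h0 : G [] = 1) {C : ℝ≥0∞}
    (hC : ∀ b, C ≤ Cfg (ν.restrict (R b)) G)
    (hmul : ∀ (F : Finset ι) (b : ι), b ∉ F → ∀ X Y, (∀ x ∈ X, x ∈ ⋃ i ∈ F, R i) →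
      (∀ y ∈ Y, y ∈ R b) → G X * G Y ≤ G (X ++ Y))
    (F : Finset ι) :
    C ^ F.card ≤ Cfg (ν.restrict (⋃ i ∈ F, R i)) G := by
  induction F using Finset.induction_on with
  | empty => simp [Cfg_zero, h0]
  | insert b F hb ih =>
    have hmeas : MeasurableSet (⋃ i ∈ F, R i) := F.measurableSet_biUnion (fun i _ => hR i)
    have hdis : Disjoint (⋃ i ∈ F, R i) (R b) := by
      rw [Set.disjoint_iUnion₂_left]
      intro i hi
      exact hd (fun e => hb (e ▸ hi))
    have e : (⋃ i ∈ insert b F, R i) = (⋃ i ∈ F, R i) ∪ R b := by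
      rw [Finset.set_biUnion_insert, Set.union_comm]
    rw [e, Finset.card_insert_of_notMem hb, pow_succ]
    calc C ^ F.card * C
        ≤ Cfg (ν.restrict (⋃ i ∈ F, R i)) G * Cfg (ν.restrict (R b)) G := mul_le_mul' ih (hC b)
      _ ≤ Cfg (ν.restrict ((⋃ i ∈ F, R i) ∪ R b)) G :=
          Cfg_union_ge ν hmeas (hR b) hdis hG hP hG hG (hmul F b hb)

/-- Image of a measure under a measurable map. -/
lemma It_map (μ : Measure α) [SFinite μ] {τ : α → α} (hτ : Measurable τ) (n : ℕ) :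
    ∀ {G : List α → ℝ≥0∞}, LMeas G → It (μ.map τ) n G = It μ n (fun l => G (l.map τ)) := by
  induction n with
  | zero => intro G _; rfl
  | succ n ih =>
    intro G hG
    simp only [It]
    have hm : Measurable (fun y => It (μ.map τ) n (fun l => G (y :: l))) := by
      refine measurable_It _ n (P := α) (G := fun y l => G (y :: l)) ?_
      intro m
      have h1 := hG (m + 1)
      have h2 : Measurable (fun q : α × (Fin m → α) => (Fin.cons q.1 q.2 : Fin (m + 1) → α)) :=
        measurable_fin_cons measurable_fst measurable_snd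
      have h3 := h1.comp h2
      convert h3 using 2 with q
      simp
    rw [lintegral_map hm hτ]
    refine lintegral_congr (fun y => ?_)
    exact ih (hG.cons (τ y))

lemma Cfg_map (μ : Measure α) [SFinite μ] {τ : α → α} (hτ : Measurable τ)
    {G : List α → ℝ≥0∞} (hG : LMeas G) : Cfg (μ.map τ) G = Cfg μ (fun l => G (l.map τ)) := by
  unfold Cfg
  exact tsum_congr (fun n => by rw [It_map μ hτ n hG])

/-- Pointwise sums. -/
lemma It_add_fun (μ : Measure α) [SFinite μ] (n : ℕ) :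
    ∀ {G G' : List α → ℝ≥0∞}, LMeas G → LMeas G' →
      It μ n (fun l => G l + G' l) = It μ n G + It μ n G' := by
  induction n with
  | zero => intro G G' _ _; rfl
  | succ n ih =>
    intro G G' hG hG'
    simp only [It]
    simp_rw [fun y => ih (G := fun l => G (y :: l)) (G' := fun l => G' (y :: l)) (hG.cons y) (hG'.cons y)]
    rw [lintegral_add_left]
    refine measurable_It _ n (P := α) (G := fun y l => G (y :: l)) ?_
    intro m
    have h1 := hG (m + 1)
    have h2 : Measurable (fun q : α × (Fin m → α) => (Fin.cons q.1 q.2 : Fin (m + 1) → α)) :=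
      measurable_fin_cons measurable_fst measurable_snd
    have h3 := h1.comp h2
    convert h3 using 2 with q
    simp

lemma Cfg_add_fun (μ : Measure α) [SFinite μ] {G G' : List α → ℝ≥0∞} (hG : LMeas G) (hG' : LMeas G') :
    Cfg μ (fun l => G l + G' l) = Cfg μ G + Cfg μ G' := by
  unfold Cfg
  rw [← ENNReal.tsum_add]
  refine tsum_congr (fun n => ?_)
  rw [It_add_fun μ n hG hG', mul_add]

lemma LMeas.add {G G' : List α → ℝ≥0∞} (hG : LMeas G) (hG' : LMeas G') :
    LMeas (fun l => G l + G' l) := fun n => (hG n).add (hG' n)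

/-- Finite pointwise sums. -/
lemma Cfg_sum_fun {ι : Type} (μ : Measure α) [SFinite μ] (F : Finset ι) {G : ι → List α → ℝ≥0∞}
    (hG : ∀ i, LMeas (G i)) :
    Cfg μ (fun l => ∑ i ∈ F, G i l) = ∑ i ∈ F, Cfg μ (G i) := by
  classical
  induction F using Finset.induction_on with
  | empty =>
    simp only [Finset.sum_empty]
    have : Cfg μ (fun _ => (0:ℝ≥0∞)) = ∑' n : ℕ, ((n.factorial : ℝ≥0∞))⁻¹ * 0 := by
      unfold Cfg
      refine tsum_congr (fun n => ?_)
      congr 1
      induction n with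
      | zero => rfl
      | succ n ih => simp [It, ih]
    rw [this]
    simp
  | insert b F hb ih =>
    simp_rw [Finset.sum_insert hb]
    have hs : LMeas (fun l => ∑ i ∈ F, G i l) := fun n =>
      Finset.measurable_sum _ (fun i _ => hG i n)
    rw [Cfg_add_fun μ (hG b) hs, ih]

/-- The exponential generating identity. -/
lemma It_exp_card (μ : Measure α) [SFinite μ] (c : ℝ≥0∞) (n : ℕ) :
    It μ n (fun l => c ^ l.length) = (c * μ Set.univ) ^ n := by
  induction n generalizing c with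
  | zero => simp [It]
  | succ n ih =>
    simp only [It, List.length_cons]
    have h1 : It μ n (fun l => c ^ (l.length + 1)) = (c * μ Set.univ) ^ n * c := by
      have e : (fun l : List α => c ^ (l.length + 1)) = (fun l => c * c ^ l.length) := by
        funext l; rw [pow_succ, mul_comm]
      rw [e, It_const_mul μ c n (G := fun l => c ^ l.length) ?_, ih]
      · ring
      · intro m
        simp only [List.length_ofFn]
        exact measurable_const
    simp_rw [h1]
    rw [lintegral_const]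
    ring

/-- `∑ xⁿ/n! = exp x` in the extended reals. -/
lemma tsum_inv_factorial_mul_pow (x : ℝ) (hx : 0 ≤ x) :
    ∑' n : ℕ, ((n.factorial : ℝ≥0∞))⁻¹ * (ENNReal.ofReal x) ^ n = ENNReal.ofReal (Real.exp x) := by
  have hs : HasSum (fun n : ℕ => x ^ n / n.factorial) (Real.exp x) := by
    have := NormedSpace.expSeries_div_hasSum_exp (𝔸 := ℝ) x
    rwa [Real.exp_eq_exp_ℝ]
  rw [← hs.tsum_eq, ENNReal.ofReal_tsum_of_nonneg (fun n => by positivity) hs.summable]
  refine tsum_congr (fun n => ?_)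
  rw [div_eq_inv_mul, ENNReal.ofReal_mul (by positivity), ENNReal.ofReal_pow hx,
    ENNReal.ofReal_inv_of_pos (by positivity), ENNReal.ofReal_natCast]

lemma Cfg_exp_card (μ : Measure α) [SFinite μ] (b : ℝ) (hμ : μ Set.univ ≠ ⊤) :
    Cfg μ (fun l => (ENNReal.ofReal (Real.exp b)) ^ l.length) =
      ENNReal.ofReal (Real.exp (Real.exp b * (μ Set.univ).toReal)) := by
  unfold Cfg
  simp_rw [It_exp_card]
  have h1 : ENNReal.ofReal (Real.exp b) * μ Set.univ =
      ENNReal.ofReal (Real.exp b * (μ Set.univ).toReal) := by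
    rw [ENNReal.ofReal_mul (by positivity), ENNReal.ofReal_toReal hμ]
  rw [h1, tsum_inv_factorial_mul_pow _ (by positivity)]

end Vale.Agent.Lib.P171
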