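import Mathlib

/-!
# Ekeland's variational principle

On a complete metric space, an almost-minimiser of a continuous function bounded below
can be moved slightly to a strict minimiser of a small Lipschitz perturbation.
-/

namespace Vale.Agent.Lib.P171

open Filter Topology

theorem ekeland {X : Type*} [MetricSpace X] [CompleteSpace X] (F : X → ℝ) (hF : Continuous F)
    (ε κ : ℝ) (hκ : 0 < κ) (x₀ : X) (hx₀ : ∀ y, F x₀ ≤ F y + ε) :
    ∃ x, κ * dist x x₀ ≤ ε ∧ ∀ y, F x ≤ F y + κ * dist x y := by
  -- the order sets
  let S : X → Set X := fun x => {y | F y + κ * dist x y ≤ F x}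
  have hSself : ∀ x, x ∈ S x := by intro x; simp [S]
  have hStrans : ∀ x y z, y ∈ S x → z ∈ S y → z ∈ S x := by
    intro x y z hy hz
    simp only [S, Set.mem_setOf_eq] at hy hz ⊢
    have := dist_triangle x y z
    nlinarith
  have hSclosed : ∀ x, IsClosed (S x) := by
    intro x
    exact isClosed_le (by fun_prop) (by fun_prop)
  have hbdd : ∀ y, F x₀ - ε ≤ F y := by intro y; linarith [hx₀ y]
  -- the choice of the next point
  have step : ∀ (x : X) (n : ℕ), ∃ y, y ∈ S x ∧ ∀ z ∈ S x, F y ≤ F z + (1/2)^n := by
    intro x n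
    have hne : (F '' S x).Nonempty := ⟨F x, x, hSself x, rfl⟩
    have hb : BddBelow (F '' S x) := ⟨F x₀ - ε, by rintro _ ⟨y, _, rfl⟩; exact hbdd y⟩
    have hpos : (0:ℝ) < (1/2)^n := by positivity
    obtain ⟨v, hv, hlt⟩ := exists_lt_of_csInf_lt hne (show sInf (F '' S x) < sInf (F '' S x) + (1/2)^n by linarith)
    obtain ⟨y, hy, rfl⟩ := hv
    refine ⟨y, hy, fun z hz => ?_⟩
    have : sInf (F '' S x) ≤ F z := csInf_le hb ⟨z, hz, rfl⟩
    linarith
  choose next hnext1 hnext2 using step
  let u : ℕ → X := fun n => Nat.rec x₀ (fun k uk => next uk k) n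
  have hu0 : u 0 = x₀ := rfl
  have husucc : ∀ n, u (n+1) = next (u n) n := fun n => rfl
  have hus : ∀ n, u (n+1) ∈ S (u n) := by intro n; rw [husucc]; exact hnext1 _ _
  have husle : ∀ n m, n ≤ m → u m ∈ S (u n) := by
    intro n m hnm
    induction m, hnm using Nat.le_induction with
    | base => exact hSself _
    | succ m _ ih => exact hStrans _ _ _ ih (hus m)
  -- F along the sequence is antitone and bounded below
  have hanti : Antitone (fun n => F (u n)) := by
    intro n m hnm
    have := husle n m hnm
    simp only [S, Set.mem_setOf_eq] at this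
    have h2 := dist_nonneg (x := u n) (y := u m)
    nlinarith
  have hbd : BddBelow (Set.range fun n => F (u n)) :=
    ⟨F x₀ - ε, by rintro _ ⟨n, rfl⟩; exact hbdd _⟩
  have hlim := tendsto_atTop_ciInf hanti hbd
  have hcau : CauchySeq (fun n => F (u n)) := hlim.cauchySeq
  have hucau : CauchySeq u := by
    rw [Metric.cauchySeq_iff]
    intro η hη
    obtain ⟨N, hN⟩ := Metric.cauchySeq_iff.1 hcau (κ * η) (by positivity)
    refine ⟨N, ?_⟩
    have key : ∀ n m, N ≤ n → n ≤ m → dist (u n) (u m) < η := by
      intro n m hn hnm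
      have h1 := husle n m hnm
      simp only [S, Set.mem_setOf_eq] at h1
      have h2 := hN n hn m (hn.trans hnm)
      rw [Real.dist_eq, abs_lt] at h2
      have h3 : κ * dist (u n) (u m) < κ * η := by linarith [h2.2]
      exact lt_of_mul_lt_mul_left h3 hκ.le
    intro n hn m hm
    rcases le_total m n with h | h
    · rw [dist_comm]; exact key m n hm h
    · exact key n m hn h
  obtain ⟨x, hx⟩ := cauchySeq_tendsto_of_complete hucau
  -- the limit lies in every order set
  have hxS : ∀ n, x ∈ S (u n) := by
    intro n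
    refine (hSclosed (u n)).mem_of_tendsto hx ?_
    filter_upwards [eventually_ge_atTop n] with m hm using husle n m hm
  refine ⟨x, ?_, ?_⟩
  · have := hxS 0
    simp only [S, Set.mem_setOf_eq, hu0] at this
    have h := hx₀ x
    rw [dist_comm]
    linarith
  · intro y
    by_contra hcon
    push Not at hcon
    have hyS : y ∈ S x := by
      simp only [S, Set.mem_setOf_eq]; linarith
    have hdpos : 0 < κ * dist x y := by
      have : y ≠ x := by
        rintro rfl
        simp at hcon
      have : 0 < dist x y := dist_pos.2 (Ne.symm this)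
      positivity
    have hsmall : ∀ n, κ * dist x y ≤ (1/2)^n := by
      intro n
      have h1 : y ∈ S (u n) := hStrans _ _ _ (hxS n) hyS
      have h2 : F (u (n+1)) ≤ F y + (1/2)^n := by
        rw [husucc]; exact hnext2 _ _ _ h1
      have h3 := hxS (n+1)
      simp only [S, Set.mem_setOf_eq] at h3
      have h4 := dist_nonneg (x := u (n+1)) (y := x)
      have h5 : F x ≤ F (u (n+1)) := by nlinarith
      simp only [S, Set.mem_setOf_eq] at hyS
      linarith
    have hto : Tendsto (fun n : ℕ => ((1:ℝ)/2)^n) atTop (𝓝 0) :=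
      tendsto_pow_atTop_nhds_zero_of_lt_one (by norm_num) (by norm_num)
    have := ge_of_tendsto' hto hsmall
    linarith

end Vale.Agent.Lib.P171
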