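import Vale.Agent.Lib.P171.Gauss
import Vale.Agent.Lib.P171.Config
import Vale.Agent.Lib.P171.Abstract

/-!
# The potentials, the energy, and its stability
-/

set_option linter.unusedSectionVars false
set_option linter.unusedVariables false
set_option linter.unusedSimpArgs false

namespace Vale.Agent.Lib.P171

open Finset MeasureTheory
open scoped Real ENNReal

/-- The range of the hard-ish core. -/
noncomputable def r0 : ℝ := 1 / 500

/-- The side of the small grid. -/
noncomputable def w0 : ℝ := 1 / 1000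

/-- The height of the core. -/
noncomputable def Arep : ℝ := 10 ^ 11

lemma r0_pos : 0 < r0 := by unfold r0; norm_num
lemma w0_pos : 0 < w0 := by unfold w0; norm_num
lemma Arep_pos : 0 < Arep := by unfold Arep; norm_num

/-- The family of radial pair potentials. -/
noncomputable def φc (c : L1) (r : ℝ) : ℝ :=
  (if r < r0 then Arep else 0) - ∑' k : ℕ, c k * γ ((k:ℝ) + 1) r

/-- The Gaussian kernels. -/
noncomputable def kG (k : ℕ) (x y : E) : ℝ := γ ((k:ℝ) + 1) (dist3 x y)

/-- The core kernel. -/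
noncomputable def kRep (x y : E) : ℝ := if dist3 x y < r0 then Arep else 0

/-- The attractive kernel with coupling `b`. -/
noncomputable def kC (b : L1) (x y : E) : ℝ := ∑' k : ℕ, b k * kG k x y

/-- The pair kernel of the potential. -/
noncomputable def kφ (c : L1) (x y : E) : ℝ := φc c (dist3 x y)

lemma kφ_eq (c : L1) (x y : E) : kφ c x y = kRep x y - kC c x y := rfl

/-- The total attractive energy. -/
noncomputable def PP (b : L1) (l : List E) : ℝ := pairSum (kC b) l

/-- The total repulsive energy. -/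
noncomputable def En0 (l : List E) : ℝ := pairSum kRep l

/-- The total energy. -/
noncomputable def En (c : L1) (l : List E) : ℝ := pairSum (kφ c) l

lemma En_eq (c : L1) (l : List E) : En c l = En0 l - PP c l := by
  unfold En En0 PP
  have : kφ c = fun x y => kRep x y - kC c x y := rfl
  rw [this, pairSum_sub]

/-! ### The `ℓ¹` norm -/

lemma L1_summable (b : L1) : Summable (fun k => |b k|) := by
  have h := (lp.memℓp b).summable (by norm_num)
  simpa using h

lemma L1_norm (b : L1) : ‖b‖ = ∑' k, |b k| := by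
  have h := lp.norm_eq_tsum_rpow (p := 1) (by norm_num) b
  simpa using h

lemma abs_le_L1_norm (b : L1) (k : ℕ) : |b k| ≤ ‖b‖ := by
  rw [L1_norm]
  exact (L1_summable b).le_tsum k (fun j _ => abs_nonneg _)

/-! ### The Gaussian kernels -/

lemma γ_le_one {s : ℝ} (hs : 1 ≤ s) (r : ℝ) : γ s r ≤ 1 := by
  unfold γ
  have h1 : (√(2 * π * s))⁻¹ ≤ 1 := by
    rw [inv_le_one₀ (Real.sqrt_pos.mpr (by positivity))]
    apply Real.one_le_sqrt.mpr
    nlinarith [Real.pi_gt_three]
  have h2 : 0 ≤ (√(2 * π * s))⁻¹ := by positivity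
  have h3 : Real.exp (-r ^ 2 / (2 * s)) ≤ 1 := by
    rw [Real.exp_le_one_iff]
    apply div_nonpos_of_nonpos_of_nonneg
    · nlinarith [sq_nonneg r]
    · positivity
  have h4 : (√(2 * π * s))⁻¹ ^ 3 ≤ 1 := pow_le_one₀ h2 h1
  calc _ ≤ (1:ℝ) * 1 := mul_le_mul h4 h3 (Real.exp_pos _).le (by norm_num)
    _ = 1 := by norm_num

lemma sk_pos (k : ℕ) : 0 < (k:ℝ) + 1 := by positivity

lemma sk_ge_one (k : ℕ) : 1 ≤ (k:ℝ) + 1 := by
  have : (0:ℝ) ≤ k := Nat.cast_nonneg k
  linarith

lemma kG_nonneg (k : ℕ) (x y : E) : 0 ≤ kG k x y := (γ_pos (sk_pos k) _).le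

lemma kG_le_one (k : ℕ) (x y : E) : kG k x y ≤ 1 := γ_le_one (sk_ge_one k) _

lemma kG_sym (k : ℕ) : SymK (kG k) := fun x y => by
  unfold kG; rw [dist3_comm]

lemma kC_summable (b : L1) (x y : E) : Summable (fun k => b k * kG k x y) := by
  refine Summable.of_norm_bounded (L1_summable b) (fun k => ?_)
  rw [Real.norm_eq_abs, abs_mul, abs_of_nonneg (kG_nonneg k x y)]
  have := kG_le_one k x y
  have h0 := abs_nonneg (b k)
  nlinarith

lemma kC_add (b b' : L1) (x y : E) : kC (b + b') x y = kC b x y + kC b' x y := by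
  unfold kC
  rw [← (kC_summable b x y).tsum_add (kC_summable b' x y)]
  refine tsum_congr (fun k => ?_)
  rw [lp.coeFn_add]
  simp only [Pi.add_apply]
  ring

lemma kC_smul (r : ℝ) (b : L1) (x y : E) : kC (r • b) x y = r * kC b x y := by
  unfold kC
  rw [← tsum_mul_left]
  refine tsum_congr (fun k => ?_)
  rw [lp.coeFn_smul]
  simp only [Pi.smul_apply, smul_eq_mul]
  ring

lemma kC_sym (b : L1) : SymK (kC b) := fun x y => by
  unfold kC
  exact tsum_congr (fun k => by rw [kG_sym k x y])

lemma kC_nonneg {c : L1} (hc : ∀ k, 0 ≤ c k) (x y : E) : 0 ≤ kC c x y :=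
  tsum_nonneg (fun k => mul_nonneg (hc k) (kG_nonneg k x y))

lemma kRep_sym : SymK kRep := fun x y => by
  unfold kRep; rw [dist3_comm]

lemma kRep_nonneg (x y : E) : 0 ≤ kRep x y := by
  unfold kRep; split_ifs
  · exact Arep_pos.le
  · exact le_refl _

lemma kφ_sym (c : L1) : SymK (kφ c) := fun x y => by
  unfold kφ; rw [dist3_comm]

lemma PP_add (b b' : L1) (l : List E) : PP (b + b') l = PP b l + PP b' l := by
  unfold PP
  have : kC (b + b') = fun x y => kC b x y + kC b' x y := by
    funext x y; exact kC_add b b' x y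
  rw [this, pairSum_add]

lemma PP_smul (r : ℝ) (b : L1) (l : List E) : PP (r • b) l = r * PP b l := by
  unfold PP
  have : kC (r • b) = fun x y => r * kC b x y := by
    funext x y; exact kC_smul r b x y
  rw [this, pairSum_const_mul]

lemma PP_sub (b b' : L1) (l : List E) : PP (b - b') l = PP b l - PP b' l := by
  have := PP_add (b - b') b' l
  rw [sub_add_cancel] at this
  linarith

lemma PP_nonneg {c : L1} (hc : ∀ k, 0 ≤ c k) (l : List E) : 0 ≤ PP c l :=
  pairSum_nonneg (fun x _ y _ => kC_nonneg hc x y)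

lemma summable_mul_bdd (b : L1) {u : ℕ → ℝ} {M : ℝ} (h : ∀ k, |u k| ≤ M) :
    Summable (fun k => b k * u k) := by
  have hM : Summable (fun k => |b k| * M) := (L1_summable b).mul_right M
  refine Summable.of_norm_bounded hM (fun k => ?_)
  rw [Real.norm_eq_abs, abs_mul]
  exact mul_le_mul_of_nonneg_left (h k) (abs_nonneg _)

lemma abs_tsum_mul_le (b : L1) {u : ℕ → ℝ} {M : ℝ} (h : ∀ k, |u k| ≤ M) :
    |∑' k, b k * u k| ≤ ‖b‖ * M := by
  have hM : Summable (fun k => |b k| * M) := (L1_summable b).mul_right M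
  have h1 : Summable (fun k => ‖b k * u k‖) := by
    refine Summable.of_nonneg_of_le (fun k => norm_nonneg _) (fun k => ?_) hM
    rw [Real.norm_eq_abs, abs_mul]
    exact mul_le_mul_of_nonneg_left (h k) (abs_nonneg _)
  have h2 := norm_tsum_le_tsum_norm h1
  rw [Real.norm_eq_abs] at h2
  refine h2.trans ?_
  rw [L1_norm, ← tsum_mul_right]
  refine h1.tsum_le_tsum (fun k => ?_) hM
  rw [Real.norm_eq_abs, abs_mul]
  exact mul_le_mul_of_nonneg_left (h k) (abs_nonneg _)

lemma list_sum_kG_abs (k : ℕ) (l : List E) (x : E) : |(l.map (kG k x)).sum| ≤ l.length := by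
  rw [abs_of_nonneg (list_sum_nonneg (fun y _ => kG_nonneg k x y))]
  induction l with
  | nil => simp
  | cons y l ih =>
    simp only [List.map_cons, List.sum_cons, List.length_cons]
    push_cast
    have := kG_le_one k x y
    linarith

/-- Exchange of the sum over a list and the sum over the Gaussians. -/
lemma list_sum_tsum (b : L1) (l : List E) (x : E) :
    (l.map (kC b x)).sum = ∑' k, b k * (l.map (kG k x)).sum := by
  induction l with
  | nil => simp
  | cons y l ih =>
    simp only [List.map_cons, List.sum_cons, ih, mul_add]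
    rw [Summable.tsum_add (kC_summable b x y) (summable_mul_bdd b (list_sum_kG_abs · l x))]
    rfl

lemma pairSum_kG_abs (k : ℕ) (l : List E) : |pairSum (kG k) l| ≤ l.length ^ 2 := by
  rw [abs_of_nonneg (pairSum_nonneg (fun x _ y _ => kG_nonneg k x y))]
  induction l with
  | nil => simp
  | cons y l ih =>
    simp only [pairSum_cons, List.length_cons]
    have h1 := list_sum_kG_abs k l y
    rw [abs_of_nonneg (list_sum_nonneg (fun z _ => kG_nonneg k y z))] at h1
    push_cast
    nlinarith [(Nat.cast_nonneg l.length : (0:ℝ) ≤ l.length)]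

/-- The energy as a series. -/
lemma PP_eq_tsum (b : L1) (l : List E) : PP b l = ∑' k, b k * pairSum (kG k) l := by
  unfold PP
  induction l with
  | nil => simp
  | cons x l ih =>
    simp only [pairSum_cons, ih, mul_add]
    rw [Summable.tsum_add (summable_mul_bdd b (list_sum_kG_abs · l x))
      (summable_mul_bdd b (pairSum_kG_abs · l)), list_sum_tsum]

/-- The constant in the stability bound. -/
noncomputable def KK : ℝ := 1002 ^ 3

/-- The small-grid cell index. -/
noncomputable def idx0 : E → Fin 3 → ℤ := idxL w0 0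

/-- The number of pairs of points in common small cells. -/
noncomputable def D0 (l : List E) : ℝ := Dc idx0 l

lemma D0_nonneg (l : List E) : 0 ≤ D0 l := Dc_nonneg _ _

lemma C1_w0_le {s : ℝ} (hs : 1 ≤ s) : C1 s w0 ≤ 1002 := by
  unfold C1 w0
  have := g1_zero_le hs
  norm_num
  linarith

lemma C1_w0_nonneg {s : ℝ} (hs : 1 ≤ s) : 0 ≤ C1 s w0 := C1_nonneg (by linarith) w0_pos

lemma crossSum_kG_le (k : ℕ) (l : List E) : crossSum (kG k) l l ≤ KK * D0 l := by
  have h1 := schur_gauss (s := (k:ℝ) + 1) (sk_pos k) w0_pos 0 l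
  have h2 : C1 ((k:ℝ) + 1) w0 ^ 3 ≤ KK :=
    pow_le_pow_left₀ (C1_w0_nonneg (sk_ge_one k)) (C1_w0_le (sk_ge_one k)) 3
  calc _ ≤ _ := h1
    _ ≤ KK * D0 l := mul_le_mul_of_nonneg_right h2 (D0_nonneg l)

lemma pairSum_kG_le (k : ℕ) (l : List E) : pairSum (kG k) l ≤ KK / 2 * D0 l := by
  have h1 := pairSum_le_half_crossSum (kG_sym k) (fun x => kG_nonneg k x x) l
  have h2 := crossSum_kG_le k l
  linarith

/-- The total Gaussian energy is bounded by the number of close pairs. -/
lemma PP_abs_le (b : L1) (l : List E) : |PP b l| ≤ ‖b‖ * (KK / 2 * D0 l) := by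
  rw [PP_eq_tsum]
  refine abs_tsum_mul_le b (fun k => ?_)
  rw [abs_of_nonneg (pairSum_nonneg (fun x _ y _ => kG_nonneg k x y))]
  exact pairSum_kG_le k l

lemma floor_eq_abs_lt {a b ℓ : ℝ} (hℓ : 0 < ℓ) (h : ⌊a / ℓ⌋ = ⌊b / ℓ⌋) : |a - b| < ℓ := by
  have h1 := Int.abs_sub_lt_one_of_floor_eq_floor h
  have e : a / ℓ - b / ℓ = (a - b) / ℓ := by ring
  rw [e, abs_div, abs_of_pos hℓ, div_lt_one hℓ] at h1
  exact h1

lemma same_cell_close {x y : E} (h : idx0 x = idx0 y) : dist3 x y < r0 := by
  have hj : ∀ j, (x j - y j) ^ 2 ≤ w0 ^ 2 := by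
    intro j
    have h1 := congrFun h j
    simp only [idx0, idxL, sub_zero] at h1
    have h2 := floor_eq_abs_lt w0_pos h1
    exact sq_le_sq.mpr (by rw [abs_of_pos w0_pos]; exact h2.le)
  unfold dist3
  rw [Real.sqrt_lt' r0_pos, Fin.sum_univ_three]
  have := hj 0
  have := hj 1
  have := hj 2
  have e : r0 ^ 2 = 4 * w0 ^ 2 := by unfold r0 w0; norm_num
  have hw : 0 < w0 ^ 2 := by have := w0_pos; positivity
  nlinarith

lemma En0_ge (l : List E) : Arep / 2 * (D0 l - l.length) ≤ En0 l := by
  have h1 : pairSum (fun x y => Arep * sameK idx0 x y) l ≤ pairSum kRep l := by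
    refine pairSum_mono (fun x _ y _ => ?_)
    unfold sameK kRep
    by_cases h : idx0 x = idx0 y
    · simp [h, same_cell_close h]
    · simp only [h, if_false, mul_zero]
      split_ifs
      · exact Arep_pos.le
      · exact le_refl _
  rw [pairSum_const_mul] at h1
  have h2 := Dc_eq_pairSum idx0 l
  have h3 : D0 l = 2 * pairSum (sameK idx0) l + l.length := h2
  unfold En0
  have h4 : D0 l - l.length = 2 * pairSum (sameK idx0) l := by linarith
  rw [h4]
  linarith

/-- The effective repulsion in the stability bound. -/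
noncomputable def A2 : ℝ := Arep - 4 * KK

lemma A2_val : A2 ≥ 95 * 10 ^ 9 := by
  unfold A2 Arep KK
  norm_num

lemma A2_pos : 0 < A2 := by
  have := A2_val
  linarith

/-- The stability bound. -/
theorem En_ge {c : L1} (hc : c ∈ Dom 4) (l : List E) :
    A2 / 2 * D0 l - Arep / 2 * l.length ≤ En c l := by
  rw [En_eq]
  have h1 := En0_ge l
  have h2 := (abs_le.mp (PP_abs_le c l)).2
  have h3 : ‖c‖ * (KK / 2 * D0 l) ≤ 4 * (KK / 2 * D0 l) :=
    mul_le_mul_of_nonneg_right hc.2 (by have := D0_nonneg l; unfold KK; positivity)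
  unfold A2
  nlinarith

end Vale.Agent.Lib.P171
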