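import Vale.Agent.Lib.P171.Kernel

/-!
# Gaussian kernels and the Schur bound
-/

set_option linter.unusedSectionVars false
set_option linter.unusedVariables false
set_option linter.unusedSimpArgs false

namespace Vale.Agent.Lib.P171

open Finset MeasureTheory
open scoped Real

/-- Euclidean three-space, with coordinates. -/
abbrev E := Fin 3 → ℝ

/-- The Euclidean distance. -/
noncomputable def dist3 (x y : E) : ℝ := √(∑ j, (x j - y j) ^ 2)

/-- The one-dimensional Gaussian density of variance `s`. -/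
noncomputable def g1 (s u : ℝ) : ℝ := (√(2 * π * s))⁻¹ * Real.exp (-u ^ 2 / (2 * s))

/-- The radial profile of the three-dimensional Gaussian density of variance `s`. -/
noncomputable def γ (s r : ℝ) : ℝ := (√(2 * π * s))⁻¹ ^ 3 * Real.exp (-r ^ 2 / (2 * s))

lemma dist3_comm (x y : E) : dist3 x y = dist3 y x := by
  unfold dist3
  congr 1
  refine Finset.sum_congr rfl (fun j _ => ?_)
  ring

lemma dist3_nonneg (x y : E) : 0 ≤ dist3 x y := Real.sqrt_nonneg _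

lemma dist3_sq (x y : E) : dist3 x y ^ 2 = ∑ j, (x j - y j) ^ 2 :=
  Real.sq_sqrt (Finset.sum_nonneg (fun j _ => sq_nonneg _))

lemma abs_coord_le_dist3 (x y : E) (j : Fin 3) : |x j - y j| ≤ dist3 x y := by
  unfold dist3
  apply Real.abs_le_sqrt
  exact Finset.single_le_sum (f := fun j => (x j - y j) ^ 2) (fun i _ => sq_nonneg _) (Finset.mem_univ j)

lemma g1_pos {s : ℝ} (hs : 0 < s) (u : ℝ) : 0 < g1 s u := by
  unfold g1
  have : 0 < √(2 * π * s) := Real.sqrt_pos.mpr (by positivity)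
  positivity

lemma γ_pos {s : ℝ} (hs : 0 < s) (r : ℝ) : 0 < γ s r := by
  unfold γ
  have : 0 < √(2 * π * s) := Real.sqrt_pos.mpr (by positivity)
  positivity

lemma γ_dist (s : ℝ) (hs : 0 < s) (x y : E) : γ s (dist3 x y) = ∏ j, g1 s (x j - y j) := by
  unfold γ g1
  rw [dist3_sq, Finset.prod_mul_distrib, ← Real.exp_sum]
  simp only [Finset.prod_const, Finset.card_univ, Fintype.card_fin]
  congr 2
  rw [← Finset.sum_neg_distrib, Finset.sum_div]

lemma g1_even (s u : ℝ) : g1 s (-u) = g1 s u := by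
  unfold g1; simp

lemma g1_le_of_abs_le {s u v : ℝ} (hs : 0 < s) (h : |v| ≤ |u|) : g1 s u ≤ g1 s v := by
  unfold g1
  have h0 : 0 ≤ (√(2 * π * s))⁻¹ := by positivity
  refine mul_le_mul_of_nonneg_left ?_ h0
  rw [Real.exp_le_exp]
  have h1 : v ^ 2 ≤ u ^ 2 := sq_le_sq.mpr h
  apply div_le_div_of_nonneg_right _ (by positivity)
  linarith

lemma g1_zero_le {s : ℝ} (hs : 1 ≤ s) : g1 s 0 ≤ 1 / 2 := by
  unfold g1
  simp only [ne_eq, OfNat.ofNat_ne_zero, not_false_eq_true, zero_pow, neg_zero, zero_div, Real.exp_zero, mul_one]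
  rw [one_div]
  apply inv_anti₀ (by norm_num)
  apply Real.le_sqrt_of_sq_le
  nlinarith [Real.pi_gt_three]

lemma g1_le_zero {s : ℝ} (hs : 0 < s) (u : ℝ) : g1 s u ≤ g1 s 0 :=
  g1_le_of_abs_le hs (by simp)

lemma g1_le_half {s : ℝ} (hs : 1 ≤ s) (u : ℝ) : g1 s u ≤ 1 / 2 :=
  (g1_le_zero (by linarith) u).trans (g1_zero_le hs)

/-- The integrability of the Gaussian density. -/
lemma g1_integrable {s : ℝ} (hs : 0 < s) : Integrable (g1 s) := by
  have h := (integrable_exp_neg_mul_sq (b := 1 / (2 * s)) (by positivity)).const_mul (√(2 * π * s))⁻¹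
  refine h.congr (Filter.Eventually.of_forall (fun u => ?_))
  unfold g1
  simp only
  congr 2
  ring

lemma sqrt_two_pi_ne {s : ℝ} (hs : 0 < s) : √(2 * π * s) ≠ 0 :=
  (Real.sqrt_pos.mpr (by positivity)).ne'

/-- The Gaussian density has mass one. -/
lemma g1_integral {s : ℝ} (hs : 0 < s) : ∫ u, g1 s u = 1 := by
  unfold g1
  rw [integral_const_mul]
  have h1 : (fun u : ℝ => Real.exp (-u ^ 2 / (2 * s))) = fun u => Real.exp (-(1 / (2 * s)) * u ^ 2) := by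
    funext u
    congr 1
    ring
  rw [h1, integral_gaussian]
  have h2 : π / (1 / (2 * s)) = 2 * π * s := by field_simp
  rw [h2]
  exact inv_mul_cancel₀ (sqrt_two_pi_ne hs)

/-- The half-line mass of the Gaussian density. -/
lemma g1_integral_Ioi {s : ℝ} (hs : 0 < s) : ∫ u in Set.Ioi (0:ℝ), g1 s u = 1 / 2 := by
  unfold g1
  rw [integral_const_mul]
  have h1 : (fun u : ℝ => Real.exp (-u ^ 2 / (2 * s))) = fun u => Real.exp (-(1 / (2 * s)) * u ^ 2) := by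
    funext u
    congr 1
    ring
  rw [h1, integral_gaussian_Ioi]
  have h2 : π / (1 / (2 * s)) = 2 * π * s := by field_simp
  rw [h2]
  have := sqrt_two_pi_ne hs
  field_simp

lemma g1_integral_zero_le {s : ℝ} (hs : 0 < s) {b : ℝ} (hb : 0 ≤ b) :
    ∫ u in (0:ℝ)..b, g1 s u ≤ 1 / 2 := by
  rw [intervalIntegral.integral_of_le hb, ← g1_integral_Ioi hs]
  refine setIntegral_mono_set (g1_integrable hs).integrableOn ?_ ?_
  · exact Filter.Eventually.of_forall (fun u => (g1_pos hs u).le)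
  · exact (Filter.Eventually.of_forall (fun u hu => hu.1))

/-- Riemann sum bound. -/
lemma g1_sum_le {s ℓ : ℝ} (hs : 0 < s) (hℓ : 0 < ℓ) (n : ℕ) :
    ∑ i ∈ Finset.range n, g1 s ((i + 1 : ℕ) * ℓ) ≤ 1 / (2 * ℓ) := by
  have hanti : AntitoneOn (fun u : ℝ => g1 s (u * ℓ)) (Set.Icc 0 (0 + (n:ℝ))) := by
    intro a ha b hb hab
    apply g1_le_of_abs_le hs
    rw [abs_of_nonneg (mul_nonneg ha.1 hℓ.le), abs_of_nonneg (mul_nonneg hb.1 hℓ.le)]
    exact mul_le_mul_of_nonneg_right hab hℓ.le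
  have h1 := hanti.sum_le_integral
  simp only [zero_add] at h1
  have h2 : ∫ x in (0:ℝ)..n, g1 s (x * ℓ) = ℓ⁻¹ * ∫ u in (0:ℝ)..(n * ℓ), g1 s u := by
    rw [intervalIntegral.integral_comp_mul_right _ hℓ.ne']
    simp [smul_eq_mul]
  rw [h2] at h1
  have h3 := g1_integral_zero_le hs (b := n * ℓ) (by positivity)
  have h4 : ℓ⁻¹ * ∫ u in (0:ℝ)..(n * ℓ), g1 s u ≤ ℓ⁻¹ * (1 / 2) :=
    mul_le_mul_of_nonneg_left h3 (by positivity)
  calc _ ≤ _ := h1
    _ ≤ _ := h4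
    _ = 1 / (2 * ℓ) := by field_simp

/-- The cell index at scale `ℓ` and offset `o`. -/
noncomputable def idxL (ℓ o : ℝ) (x : E) : Fin 3 → ℤ := fun j => ⌊(x j - o) / ℓ⌋

/-- The bound for the Gaussian between two cells at index distance `m`. -/
noncomputable def qq (s ℓ : ℝ) (m : ℤ) : ℝ := g1 s (((m.natAbs - 1 : ℕ) : ℝ) * ℓ)

lemma qq_nonneg {s : ℝ} (hs : 0 < s) (ℓ : ℝ) (m : ℤ) : 0 ≤ qq s ℓ m := (g1_pos hs _).le

lemma qq_neg (s ℓ : ℝ) (m : ℤ) : qq s ℓ (-m) = qq s ℓ m := by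
  unfold qq; simp

lemma natAbs_sub_floor_le (u v : ℝ) : (((⌊u⌋ - ⌊v⌋).natAbs - 1 : ℕ) : ℝ) ≤ |u - v| := by
  have h1 := Int.floor_le u
  have h2 := Int.lt_floor_add_one u
  have h3 := Int.floor_le v
  have h4 := Int.lt_floor_add_one v
  obtain ⟨m, hm⟩ : ∃ m, m = ⌊u⌋ - ⌊v⌋ := ⟨_, rfl⟩
  rw [← hm]
  have hmr : (m : ℝ) = (⌊u⌋ : ℝ) - (⌊v⌋ : ℝ) := by rw [hm]; push_cast; ring
  rcases Nat.eq_zero_or_pos m.natAbs with h0 | h0
  · rw [h0]
    simp
  · rw [Nat.cast_sub h0, Nat.cast_one, Nat.cast_natAbs]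
    rw [sub_le_iff_le_add]
    have : ((|m| : ℤ) : ℝ) = |(m : ℝ)| := by push_cast; rfl
    rw [this]
    rcases abs_cases (m:ℝ) with ⟨h5, _⟩ | ⟨h5, _⟩ <;> rw [h5]
    · have := le_abs_self (u - v)
      linarith
    · have := neg_abs_le (u - v)
      linarith

lemma g1_le_qq {s ℓ : ℝ} (hs : 0 < s) (hℓ : 0 < ℓ) (o x y : ℝ) :
    g1 s (x - y) ≤ qq s ℓ (⌊(x - o) / ℓ⌋ - ⌊(y - o) / ℓ⌋) := by
  unfold qq
  apply g1_le_of_abs_le hs
  have h1 := natAbs_sub_floor_le ((x - o) / ℓ) ((y - o) / ℓ)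
  have e : (x - o) / ℓ - (y - o) / ℓ = (x - y) / ℓ := by ring
  rw [e, abs_div, abs_of_pos hℓ, le_div_iff₀ hℓ] at h1
  rwa [abs_of_nonneg (by positivity)]

/-- The one-dimensional Schur constant. -/
noncomputable def C1 (s ℓ : ℝ) : ℝ := 3 * g1 s 0 + 1 / ℓ

lemma qq_sum_Icc {s ℓ : ℝ} (hs : 0 < s) (hℓ : 0 < ℓ) (J : ℕ) :
    ∑ m ∈ Finset.Icc (-(J:ℤ)) J, qq s ℓ m = g1 s 0 + 2 * ∑ i ∈ Finset.range J, g1 s ((i:ℝ) * ℓ) := by
  induction J with
  | zero =>
    simp [qq]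
  | succ J ih =>
    have e : Finset.Icc (-((J + 1 : ℕ):ℤ)) ((J + 1 : ℕ):ℤ) =
        insert (((J + 1 : ℕ):ℤ)) (insert (-((J + 1 : ℕ):ℤ)) (Finset.Icc (-(J:ℤ)) J)) := by
      ext m
      simp only [Finset.mem_Icc, Finset.mem_insert]
      push_cast
      omega
    rw [e, Finset.sum_insert, Finset.sum_insert, ih, Finset.sum_range_succ, qq_neg]
    · have : qq s ℓ ((J + 1 : ℕ):ℤ) = g1 s ((J:ℝ) * ℓ) := by
        unfold qq
        have : ((((J + 1 : ℕ):ℤ)).natAbs - 1 : ℕ) = J := by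
          rw [Int.natAbs_natCast]; rfl
        rw [this]
      rw [this]
      ring
    · simp only [Finset.mem_Icc]; push_cast; omega
    · simp only [Finset.mem_insert, Finset.mem_Icc]; push_cast; omega

lemma qq_sum_Icc_le {s ℓ : ℝ} (hs : 0 < s) (hℓ : 0 < ℓ) (J : ℕ) :
    ∑ m ∈ Finset.Icc (-(J:ℤ)) J, qq s ℓ m ≤ C1 s ℓ := by
  rw [qq_sum_Icc hs hℓ]
  unfold C1
  have h1 : ∑ i ∈ Finset.range J, g1 s ((i:ℝ) * ℓ) ≤ g1 s 0 + 1 / (2 * ℓ) := by
    cases J with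
    | zero =>
      simp only [Finset.range_zero, Finset.sum_empty]
      have := g1_pos hs 0
      positivity
    | succ J =>
      rw [Finset.sum_range_succ']
      have := g1_sum_le hs hℓ J
      simp only [Nat.cast_zero, zero_mul]
      linarith
  have h2 : 1 / (2 * ℓ) * 2 = 1 / ℓ := by field_simp
  nlinarith

lemma qq_sum_le {s ℓ : ℝ} (hs : 0 < s) (hℓ : 0 < ℓ) (T : Finset ℤ) (B : ℤ) :
    ∑ m ∈ T, qq s ℓ (B - m) ≤ C1 s ℓ := by
  classical
  have hinj : Set.InjOn (fun m : ℤ => B - m) T := by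
    intro a _ b _ h
    simpa using h
  have h1 : ∑ m ∈ T, qq s ℓ (B - m) = ∑ m ∈ T.image (fun m : ℤ => B - m), qq s ℓ m :=
    (Finset.sum_image hinj).symm
  rw [h1]
  obtain ⟨J, hJ⟩ : ∃ J : ℕ, T.image (fun m : ℤ => B - m) ⊆ Finset.Icc (-(J:ℤ)) J := by
    refine ⟨∑ m ∈ T.image (fun m : ℤ => B - m), m.natAbs, ?_⟩
    intro m hm
    have h2 : m.natAbs ≤ ∑ m ∈ T.image (fun m : ℤ => B - m), m.natAbs :=
      Finset.single_le_sum (f := fun m : ℤ => m.natAbs) (fun _ _ => Nat.zero_le _) hm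
    simp only [Finset.mem_Icc]
    omega
  exact (Finset.sum_le_sum_of_subset_of_nonneg hJ (fun m _ _ => qq_nonneg hs ℓ m)).trans
    (qq_sum_Icc_le hs hℓ J)

lemma C1_nonneg {s ℓ : ℝ} (hs : 0 < s) (hℓ : 0 < ℓ) : 0 ≤ C1 s ℓ := by
  unfold C1
  have := g1_pos hs 0
  positivity

/-- The Schur bound for the three-dimensional Gaussian on cells of side `ℓ`. -/
theorem schur_gauss {s ℓ : ℝ} (hs : 0 < s) (hℓ : 0 < ℓ) (o : ℝ) (l : List E) :
    crossSum (fun x y => γ s (dist3 x y)) l l ≤ C1 s ℓ ^ 3 * Dc (idxL ℓ o) l := by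
  classical
  refine schur (idxL ℓ o) (fun B B' => ∏ j, qq s ℓ (B j - B' j)) ?_ ?_ ?_ ?_ l
  · exact fun B B' => Finset.prod_nonneg (fun j _ => qq_nonneg hs ℓ _)
  · intro B B'
    refine Finset.prod_congr rfl (fun j _ => ?_)
    rw [← neg_sub, qq_neg]
  · intro B F
    let T : Fin 3 → Finset ℤ := fun j => F.image (fun b => b j)
    have hsub : F ⊆ Fintype.piFinset T := by
      intro b hb
      rw [Fintype.mem_piFinset]
      exact fun j => Finset.mem_image_of_mem _ hb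
    have h1 : ∑ B' ∈ F, ∏ j, qq s ℓ (B j - B' j) ≤
        ∑ B' ∈ Fintype.piFinset T, ∏ j, qq s ℓ (B j - B' j) :=
      Finset.sum_le_sum_of_subset_of_nonneg hsub
        (fun b _ _ => Finset.prod_nonneg (fun j _ => qq_nonneg hs ℓ _))
    refine h1.trans ?_
    rw [← Finset.prod_univ_sum (fun j => T j) (fun j m => qq s ℓ (B j - m))]
    calc ∏ j, ∑ m ∈ T j, qq s ℓ (B j - m) ≤ ∏ _j : Fin 3, C1 s ℓ :=
          Finset.prod_le_prod (fun j _ => Finset.sum_nonneg (fun m _ => qq_nonneg hs ℓ _))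
            (fun j _ => qq_sum_le hs hℓ (T j) (B j))
      _ = C1 s ℓ ^ 3 := by simp
  · intro x y
    rw [γ_dist s hs]
    exact Finset.prod_le_prod (fun j _ => (g1_pos hs _).le)
      (fun j _ => g1_le_qq hs hℓ o (x j) (y j))

end Vale.Agent.Lib.P171
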