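import Vale.Agent.Lib.P171.Gauss

/-!
# Positive definiteness of the Gaussian kernel: a lower bound
-/

set_option linter.unusedSectionVars false
set_option linter.unusedVariables false
set_option linter.unusedSimpArgs false

namespace Vale.Agent.Lib.P171

open Finset MeasureTheory
open scoped Real

lemma g1_continuous {s : ℝ} : Continuous (g1 s) := by
  unfold g1
  fun_prop

lemma g1_bdd {s : ℝ} (hs : 0 < s) (u : ℝ) : ‖g1 s u‖ ≤ g1 s 0 := by
  rw [Real.norm_of_nonneg (g1_pos hs u).le]
  exact g1_le_zero hs u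

/-- Product of two translates is integrable. -/
lemma g1_mul_integrable {s : ℝ} (hs : 0 < s) (u v : ℝ) :
    Integrable (fun z => g1 s (z - u) * g1 s (z - v)) := by
  have h1 : Integrable (fun z => g1 s (z - v)) := (g1_integrable hs).comp_sub_right v
  have h2 := h1.bdd_mul (c := g1 s 0) (f := fun z => g1 s (z - u))
    (g1_continuous.comp (continuous_id.sub continuous_const)).aestronglyMeasurable
    (Filter.Eventually.of_forall (fun z => g1_bdd hs _))
  exact h2

/-- The semigroup property. -/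
lemma g1_conv {s : ℝ} (hs : 0 < s) (u v : ℝ) :
    ∫ z, g1 (s / 2) (z - u) * g1 (s / 2) (z - v) = g1 s (u - v) := by
  have e1 : ∀ z : ℝ, g1 (s / 2) (z - u) * g1 (s / 2) (z - v) =
      ((√(π * s))⁻¹ ^ 2 * Real.exp (-(u - v) ^ 2 / (2 * s))) *
        Real.exp (-(2 / s) * (z - (u + v) / 2) ^ 2) := by
    intro z
    unfold g1
    have e2 : 2 * π * (s / 2) = π * s := by ring
    rw [e2]
    have e3 : Real.exp (-(z - u) ^ 2 / (2 * (s / 2))) * Real.exp (-(z - v) ^ 2 / (2 * (s / 2))) =
        Real.exp (-(u - v) ^ 2 / (2 * s)) * Real.exp (-(2 / s) * (z - (u + v) / 2) ^ 2) := by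
      rw [← Real.exp_add, ← Real.exp_add]
      congr 1
      field_simp
      ring
    calc _ = (√(π * s))⁻¹ ^ 2 * (Real.exp (-(z - u) ^ 2 / (2 * (s / 2))) *
            Real.exp (-(z - v) ^ 2 / (2 * (s / 2)))) := by ring
      _ = _ := by rw [e3]; ring
  simp_rw [e1]
  rw [integral_const_mul]
  have h1 : ∫ z : ℝ, Real.exp (-(2 / s) * (z - (u + v) / 2) ^ 2) = √(π / (2 / s)) := by
    rw [integral_sub_right_eq_self (fun z => Real.exp (-(2 / s) * z ^ 2)) ((u + v) / 2),
      integral_gaussian]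
  rw [h1]
  unfold g1
  have hπs : 0 < π * s := by positivity
  have h2 : √(π / (2 / s)) = √(2 * π * s) / 2 := by
    have e : π / (2 / s) = (2 * π * s) / 2 ^ 2 := by
      field_simp
    rw [e, Real.sqrt_div (by positivity), Real.sqrt_sq (by norm_num)]
  rw [h2]
  have h3 : (√(π * s))⁻¹ ^ 2 = (π * s)⁻¹ := by
    rw [inv_pow, Real.sq_sqrt hπs.le]
  rw [h3]
  have h4 : √(2 * π * s) ≠ 0 := (Real.sqrt_pos.mpr (by positivity)).ne'
  have h5 : √(2 * π * s) ^ 2 = 2 * π * s := Real.sq_sqrt (by positivity)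
  have h6 : (π * s)⁻¹ * (√(2 * π * s) / 2) = (√(2 * π * s))⁻¹ := by
    have : π * s = √(2 * π * s) ^ 2 / 2 := by rw [h5]; ring
    rw [this]
    field_simp
  calc _ = ((π * s)⁻¹ * (√(2 * π * s) / 2)) * Real.exp (-(u - v) ^ 2 / (2 * s)) := by ring
    _ = _ := by rw [h6]

section abstract

variable {Ωa α : Type} [MeasurableSpace Ωa] (ν : Measure Ωa) (H : α → Ωa → ℝ)

/-- A finite sum of functions. -/
def Sl (l : List α) (z : Ωa) : ℝ := (l.map (fun x => H x z)).sum

lemma Sl_nil (z : Ωa) : Sl H [] z = 0 := rfl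

lemma Sl_cons (x : α) (l : List α) (z : Ωa) : Sl H (x :: l) z = H x z + Sl H l z := by
  simp [Sl]

variable {ν H}

lemma Sl_integrable (hH : ∀ x, Integrable (H x) ν) (l : List α) : Integrable (Sl H l) ν := by
  induction l with
  | nil => exact integrable_zero _ _ _
  | cons x l ih =>
    have : Sl H (x :: l) = fun z => H x z + Sl H l z := by
      funext z; exact Sl_cons H x l z
    rw [this]
    exact (hH x).add ih

lemma Sl_integral (hH : ∀ x, Integrable (H x) ν) (l : List α) :
    ∫ z, Sl H l z ∂ν = (l.map (fun x => ∫ z, H x z ∂ν)).sum := by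
  induction l with
  | nil => simp [Sl_nil]
  | cons x l ih =>
    simp_rw [Sl_cons]
    rw [integral_add (hH x) (Sl_integrable hH l), ih]
    simp

lemma mul_Sl_integrable (hHH : ∀ x y, Integrable (fun z => H x z * H y z) ν) (x : α) (l : List α) :
    Integrable (fun z => H x z * Sl H l z) ν := by
  induction l with
  | nil => simpa [Sl_nil] using integrable_zero _ _ _
  | cons y l ih =>
    simp_rw [Sl_cons, mul_add]
    exact (hHH x y).add ih

lemma mul_Sl_integral (hHH : ∀ x y, Integrable (fun z => H x z * H y z) ν) (x : α) (l : List α) :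
    ∫ z, H x z * Sl H l z ∂ν = (l.map (fun y => ∫ z, H x z * H y z ∂ν)).sum := by
  induction l with
  | nil => simp [Sl_nil]
  | cons y l ih =>
    simp_rw [Sl_cons, mul_add]
    rw [integral_add (hHH x y) (mul_Sl_integrable hHH x l), ih]
    simp

lemma Sl_mul_Sl_integrable (hHH : ∀ x y, Integrable (fun z => H x z * H y z) ν) (l l' : List α) :
    Integrable (fun z => Sl H l z * Sl H l' z) ν := by
  induction l with
  | nil => simpa [Sl_nil] using integrable_zero _ _ _
  | cons x l ih =>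
    simp_rw [Sl_cons, add_mul]
    exact (mul_Sl_integrable hHH x l').add ih

lemma Sl_mul_Sl_integral (hHH : ∀ x y, Integrable (fun z => H x z * H y z) ν) (l l' : List α) :
    ∫ z, Sl H l z * Sl H l' z ∂ν = crossSum (fun x y => ∫ z, H x z * H y z ∂ν) l l' := by
  induction l with
  | nil => simp [Sl_nil]
  | cons x l ih =>
    simp_rw [Sl_cons, add_mul]
    rw [integral_add (mul_Sl_integrable hHH x l') (Sl_mul_Sl_integrable hHH l l'), ih,
      mul_Sl_integral hHH]
    simp

lemma Sl_mul_χ {χ : Ωa → ℝ} (hχH : ∀ x z, H x z * χ z = H x z) (l : List α) (z : Ωa) :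
    Sl H l z * χ z = Sl H l z := by
  induction l with
  | nil => simp [Sl_nil]
  | cons x l ih => rw [Sl_cons, add_mul, hχH, ih]

/-- Cauchy-Schwarz on a list of functions supported on a set of finite measure. -/
lemma cs_list {χ : Ωa → ℝ} (hH : ∀ x, Integrable (H x) ν)
    (hHH : ∀ x y, Integrable (fun z => H x z * H y z) ν) (hχ : Integrable χ ν)
    (hχ2 : ∀ z, χ z * χ z = χ z) (hχH : ∀ x z, H x z * χ z = H x z) {V : ℝ} (hV : ∫ z, χ z ∂ν = V)
    (hVpos : 0 < V) (l : List α) :
    (l.map (fun x => ∫ z, H x z ∂ν)).sum ^ 2 / V ≤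
      crossSum (fun x y => ∫ z, H x z * H y z ∂ν) l l := by
  obtain ⟨A, hA⟩ : ∃ A, A = (l.map (fun x => ∫ z, H x z ∂ν)).sum := ⟨_, rfl⟩
  rw [← hA]
  obtain ⟨m, hm⟩ : ∃ m, m = A / V := ⟨_, rfl⟩
  have hSχ : ∀ z, Sl H l z * χ z = Sl H l z := Sl_mul_χ hχH l
  have e : ∀ z, (Sl H l z - m * χ z) ^ 2 = Sl H l z * Sl H l z - 2 * m * Sl H l z + m ^ 2 * χ z := by
    intro z
    have h1 := hSχ z
    have h2 := hχ2 z
    calc _ = Sl H l z * Sl H l z - 2 * m * (Sl H l z * χ z) + m ^ 2 * (χ z * χ z) := by ring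
      _ = _ := by rw [h1, h2]
  have h0 : 0 ≤ ∫ z, (Sl H l z - m * χ z) ^ 2 ∂ν := integral_nonneg (fun z => sq_nonneg _)
  simp_rw [e] at h0
  have hi1 : Integrable (fun z => Sl H l z * Sl H l z - 2 * m * Sl H l z) ν :=
    (Sl_mul_Sl_integrable hHH l l).sub ((Sl_integrable hH l).const_mul _)
  have hi2 : Integrable (fun z => m ^ 2 * χ z) ν := hχ.const_mul _
  have hi3 : Integrable (fun z => 2 * m * Sl H l z) ν := (Sl_integrable hH l).const_mul _
  rw [integral_add hi1 hi2, integral_sub (Sl_mul_Sl_integrable hHH l l) hi3,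
    integral_const_mul, integral_const_mul, Sl_mul_Sl_integral hHH, Sl_integral hH, ← hA, hV] at h0
  obtain ⟨B, hB⟩ : ∃ B, B = crossSum (fun x y => ∫ z, H x z * H y z ∂ν) l l := ⟨_, rfl⟩
  rw [← hB] at h0 ⊢
  rw [div_le_iff₀ hVpos]
  have hmV : m * V = A := by rw [hm]; field_simp
  nlinarith [sq_nonneg (m * V - A)]

end abstract


/-! ### The Gaussian kernel dominates the square of the number of points over the volume -/

section gauss

variable {s W L : ℝ}

/-- Indicator function of the enlarged interval. -/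
noncomputable def χ1 (W L : ℝ) : ℝ → ℝ := Set.indicator (Set.Icc (-W) (L + W)) (fun _ => 1)

/-- A localized Gaussian. -/
noncomputable def φ1 (s W L x : ℝ) : ℝ → ℝ :=
  Set.indicator (Set.Icc (-W) (L + W)) (fun z => g1 (s / 2) (z - x))

lemma φ1_nonneg (hs : 0 < s) (x z : ℝ) : 0 ≤ φ1 s W L x z := by
  unfold φ1
  exact Set.indicator_nonneg (fun z _ => (g1_pos (by positivity) _).le) z

lemma φ1_integrable (hs : 0 < s) (x : ℝ) : Integrable (φ1 s W L x) :=
  ((g1_integrable (by positivity : 0 < s / 2)).comp_sub_right x).indicator measurableSet_Icc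

lemma φ1_mul_le (hs : 0 < s) (x y z : ℝ) :
    φ1 s W L x z * φ1 s W L y z ≤ g1 (s / 2) (z - x) * g1 (s / 2) (z - y) := by
  have hs2 : 0 < s / 2 := by positivity
  unfold φ1 Set.indicator
  split_ifs
  · exact le_refl _
  · simp only [mul_zero]
    exact (mul_pos (g1_pos hs2 _) (g1_pos hs2 _)).le

lemma φ1_mul_integrable (hs : 0 < s) (x y : ℝ) :
    Integrable (fun z => φ1 s W L x z * φ1 s W L y z) := by
  have hs2 : 0 < s / 2 := by positivity
  have h1 := g1_mul_integrable hs2 x y
  have h2 := h1.indicator (measurableSet_Icc (a := -W) (b := L + W))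
  refine h2.congr (Filter.Eventually.of_forall (fun z => ?_))
  by_cases h : z ∈ Set.Icc (-W) (L + W)
  · simp only [φ1, Set.indicator_of_mem h]
  · simp only [φ1, Set.indicator_of_notMem h, zero_mul]

lemma φ1_mul_integral_le (hs : 0 < s) (x y : ℝ) :
    ∫ z, φ1 s W L x z * φ1 s W L y z ≤ g1 s (x - y) := by
  have hs2 : 0 < s / 2 := by positivity
  rw [← g1_conv hs x y]
  exact integral_mono (φ1_mul_integrable hs x y) (g1_mul_integrable hs2 x y) (fun z => φ1_mul_le hs x y z)

lemma φ1_integral_ge (hs : 0 < s) (hW : 0 ≤ W) {x : ℝ} (hx0 : 0 ≤ x) (hxL : x ≤ L) :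
    ∫ u in (-W)..W, g1 (s / 2) u ≤ ∫ z, φ1 s W L x z := by
  have hs2 : 0 < s / 2 := by positivity
  unfold φ1
  rw [integral_indicator measurableSet_Icc]
  have h1 : ∫ z in Set.Icc (-W) (L + W), g1 (s / 2) (z - x) =
      ∫ z in (-W)..(L + W), g1 (s / 2) (z - x) := by
    rw [intervalIntegral.integral_of_le (by linarith), integral_Icc_eq_integral_Ioc]
  rw [h1, intervalIntegral.integral_comp_sub_right]
  rw [intervalIntegral.integral_of_le (by linarith), intervalIntegral.integral_of_le (by linarith)]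
  refine setIntegral_mono_set (g1_integrable hs2).integrableOn ?_ ?_
  · exact Filter.Eventually.of_forall (fun u => (g1_pos hs2 u).le)
  · refine Filter.Eventually.of_forall ?_
    intro u hu
    exact ⟨by linarith [hu.1], by linarith [hu.2]⟩

lemma χ1_integrable : Integrable (χ1 W L) := by
  unfold χ1
  refine (integrable_indicator_iff measurableSet_Icc).mpr ?_
  exact integrableOn_const (by simp) (by simp)

lemma χ1_integral (hW : 0 ≤ W) (hL : 0 ≤ L) : ∫ z, χ1 W L z = L + 2 * W := by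
  unfold χ1
  rw [integral_indicator measurableSet_Icc]
  simp only [integral_const, MeasurableSet.univ, measureReal_restrict_apply, Set.univ_inter, smul_eq_mul, mul_one]
  rw [Real.volume_real_Icc_of_le (by linarith)]
  ring

/-- The three-dimensional localized Gaussian. -/
noncomputable def H3 (s W L : ℝ) (x z : E) : ℝ := ∏ j, φ1 s W L (x j) (z j)

/-- The indicator of the enlarged cube. -/
noncomputable def χ3 (W L : ℝ) (z : E) : ℝ := ∏ j, χ1 W L (z j)

lemma H3_integrable (hs : 0 < s) (x : E) : Integrable (H3 s W L x) :=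
  Integrable.fintype_prod (f := fun j => φ1 s W L (x j)) (fun j => φ1_integrable hs (x j))

lemma H3_mul_integrable (hs : 0 < s) (x y : E) : Integrable (fun z => H3 s W L x z * H3 s W L y z) := by
  have h := Integrable.fintype_prod (f := fun j z => φ1 s W L (x j) z * φ1 s W L (y j) z)
    (fun j => φ1_mul_integrable hs (x j) (y j))
  refine h.congr (Filter.Eventually.of_forall (fun z => ?_))
  simp only [H3, Finset.prod_mul_distrib]

lemma χ3_integrable : Integrable (χ3 W L) :=
  Integrable.fintype_prod (f := fun j => χ1 W L) (fun j => χ1_integrable)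

lemma χ3_integral (hW : 0 ≤ W) (hL : 0 ≤ L) : ∫ z, χ3 W L z = (L + 2 * W) ^ 3 := by
  unfold χ3
  rw [integral_fintype_prod_volume_eq_prod (f := fun j => χ1 W L)]
  simp [χ1_integral hW hL]

lemma χ1_mul_self (z : ℝ) : χ1 W L z * χ1 W L z = χ1 W L z := by
  unfold χ1 Set.indicator
  split_ifs <;> simp

lemma χ3_mul_self (z : E) : χ3 W L z * χ3 W L z = χ3 W L z := by
  unfold χ3
  rw [← Finset.prod_mul_distrib]
  exact Finset.prod_congr rfl (fun j _ => χ1_mul_self _)

lemma φ1_mul_χ1 (x z : ℝ) : φ1 s W L x z * χ1 W L z = φ1 s W L x z := by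
  unfold φ1 χ1 Set.indicator
  split_ifs <;> simp

lemma H3_mul_χ3 (x z : E) : H3 s W L x z * χ3 W L z = H3 s W L x z := by
  unfold H3 χ3
  rw [← Finset.prod_mul_distrib]
  exact Finset.prod_congr rfl (fun j _ => φ1_mul_χ1 _ _)

lemma H3_mul_integral_le (hs : 0 < s) (x y : E) :
    ∫ z, H3 s W L x z * H3 s W L y z ≤ γ s (dist3 x y) := by
  rw [γ_dist s hs]
  have e : ∀ z : E, H3 s W L x z * H3 s W L y z = ∏ j, (φ1 s W L (x j) (z j) * φ1 s W L (y j) (z j)) := by
    intro z
    simp only [H3, Finset.prod_mul_distrib]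
  simp_rw [e]
  rw [integral_fintype_prod_volume_eq_prod (f := fun j z => φ1 s W L (x j) z * φ1 s W L (y j) z)]
  refine Finset.prod_le_prod (fun j _ => ?_) (fun j _ => φ1_mul_integral_le hs _ _)
  exact integral_nonneg (fun z => mul_nonneg (φ1_nonneg hs _ _) (φ1_nonneg hs _ _))

/-- The Gaussian mass of the window. -/
noncomputable def Tm3 (s W : ℝ) : ℝ := ∫ u in (-W)..W, g1 (s / 2) u

lemma Tm3_nonneg (hs : 0 < s) (hW : 0 ≤ W) : 0 ≤ Tm3 s W := by
  unfold Tm3
  exact intervalIntegral.integral_nonneg (by linarith) (fun u _ => (g1_pos (by positivity) u).le)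

lemma H3_integral_ge (hs : 0 < s) (hW : 0 ≤ W) {x : E} (hx : ∀ j, 0 ≤ x j ∧ x j ≤ L) :
    Tm3 s W ^ 3 ≤ ∫ z, H3 s W L x z := by
  unfold H3
  rw [integral_fintype_prod_volume_eq_prod (f := fun j => φ1 s W L (x j))]
  calc Tm3 s W ^ 3 = ∏ _j : Fin 3, Tm3 s W := by simp
    _ ≤ _ := Finset.prod_le_prod (fun j _ => Tm3_nonneg hs hW)
        (fun j _ => φ1_integral_ge hs hW (hx j).1 (hx j).2)

/-- The lower bound on the Gaussian quadratic form. -/
theorem crossSum_γ_ge (hs : 0 < s) (hW : 0 < W) (hL : 0 ≤ L) {l : List E}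
    (hl : ∀ x ∈ l, ∀ j, 0 ≤ x j ∧ x j ≤ L) :
    (l.length : ℝ) ^ 2 * Tm3 s W ^ 6 / (L + 2 * W) ^ 3 ≤
      crossSum (fun x y => γ s (dist3 x y)) l l := by
  have hV : 0 < (L + 2 * W) ^ 3 := by positivity
  have h1 := cs_list (ν := volume) (H := H3 s W L) (χ := χ3 W L) (fun x => H3_integrable hs x)
    (fun x y => H3_mul_integrable hs x y) χ3_integrable (fun z => χ3_mul_self z)
    (fun x z => H3_mul_χ3 x z) (χ3_integral hW.le hL) hV l
  have h2 : crossSum (fun x y => ∫ z, H3 s W L x z * H3 s W L y z) l l ≤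
      crossSum (fun x y => γ s (dist3 x y)) l l :=
    crossSum_mono (fun x _ y _ => H3_mul_integral_le hs x y)
  refine le_trans ?_ (h1.trans h2)
  apply div_le_div_of_nonneg_right _ hV.le
  have h3 : (l.length : ℝ) * Tm3 s W ^ 3 ≤ (l.map (fun x => ∫ z, H3 s W L x z)).sum := by
    have h4 : ∀ l' : List E, (∀ x ∈ l', ∀ j, 0 ≤ x j ∧ x j ≤ L) →
        (l'.length : ℝ) * Tm3 s W ^ 3 ≤ (l'.map (fun x => ∫ z, H3 s W L x z)).sum := by
      intro l' hl'
      induction l' with
      | nil => simp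
      | cons x l' ih =>
        simp only [List.length_cons, List.map_cons, List.sum_cons]
        push_cast
        have h5 := H3_integral_ge hs hW.le (hl' x (by simp))
        have h6 := ih (fun y hy => hl' y (by simp [hy]))
        linarith
    exact h4 l hl
  have h0 : 0 ≤ (l.length : ℝ) * Tm3 s W ^ 3 := by
    have := Tm3_nonneg hs hW.le
    positivity
  calc (l.length : ℝ) ^ 2 * Tm3 s W ^ 6 = ((l.length : ℝ) * Tm3 s W ^ 3) ^ 2 := by ring
    _ ≤ _ := pow_le_pow_left₀ h0 h3 2

/-- The window mass tends to one. -/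
lemma Tm3_tendsto (hs : 0 < s) : Filter.Tendsto (Tm3 s) Filter.atTop (nhds 1) := by
  have hs2 : 0 < s / 2 := by positivity
  unfold Tm3
  have h := intervalIntegral_tendsto_integral (μ := volume) (f := g1 (s / 2)) (a := fun W : ℝ => -W)
    (b := fun W : ℝ => W) (l := Filter.atTop) (g1_integrable hs2) Filter.tendsto_neg_atTop_atBot Filter.tendsto_id
  rwa [g1_integral hs2] at h

end gauss

end Vale.Agent.Lib.P171
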