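import Vale.Agent.Lib.P171.Pressure
import Vale.Agent.Lib.P171.Gauss2

/-!
# Gibbs measures on the space of finite configurations; tangents in finite volume
-/

set_option linter.unusedSectionVars false
set_option linter.unusedVariables false
set_option linter.unusedSimpArgs false

namespace Vale.Agent.Lib.P171

open Finset MeasureTheory Filter Topology
open scoped Real ENNReal

/-- The space of finite configurations. -/
abbrev Ωc := Σ n : ℕ, (Fin n → E)

/-- The list of points of a configuration. -/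
def toL (ω : Ωc) : List E := List.ofFn ω.2

/-- The Poisson-type measure on configurations. -/
noncomputable def QQ (μ : Measure E) : Measure Ωc :=
  Measure.sum (fun n => ((n.factorial : ℝ≥0∞))⁻¹ • (Measure.pi (fun _ : Fin n => μ)).map (Sigma.mk n))

lemma measurable_Ωc {β : Type} [MeasurableSpace β] {F : Ωc → β}
    (h : ∀ n, Measurable (fun x : Fin n → E => F ⟨n, x⟩)) : Measurable F := by
  intro s hs
  rw [MeasurableSpace.measurableSet_iInf]
  intro n
  exact h n hs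

lemma measurable_mk (n : ℕ) : Measurable (fun x : Fin n → E => (⟨n, x⟩ : Ωc)) := by
  intro s hs
  exact (MeasurableSpace.measurableSet_iInf.mp hs) n

lemma It_pi (μ : Measure E) [SigmaFinite μ] (n : ℕ) :
    ∀ {G : List E → ℝ≥0∞}, LMeas G → It μ n G = ∫⁻ x, G (List.ofFn x) ∂(Measure.pi (fun _ : Fin n => μ)) := by
  induction n with
  | zero =>
    intro G hG
    simp [It, Measure.pi_of_empty]
  | succ n ih =>
    intro G hG
    have hmp := measurePreserving_piFinSuccAbove (fun _ : Fin (n + 1) => μ) 0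
    have h1 := (hmp.symm).lintegral_comp (hG (n + 1))
    rw [← h1]
    have hm2 : Measurable (fun p : E × (Fin n → E) =>
        G (List.ofFn ((MeasurableEquiv.piFinSuccAbove (fun _ : Fin (n + 1) => E) 0).symm p))) :=
      (hG (n + 1)).comp (MeasurableEquiv.measurable _)
    rw [lintegral_prod _ hm2.aemeasurable]
    simp only [It]
    refine lintegral_congr (fun y => ?_)
    rw [ih (hG.cons y)]
    refine lintegral_congr (fun x => ?_)
    congr 1
    simp [List.ofFn_succ, MeasurableEquiv.piFinSuccAbove, Fin.insertNthEquiv]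

lemma lintegral_QQ (μ : Measure E) [SigmaFinite μ] {G : List E → ℝ≥0∞} (hG : LMeas G) :
    ∫⁻ ω, G (toL ω) ∂(QQ μ) = Cfg μ G := by
  unfold QQ Cfg
  rw [lintegral_sum_measure]
  refine tsum_congr (fun n => ?_)
  rw [lintegral_smul_measure, smul_eq_mul, lintegral_map _ (measurable_mk n)]
  · rw [It_pi μ n hG]
    rfl
  · exact measurable_Ωc (fun m => hG m)


/-! ### Measurability of functions of configurations -/

/-- Measurability of a real function of a list. -/
def RMeas (F : List E → ℝ) : Prop := ∀ n, Measurable (fun x : Fin n → E => F (List.ofFn x))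

lemma RMeas.comp_toL {F : List E → ℝ} (hF : RMeas F) : Measurable (fun ω : Ωc => F (toL ω)) :=
  measurable_Ωc (fun n => hF n)

lemma RMeas_pairSum {v : E → E → ℝ} (hv : MK v) : RMeas (pairSum v) := by
  intro n
  simp only [pairSum_ofFn]
  refine Finset.measurable_sum _ (fun i _ => Finset.measurable_sum _ (fun j _ => ?_))
  exact Measurable.comp (g := fun p : E × E => v p.1 p.2) (f := fun x : Fin n → E => (x i, x j)) hv
    ((measurable_pi_apply i).prodMk (measurable_pi_apply j))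

lemma RMeas_length : RMeas (fun l => (l.length : ℝ)) := by
  intro n
  simp only [List.length_ofFn]
  exact measurable_const

lemma RMeas.add {F G : List E → ℝ} (hF : RMeas F) (hG : RMeas G) : RMeas (fun l => F l + G l) :=
  fun n => (hF n).add (hG n)

lemma RMeas.sub {F G : List E → ℝ} (hF : RMeas F) (hG : RMeas G) : RMeas (fun l => F l - G l) :=
  fun n => (hF n).sub (hG n)

lemma RMeas.const_mul {F : List E → ℝ} (hF : RMeas F) (r : ℝ) : RMeas (fun l => r * F l) :=
  fun n => (hF n).const_mul r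

lemma RMeas.exp {F : List E → ℝ} (hF : RMeas F) : RMeas (fun l => Real.exp (F l)) :=
  fun n => Real.measurable_exp.comp (hF n)

lemma RMeas_const (r : ℝ) : RMeas (fun _ => r) := fun n => measurable_const

lemma MK_sameK (ℓ o : ℝ) : MK (sameK (idxL ℓ o)) := by
  unfold MK sameK
  refine Measurable.ite ?_ measurable_const measurable_const
  have h1 : {p : E × E | idxL ℓ o p.1 = idxL ℓ o p.2} =
      ⋂ j, {p : E × E | ⌊(p.1 j - o) / ℓ⌋ = ⌊(p.2 j - o) / ℓ⌋} := by
    ext p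
    simp only [Set.mem_setOf_eq, Set.mem_iInter]
    constructor
    · intro h j; exact congrFun h j
    · intro h; funext j; exact h j
  rw [h1]
  refine MeasurableSet.iInter (fun j => ?_)
  refine measurableSet_eq_fun ?_ ?_
  · exact Int.measurable_floor.comp (by fun_prop)
  · exact Int.measurable_floor.comp (by fun_prop)

lemma D0_eq (l : List E) : D0 l = 2 * pairSum (sameK idx0) l + l.length := Dc_eq_pairSum idx0 l

lemma RMeas_D0 : RMeas D0 := by
  have h : D0 = fun l => 2 * pairSum (sameK idx0) l + (l.length : ℝ) := by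
    funext l; exact D0_eq l
  rw [h]
  exact ((RMeas_pairSum (MK_sameK w0 0)).const_mul 2).add RMeas_length

lemma RMeas_PP (b : L1) : RMeas (PP b) := RMeas_pairSum (MK_kC b)

lemma RMeas_En (c : L1) : RMeas (En c) := RMeas_pairSum (MK_kφ c)

/-- Integrals against the configuration measure as configuration integrals. -/
lemma int_of_cfg (μ : Measure E) [SigmaFinite μ] {F : List E → ℝ} (hF : RMeas F) (h0 : ∀ l, 0 ≤ F l)
    (hfin : Cfg μ (fun l => ENNReal.ofReal (F l)) ≠ ⊤) :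
    Integrable (fun ω => F (toL ω)) (QQ μ) ∧
      ∫ ω, F (toL ω) ∂(QQ μ) = (Cfg μ (fun l => ENNReal.ofReal (F l))).toReal := by
  have hG : LMeas (fun l => ENNReal.ofReal (F l)) := fun n => ENNReal.measurable_ofReal.comp (hF n)
  have hm := hF.comp_toL
  have h1 := lintegral_QQ μ hG
  constructor
  · refine (lintegral_ofReal_ne_top_iff_integrable hm.aestronglyMeasurable
      (Eventually.of_forall (fun ω => h0 _))).mp ?_
    rw [h1]
    exact hfin
  · rw [integral_eq_lintegral_of_nonneg_ae (Eventually.of_forall (fun ω => h0 _)) hm.aestronglyMeasurable]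
    rw [h1]

/-- The configuration measure in the cube. -/
noncomputable abbrev QL (L : ℝ) : Measure Ωc := QQ (μL L)

lemma ae_support (L : ℝ) : ∀ᵐ ω ∂(QL L), ∀ x ∈ toL ω, x ∈ box L := by
  have hmeas : MeasurableSet {ω : Ωc | ∀ x ∈ toL ω, x ∈ box L} := by
    rw [measurableSet_setOfPred]
    refine measurable_Ωc (fun n => ?_)
    rw [← measurableSet_setOfPred]
    have e : {x : Fin n → E | ∀ y ∈ toL ⟨n, x⟩, y ∈ box L} = ⋂ i, (fun x => x i) ⁻¹' (box L) := by
      ext x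
      simp only [toL, List.mem_ofFn, Set.mem_setOf_eq, Set.mem_iInter, Set.mem_preimage, Set.mem_range]
      constructor
      · intro h i; exact h _ ⟨i, rfl⟩
      · rintro h _ ⟨i, rfl⟩; exact h i
    rw [e]
    exact MeasurableSet.iInter (fun i => (measurable_pi_apply i) (measurableSet_box L))
  unfold QL QQ
  rw [Measure.ae_sum_iff]
  intro n
  refine Measure.ae_smul_measure ?_ _
  have e0 : Measure.map (Sigma.mk n) (Measure.pi fun _ : Fin n => μL L) =
      Measure.map (fun x : Fin n → E => (⟨n, x⟩ : Ωc)) (Measure.pi fun _ : Fin n => μL L) := rfl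
  rw [e0, ae_map_iff (measurable_mk n).aemeasurable hmeas]
  have h : ∀ i : Fin n, ∀ᵐ x ∂(Measure.pi fun _ : Fin n => μL L), x i ∈ box L := fun i =>
    Measure.tendsto_eval_ae_ae.eventually (ae_restrict_mem (measurableSet_box L))
  filter_upwards [ae_all_iff.mpr h] with x hx y hy
  simp only [toL, List.mem_ofFn, Set.mem_range] at hy
  obtain ⟨i, rfl⟩ := hy
  exact hx i

/-! ### The Gibbs weight -/

/-- The Boltzmann weight of a configuration. -/
noncomputable def ww (c : L1) (a : ℝ) (ω : Ωc) : ℝ :=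
  Real.exp (a * ((toL ω).length : ℝ) - En c (toL ω))

lemma ww_pos (c : L1) (a : ℝ) (ω : Ωc) : 0 < ww c a ω := Real.exp_pos _

lemma RMeas_wt (c : L1) (a : ℝ) : RMeas (fun l => Real.exp (a * (l.length : ℝ) - En c l)) :=
  ((RMeas_length.const_mul a).sub (RMeas_En c)).exp

lemma XI_eq_Cfg (c : L1) (a L : ℝ) :
    Cfg (μL L) (fun l => ENNReal.ofReal (Real.exp (a * (l.length : ℝ) - En c l))) = XI c a L := by
  unfold XI
  congr 1
  funext l
  rw [Wt_eq]

lemma ww_int {c : L1} (hc : c ∈ Dom 4) (a : ℝ) {L : ℝ} (hL : 0 ≤ L) :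
    Integrable (ww c a) (QL L) ∧ ∫ ω, ww c a ω ∂(QL L) = (XI c a L).toReal := by
  have h := int_of_cfg (μL L) (RMeas_wt c a) (fun l => (Real.exp_pos _).le)
    (by rw [XI_eq_Cfg]; exact XI_ne_top hc a hL)
  rw [XI_eq_Cfg] at h
  exact h

/-- The exponential of the number of points is integrable, with explicit integral. -/
lemma expN_int (b : ℝ) {L : ℝ} (hL : 0 ≤ L) :
    Integrable (fun ω : Ωc => Real.exp (b * ((toL ω).length : ℝ))) (QL L) ∧
      ∫ ω : Ωc, Real.exp (b * ((toL ω).length : ℝ)) ∂(QL L) = Real.exp (Real.exp b * L ^ 3) := by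
  have hm : RMeas (fun l => Real.exp (b * (l.length : ℝ))) := (RMeas_length.const_mul b).exp
  have e : (fun l : List E => ENNReal.ofReal (Real.exp (b * (l.length : ℝ)))) =
      fun l => (ENNReal.ofReal (Real.exp b)) ^ l.length := by
    funext l
    rw [← ENNReal.ofReal_pow (Real.exp_pos _).le, ← Real.exp_nat_mul, mul_comm]
  have hval : Cfg (μL L) (fun l => ENNReal.ofReal (Real.exp (b * (l.length : ℝ)))) =
      ENNReal.ofReal (Real.exp (Real.exp b * L ^ 3)) := by
    rw [e, Cfg_exp_card _ _ (measure_ne_top _ _), μL_univ hL, ENNReal.toReal_ofReal (by positivity)]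
  have h := int_of_cfg (μL L) hm (fun l => (Real.exp_pos _).le) (by rw [hval]; exact ENNReal.ofReal_ne_top)
  rw [hval, ENNReal.toReal_ofReal (Real.exp_pos _).le] at h
  exact h

lemma ww_le {c : L1} (hc : c ∈ Dom 4) (a : ℝ) (ω : Ωc) :
    ww c a ω ≤ Real.exp ((a + Arep / 2) * ((toL ω).length : ℝ)) * Real.exp (-(A2 / 2) * D0 (toL ω)) := by
  unfold ww
  rw [← Real.exp_add, Real.exp_le_exp]
  have := En_ge hc (toL ω)
  nlinarith

lemma ww_exp_D0_le {c : L1} (hc : c ∈ Dom 4) (a : ℝ) (ω : Ωc) :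
    ww c a ω * Real.exp ((A2 / 2) * D0 (toL ω)) ≤ Real.exp ((a + Arep / 2) * ((toL ω).length : ℝ)) := by
  have h := ww_le hc a ω
  have h2 : Real.exp (-(A2 / 2) * D0 (toL ω)) * Real.exp ((A2 / 2) * D0 (toL ω)) = 1 := by
    rw [← Real.exp_add]
    simp
  calc _ ≤ Real.exp ((a + Arep / 2) * ((toL ω).length : ℝ)) * Real.exp (-(A2 / 2) * D0 (toL ω)) *
        Real.exp ((A2 / 2) * D0 (toL ω)) := mul_le_mul_of_nonneg_right h (Real.exp_pos _).le
    _ = _ := by rw [mul_assoc, h2, mul_one]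

lemma ww_le_expN {c : L1} (hc : c ∈ Dom 4) (a : ℝ) (ω : Ωc) :
    ww c a ω ≤ Real.exp ((a + Arep / 2) * ((toL ω).length : ℝ)) := by
  have h := ww_exp_D0_le hc a ω
  have h1 : 1 ≤ Real.exp ((A2 / 2) * D0 (toL ω)) :=
    Real.one_le_exp (mul_nonneg (by have := A2_pos; positivity) (D0_nonneg _))
  have h2 := ww_pos c a ω
  nlinarith

lemma ww_mul_N_le {c : L1} (hc : c ∈ Dom 4) (a : ℝ) (ω : Ωc) :
    ((toL ω).length : ℝ) * ww c a ω ≤ Real.exp ((a + 1 + Arep / 2) * ((toL ω).length : ℝ)) := by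
  have h1 := ww_le_expN hc a ω
  have hN : (0:ℝ) ≤ ((toL ω).length : ℝ) := Nat.cast_nonneg _
  have h2 : ((toL ω).length : ℝ) ≤ Real.exp ((toL ω).length : ℝ) := by
    have := Real.add_one_le_exp ((toL ω).length : ℝ)
    linarith
  have h3 := ww_pos c a ω
  have e : Real.exp ((a + 1 + Arep / 2) * ((toL ω).length : ℝ)) =
      Real.exp ((toL ω).length : ℝ) * Real.exp ((a + Arep / 2) * ((toL ω).length : ℝ)) := by
    rw [← Real.exp_add]
    congr 1
    ring
  rw [e]
  exact mul_le_mul h2 h1 h3.le (Real.exp_pos _).le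

lemma ww_mul_D0_le {c : L1} (hc : c ∈ Dom 4) (a : ℝ) (ω : Ωc) :
    D0 (toL ω) * ww c a ω ≤ 2 / A2 * Real.exp ((a + Arep / 2) * ((toL ω).length : ℝ)) := by
  have h1 := ww_exp_D0_le hc a ω
  have hA := A2_pos
  have hD := D0_nonneg (toL ω)
  obtain ⟨t, ht⟩ : ∃ t, t = (A2 / 2) * D0 (toL ω) := ⟨_, rfl⟩
  rw [← ht] at h1
  have h2 : t ≤ Real.exp t := by
    have := Real.add_one_le_exp t
    linarith
  have h3 := ww_pos c a ω
  have h4 : t * ww c a ω ≤ Real.exp ((a + Arep / 2) * ((toL ω).length : ℝ)) :=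
    le_trans (by nlinarith) h1
  have e : D0 (toL ω) = 2 / A2 * t := by
    rw [ht]
    field_simp
  rw [e]
  calc 2 / A2 * t * ww c a ω = 2 / A2 * (t * ww c a ω) := by ring
    _ ≤ _ := mul_le_mul_of_nonneg_left h4 (by positivity)

/-- The class of functions with controlled growth. -/
structure Ctrl (F : List E → ℝ) : Prop where
  meas : RMeas F
  bound : ∃ C₀ C₁ C₂ : ℝ, 0 ≤ C₀ ∧ 0 ≤ C₁ ∧ 0 ≤ C₂ ∧ ∀ l, |F l| ≤ C₀ + C₁ * l.length + C₂ * D0 l

lemma ctrl_integrable {c : L1} (hc : c ∈ Dom 4) {F : List E → ℝ} (hF : Ctrl F) (a : ℝ) {L : ℝ} (hL : 0 ≤ L) :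
    Integrable (fun ω => F (toL ω) * ww c a ω) (QL L) := by
  obtain ⟨C₀, C₁, C₂, h0, h1, h2, hb⟩ := hF.bound
  have hmw : Measurable (fun ω : Ωc => ww c a ω) := (RMeas_wt c a).comp_toL
  have hi1 := (expN_int (a + Arep / 2) hL).1
  have hi2 := (expN_int (a + 1 + Arep / 2) hL).1
  have hg := ((hi1.const_mul C₀).add (hi2.const_mul C₁)).add (hi1.const_mul (C₂ * (2 / A2)))
  refine hg.mono' (hF.meas.comp_toL.mul hmw).aestronglyMeasurable (Eventually.of_forall (fun ω => ?_))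
  rw [Real.norm_eq_abs, abs_mul, abs_of_pos (ww_pos c a ω)]
  have h3 := hb (toL ω)
  have h4 := ww_le_expN hc a ω
  have h5 := ww_mul_N_le hc a ω
  have h6 := ww_mul_D0_le hc a ω
  have h7 := ww_pos c a ω
  simp only [Pi.add_apply]
  have h8 : |F (toL ω)| * ww c a ω ≤ (C₀ + C₁ * ((toL ω).length : ℝ) + C₂ * D0 (toL ω)) * ww c a ω :=
    mul_le_mul_of_nonneg_right h3 h7.le
  have h9 : C₀ * ww c a ω ≤ C₀ * Real.exp ((a + Arep / 2) * ((toL ω).length : ℝ)) :=
    mul_le_mul_of_nonneg_left h4 h0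
  have h10 : C₁ * (((toL ω).length : ℝ) * ww c a ω) ≤ C₁ * Real.exp ((a + 1 + Arep / 2) * ((toL ω).length : ℝ)) :=
    mul_le_mul_of_nonneg_left h5 h1
  have h11 : C₂ * (D0 (toL ω) * ww c a ω) ≤ C₂ * (2 / A2 * Real.exp ((a + Arep / 2) * ((toL ω).length : ℝ))) :=
    mul_le_mul_of_nonneg_left h6 h2
  nlinarith


/-! ### The Jensen inequality -/

lemma gibbs_jensen {Ω : Type} [MeasurableSpace Ω] {Q : Measure Ω} {w Y : Ω → ℝ}
    (hw : ∀ ω, 0 < w ω) (hwi : Integrable w Q) (hZ : 0 < ∫ ω, w ω ∂Q)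
    (hYw : Integrable (fun ω => Y ω * w ω) Q) (hexp : Integrable (fun ω => w ω * Real.exp (Y ω)) Q) :
    (∫ ω, Y ω * w ω ∂Q) / (∫ ω, w ω ∂Q) ≤ Real.log ((∫ ω, w ω * Real.exp (Y ω) ∂Q) / ∫ ω, w ω ∂Q) := by
  obtain ⟨Z, hZdef⟩ : ∃ Z, Z = ∫ ω, w ω ∂Q := ⟨_, rfl⟩
  obtain ⟨A, hAdef⟩ : ∃ A, A = ∫ ω, Y ω * w ω ∂Q := ⟨_, rfl⟩
  obtain ⟨I, hIdef⟩ : ∃ I, I = ∫ ω, w ω * Real.exp (Y ω) ∂Q := ⟨_, rfl⟩
  rw [← hZdef, ← hAdef, ← hIdef]
  rw [← hZdef] at hZ
  obtain ⟨m, hm⟩ : ∃ m, m = A / Z := ⟨_, rfl⟩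
  have hmZ : m * Z = A := by rw [hm]; field_simp
  have hpt : ∀ ω, Real.exp m * (w ω + Y ω * w ω - m * w ω) ≤ w ω * Real.exp (Y ω) := by
    intro ω
    have h1 : Y ω - m + 1 ≤ Real.exp (Y ω - m) := Real.add_one_le_exp _
    have h2 : Real.exp (Y ω) = Real.exp m * Real.exp (Y ω - m) := by
      rw [← Real.exp_add]; congr 1; ring
    rw [h2]
    have h3 := hw ω
    have h4 := Real.exp_pos m
    calc Real.exp m * (w ω + Y ω * w ω - m * w ω) = w ω * Real.exp m * (Y ω - m + 1) := by ring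
      _ ≤ w ω * Real.exp m * Real.exp (Y ω - m) :=
        mul_le_mul_of_nonneg_left h1 (by positivity)
      _ = _ := by ring
  have hint1 : Integrable (fun ω => Real.exp m * (w ω + Y ω * w ω - m * w ω)) Q :=
    ((hwi.add hYw).sub (hwi.const_mul m)).const_mul _
  have hI := integral_mono hint1 hexp hpt
  rw [← hIdef, integral_const_mul] at hI
  have e : ∫ ω, (w ω + Y ω * w ω - m * w ω) ∂Q = Z + A - m * Z := by
    have hi2 : Integrable (fun ω => w ω + Y ω * w ω) Q := hwi.add hYw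
    rw [integral_sub hi2 (hwi.const_mul m), integral_add hwi hYw, integral_const_mul, ← hZdef, ← hAdef]
  rw [e, hmZ] at hI
  have hI2 : Real.exp m * Z ≤ I := by
    have : Z + A - A = Z := by ring
    rwa [this] at hI
  have hIpos : 0 < I := lt_of_lt_of_le (by positivity) hI2
  rw [← hm, Real.le_log_iff_exp_le (by positivity), le_div_iff₀ hZ]
  exact hI2

/-! ### Gibbs averages -/

/-- The Gibbs average of a function of a configuration. -/
noncomputable def av (c : L1) (a L : ℝ) (F : List E → ℝ) : ℝ :=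
  (∫ ω, F (toL ω) * ww c a ω ∂(QL L)) / (XI c a L).toReal

lemma Ctrl_one : Ctrl (fun _ => 1) :=
  ⟨RMeas_const 1, 1, 0, 0, by norm_num, le_refl _, le_refl _, fun l => by simp⟩

lemma Ctrl_N : Ctrl (fun l => (l.length : ℝ)) :=
  ⟨RMeas_length, 0, 1, 0, le_refl _, by norm_num, le_refl _, fun l => by
    rw [abs_of_nonneg (Nat.cast_nonneg _)]
    simp⟩

lemma Ctrl_D0 : Ctrl D0 :=
  ⟨RMeas_D0, 0, 0, 1, le_refl _, le_refl _, by norm_num, fun l => by
    rw [abs_of_nonneg (D0_nonneg _)]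
    simp⟩

lemma KK_pos : 0 < KK := by unfold KK; norm_num

lemma Ctrl_PP (b : L1) : Ctrl (PP b) :=
  ⟨RMeas_PP b, 0, 0, ‖b‖ * (KK / 2), le_refl _, le_refl _, by
    have := KK_pos
    positivity, fun l => by
    have := PP_abs_le b l
    simp only [zero_add, zero_mul]
    calc _ ≤ _ := this
      _ = _ := by ring⟩

lemma Ctrl.const_mul' {F : List E → ℝ} (hF : Ctrl F) (r : ℝ) :
    Ctrl (fun l => r * F l) := by
  obtain ⟨C₀, C₁, C₂, h0, h1, h2, hb⟩ := hF.bound
  refine ⟨hF.meas.const_mul r, |r| * C₀, |r| * C₁, |r| * C₂, by positivity, by positivity, by positivity, fun l => ?_⟩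
  rw [abs_mul]
  have := mul_le_mul_of_nonneg_left (hb l) (abs_nonneg r)
  nlinarith

lemma Ctrl.add' {F G : List E → ℝ} (hF : Ctrl F) (hG : Ctrl G) : Ctrl (fun l => F l + G l) := by
  obtain ⟨C₀, C₁, C₂, h0, h1, h2, hb⟩ := hF.bound
  obtain ⟨D₀, D₁, D₂, h0', h1', h2', hb'⟩ := hG.bound
  refine ⟨hF.meas.add hG.meas, C₀ + D₀, C₁ + D₁, C₂ + D₂, by positivity, by positivity, by positivity, fun l => ?_⟩
  have h3 := hb l
  have h4 := hb' l
  have h5 := abs_add_le (F l) (G l)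
  nlinarith

lemma KK_le_A2 : KK ≤ A2 := by
  have := A2_val
  unfold KK
  norm_num at this ⊢
  linarith

section av

variable {c : L1} (hc : c ∈ Dom 4) (a : ℝ) {L : ℝ} (hL : 0 ≤ L)

include hc hL

lemma av_add {F G : List E → ℝ} (hF : Ctrl F) (hG : Ctrl G) :
    av c a L (fun l => F l + G l) = av c a L F + av c a L G := by
  unfold av
  simp_rw [add_mul]
  rw [integral_add (ctrl_integrable hc hF a hL) (ctrl_integrable hc hG a hL), add_div]

omit hc hL in
lemma av_const_mul (r : ℝ) (F : List E → ℝ) : av c a L (fun l => r * F l) = r * av c a L F := by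
  unfold av
  simp_rw [mul_assoc]
  rw [integral_const_mul, mul_div_assoc]

lemma av_mono {F G : List E → ℝ} (hF : Ctrl F) (hG : Ctrl G)
    (h : ∀ l, (∀ x ∈ l, x ∈ box L) → F l ≤ G l) : av c a L F ≤ av c a L G := by
  unfold av
  apply div_le_div_of_nonneg_right _ (by linarith [one_le_XI_toReal hc a hL])
  refine integral_mono_ae (ctrl_integrable hc hF a hL) (ctrl_integrable hc hG a hL) ?_
  filter_upwards [ae_support L] with ω hω
  exact mul_le_mul_of_nonneg_right (h _ hω) (ww_pos c a ω).le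

lemma av_one : av c a L (fun _ => 1) = 1 := by
  unfold av
  simp only [one_mul]
  rw [(ww_int hc a hL).2]
  have := one_le_XI_toReal hc a hL
  field_simp

/-- Jensen's inequality in the form used below. -/
lemma av_le_log {Y : List E → ℝ} (hY : Ctrl Y)
    (hexp : Integrable (fun ω => ww c a ω * Real.exp (Y (toL ω))) (QL L)) :
    av c a L Y ≤ Real.log ((∫ ω, ww c a ω * Real.exp (Y (toL ω)) ∂(QL L)) / (XI c a L).toReal) := by
  have h1 := ww_int hc a hL
  have hZ := one_le_XI_toReal hc a hL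
  have h2 := gibbs_jensen (Q := QL L) (w := ww c a) (Y := fun ω => Y (toL ω)) (ww_pos c a) h1.1
    (by rw [h1.2]; linarith) (ctrl_integrable hc hY a hL) hexp
  rw [h1.2] at h2
  exact h2

/-- The tangent inequality in finite volume. -/
lemma av_tangent {c' : L1} (hc' : c' ∈ Dom 4) (a' : ℝ) :
    (a' - a) * av c a L (fun l => (l.length : ℝ)) + av c a L (PP (c' - c)) ≤
      gg c' a' L - gg c a L := by
  have hCN := Ctrl_N
  have hCP := Ctrl_PP (c' - c)
  have hCNm := Ctrl.const_mul' hCN (a' - a)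
  have hY := Ctrl.add' hCNm hCP
  have e1 : av c a L (fun l => (a' - a) * (l.length : ℝ) + PP (c' - c) l) =
      (a' - a) * av c a L (fun l => (l.length : ℝ)) + av c a L (PP (c' - c)) := by
    rw [av_add hc a hL hCNm hCP, av_const_mul]
  rw [← e1]
  have e2 : ∀ ω, ww c a ω * Real.exp ((a' - a) * ((toL ω).length : ℝ) + PP (c' - c) (toL ω)) = ww c' a' ω := by
    intro ω
    unfold ww
    rw [← Real.exp_add, En_eq, En_eq, PP_sub]
    congr 1
    ring
  have hi := (ww_int hc' a' hL)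
  have h1 := av_le_log hc a hL hY (by simp_rw [e2]; exact hi.1)
  simp_rw [e2] at h1
  rw [hi.2] at h1
  have hZ := one_le_XI_toReal hc a hL
  have hZ' := one_le_XI_toReal hc' a' hL
  rwa [Real.log_div (by linarith) (by linarith)] at h1

lemma av_N_nonneg : 0 ≤ av c a L (fun l => (l.length : ℝ)) := by
  unfold av
  apply div_nonneg _ (by linarith [one_le_XI_toReal hc a hL])
  exact integral_nonneg (fun ω => mul_nonneg (Nat.cast_nonneg _) (ww_pos c a ω).le)

lemma av_D0_nonneg : 0 ≤ av c a L D0 := by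
  unfold av
  apply div_nonneg _ (by linarith [one_le_XI_toReal hc a hL])
  exact integral_nonneg (fun ω => mul_nonneg (D0_nonneg _) (ww_pos c a ω).le)

/-- The bound on the density. -/
lemma av_N_le : av c a L (fun l => (l.length : ℝ)) ≤ Real.exp (a + 1 + Arep / 2) * L ^ 3 := by
  have e2 : ∀ ω, ww c a ω * Real.exp (((toL ω).length : ℝ)) = ww c (a + 1) ω := by
    intro ω
    unfold ww
    rw [← Real.exp_add]
    congr 1
    ring
  have hi := ww_int hc (a + 1) hL
  have hCN := Ctrl_N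
  have h1 := av_le_log hc a hL hCN (by simp_rw [e2]; exact hi.1)
  simp_rw [e2] at h1
  rw [hi.2] at h1
  refine h1.trans ?_
  have hZ := one_le_XI_toReal hc a hL
  have hZ' := one_le_XI_toReal hc (a + 1) hL
  have h2 : (XI c (a + 1) L).toReal / (XI c a L).toReal ≤ (XI c (a + 1) L).toReal :=
    div_le_self (by linarith) hZ
  have h3 : (XI c (a + 1) L).toReal ≤ Real.exp (Real.exp (a + 1 + Arep / 2) * L ^ 3) := by
    rw [← hi.2, ← (expN_int (a + 1 + Arep / 2) hL).2]
    exact integral_mono hi.1 (expN_int (a + 1 + Arep / 2) hL).1 (fun ω => ww_le_expN hc (a + 1) ω)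
  have h4 : Real.log ((XI c (a + 1) L).toReal / (XI c a L).toReal) ≤
      Real.log (Real.exp (Real.exp (a + 1 + Arep / 2) * L ^ 3)) :=
    Real.log_le_log (by positivity) (h2.trans h3)
  rwa [Real.log_exp] at h4

/-- The bound on the number of close pairs. -/
lemma av_D0_le : A2 / 2 * av c a L D0 ≤ Real.exp (a + Arep / 2) * L ^ 3 := by
  have hA := A2_pos
  have hCD := Ctrl_D0
  have hY := Ctrl.const_mul' hCD (A2 / 2)
  rw [← av_const_mul]
  have hm : Measurable (fun ω : Ωc => ww c a ω * Real.exp ((A2 / 2) * D0 (toL ω))) :=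
    (RMeas_wt c a).comp_toL.mul ((RMeas_D0.const_mul (A2 / 2)).exp.comp_toL)
  have hexpi := (expN_int (a + Arep / 2) hL)
  have hi : Integrable (fun ω : Ωc => ww c a ω * Real.exp ((A2 / 2) * D0 (toL ω))) (QL L) := by
    refine hexpi.1.mono' hm.aestronglyMeasurable (Eventually.of_forall (fun ω => ?_))
    rw [Real.norm_of_nonneg (mul_pos (ww_pos c a ω) (Real.exp_pos _)).le]
    exact ww_exp_D0_le hc a ω
  have h1 := av_le_log hc a hL hY hi
  refine h1.trans ?_
  have hZ := one_le_XI_toReal hc a hL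
  have hle1 : ∫ ω, ww c a ω * Real.exp ((A2 / 2) * D0 (toL ω)) ∂(QL L) ≤
      Real.exp (Real.exp (a + Arep / 2) * L ^ 3) := by
    rw [← hexpi.2]
    exact integral_mono hi hexpi.1 (fun ω => ww_exp_D0_le hc a ω)
  have hge1 : (XI c a L).toReal ≤ ∫ ω, ww c a ω * Real.exp ((A2 / 2) * D0 (toL ω)) ∂(QL L) := by
    rw [← (ww_int hc a hL).2]
    refine integral_mono (ww_int hc a hL).1 hi (fun ω => ?_)
    have h3 : 1 ≤ Real.exp ((A2 / 2) * D0 (toL ω)) :=
      Real.one_le_exp (mul_nonneg (by positivity) (D0_nonneg _))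
    have h4 := ww_pos c a ω
    nlinarith
  have h5 : 0 < (∫ ω, ww c a ω * Real.exp ((A2 / 2) * D0 (toL ω)) ∂(QL L)) / (XI c a L).toReal :=
    div_pos (by linarith) (by linarith)
  have h6 : (∫ ω, ww c a ω * Real.exp ((A2 / 2) * D0 (toL ω)) ∂(QL L)) / (XI c a L).toReal ≤
      Real.exp (Real.exp (a + Arep / 2) * L ^ 3) :=
    (div_le_self (by linarith) hZ).trans hle1
  have h7 := Real.log_le_log h5 h6
  rwa [Real.log_exp] at h7

/-- The bound on the attractive energy. -/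
lemma av_PP_abs (b : L1) : |av c a L (PP b)| ≤ ‖b‖ * (Real.exp (a + 1 + Arep / 2) * L ^ 3) := by
  have hCD := Ctrl_D0
  have hK := KK_pos
  have hA := A2_pos
  have hCc := Ctrl.const_mul' hCD (‖b‖ * (KK / 2))
  have hCP := Ctrl_PP b
  have hCm := Ctrl.const_mul' hCP (-1)
  have h1 : av c a L (PP b) ≤ av c a L (fun l => ‖b‖ * (KK / 2) * D0 l) :=
    av_mono hc a hL hCP hCc (fun l _ => by
      have := (abs_le.mp (PP_abs_le b l)).2
      calc _ ≤ _ := this
        _ = _ := by ring)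
  have h2 : av c a L (fun l => -1 * PP b l) ≤ av c a L (fun l => ‖b‖ * (KK / 2) * D0 l) :=
    av_mono hc a hL hCm hCc (fun l _ => by
      have := (abs_le.mp (PP_abs_le b l)).1
      have e : ‖b‖ * (KK / 2) * D0 l = ‖b‖ * (KK / 2 * D0 l) := by ring
      rw [e]
      linarith)
  rw [av_const_mul] at h1
  rw [av_const_mul, av_const_mul] at h2
  have h3 := av_D0_le hc a hL
  have h4 := av_D0_nonneg hc a hL
  have h5 : Real.exp (a + Arep / 2) * L ^ 3 ≤ Real.exp (a + 1 + Arep / 2) * L ^ 3 := by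
    apply mul_le_mul_of_nonneg_right _ (by positivity)
    rw [Real.exp_le_exp]
    linarith
  have h6 : KK / 2 * av c a L D0 ≤ Real.exp (a + 1 + Arep / 2) * L ^ 3 := by
    have h7 := KK_le_A2
    have : KK / 2 * av c a L D0 ≤ A2 / 2 * av c a L D0 :=
      mul_le_mul_of_nonneg_right (by linarith) h4
    linarith
  have h8 : ‖b‖ * (KK / 2) * av c a L D0 ≤ ‖b‖ * (Real.exp (a + 1 + Arep / 2) * L ^ 3) := by
    rw [mul_assoc]
    exact mul_le_mul_of_nonneg_left h6 (norm_nonneg _)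
  rw [abs_le]
  constructor <;> linarith

end av


/-! ### The coupling to a Gaussian coordinate vector -/

lemma kC_eL (m : ℕ) (x y : E) : kC (eL m) x y = kG m x y := by
  unfold kC
  rw [tsum_eq_single m]
  · simp [eL, lp.single_apply]
  · intro k hk
    simp [eL, lp.single_apply, Pi.single_apply, hk]

lemma PP_eL (m : ℕ) (l : List E) : PP (eL m) l = pairSum (kG m) l := by
  unfold PP
  have : kC (eL m) = kG m := by
    funext x y
    exact kC_eL m x y
  rw [this]

lemma dist3_self (x : E) : dist3 x x = 0 := by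
  unfold dist3
  simp

/-- The self-energy coefficient. -/
noncomputable def τ₀ (m : ℕ) : ℝ := γ ((m:ℝ) + 1) 0 / 2

lemma τ₀_pos (m : ℕ) : 0 < τ₀ m := by
  unfold τ₀
  have := γ_pos (sk_pos m) 0
  positivity

lemma τ₀_tendsto : Tendsto τ₀ atTop (𝓝 0) := by
  have h1 : Tendsto (fun m : ℕ => (m:ℝ) + 1) atTop atTop :=
    tendsto_atTop_add_const_right _ _ tendsto_natCast_atTop_atTop
  have h2 : Tendsto (fun m : ℕ => 2 * π * ((m:ℝ) + 1)) atTop atTop :=
    h1.const_mul_atTop (by positivity)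
  have h3 : Tendsto (fun m : ℕ => √(2 * π * ((m:ℝ) + 1))) atTop atTop :=
    Real.tendsto_sqrt_atTop.comp h2
  have h4 : Tendsto (fun m : ℕ => (√(2 * π * ((m:ℝ) + 1)))⁻¹) atTop (𝓝 0) :=
    tendsto_inv_atTop_zero.comp h3
  have h5 : Tendsto (fun m : ℕ => (√(2 * π * ((m:ℝ) + 1)))⁻¹ ^ 3 / 2) atTop (𝓝 (0 ^ 3 / 2)) :=
    (h4.pow 3).div_const 2
  have e : (0:ℝ) ^ 3 / 2 = 0 := by norm_num
  rw [e] at h5
  refine h5.congr (fun m => ?_)
  unfold τ₀ γ
  simp

/-- The pointwise lower bound by positive definiteness. -/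
lemma pd_pointwise (m : ℕ) {W L : ℝ} (hW : 0 < W) (hL : 0 ≤ L) (t : ℝ) {l : List E}
    (hl : ∀ x ∈ l, x ∈ box L) :
    Tm3 ((m:ℝ) + 1) W ^ 6 / (2 * (L + 2 * W) ^ 3) * (2 * t * (l.length : ℝ) - t ^ 2) -
      τ₀ m * (l.length : ℝ) ≤ PP (eL m) l := by
  rw [PP_eL]
  have h1 := crossSum_γ_ge (s := (m:ℝ) + 1) (sk_pos m) hW hL (l := l) hl
  have h2 := crossSum_self (kG_sym m) l
  have h3 : (l.map (fun x => kG m x x)).sum = γ ((m:ℝ) + 1) 0 * l.length := by
    have e : (fun x => kG m x x) = fun _ => γ ((m:ℝ) + 1) 0 := by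
      funext x
      unfold kG
      rw [dist3_self]
    rw [e]
    simp [mul_comm]
  have h4 : crossSum (fun x y => γ ((m:ℝ) + 1) (dist3 x y)) l l = crossSum (kG m) l l := rfl
  rw [h4, h2, h3] at h1
  have hV : 0 < (L + 2 * W) ^ 3 := by positivity
  obtain ⟨κ, hκ⟩ : ∃ κ, κ = Tm3 ((m:ℝ) + 1) W ^ 6 / (2 * (L + 2 * W) ^ 3) := ⟨_, rfl⟩
  rw [← hκ]
  have hκ0 : 0 ≤ κ := by rw [hκ]; positivity
  have h5 : (l.length : ℝ) ^ 2 * Tm3 ((m:ℝ) + 1) W ^ 6 / (L + 2 * W) ^ 3 = 2 * κ * (l.length : ℝ) ^ 2 := by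
    rw [hκ]
    field_simp
  rw [h5] at h1
  have h6 : κ * (2 * t * (l.length : ℝ) - t ^ 2) ≤ κ * (l.length : ℝ) ^ 2 :=
    mul_le_mul_of_nonneg_left (by nlinarith [sq_nonneg ((l.length : ℝ) - t)]) hκ0
  unfold τ₀
  nlinarith

/-- The Gibbs version of the positive definiteness bound. -/
lemma av_pd {c : L1} (hc : c ∈ Dom 4) (a : ℝ) {L W : ℝ} (hL : 0 ≤ L) (hW : 0 < W) (m : ℕ) :
    Tm3 ((m:ℝ) + 1) W ^ 6 / (2 * (L + 2 * W) ^ 3) * av c a L (fun l => (l.length : ℝ)) ^ 2 -
      τ₀ m * av c a L (fun l => (l.length : ℝ)) ≤ av c a L (PP (eL m)) := by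
  obtain ⟨t, ht⟩ : ∃ t, t = av c a L (fun l => (l.length : ℝ)) := ⟨_, rfl⟩
  rw [← ht]
  obtain ⟨κ, hκ⟩ : ∃ κ, κ = Tm3 ((m:ℝ) + 1) W ^ 6 / (2 * (L + 2 * W) ^ 3) := ⟨_, rfl⟩
  rw [← hκ]
  have hF1 : Ctrl (fun l => (κ * (2 * t)) * (l.length : ℝ)) := Ctrl.const_mul' Ctrl_N _
  have hF2 : Ctrl (fun l => (- (κ * t ^ 2)) * (1:ℝ)) := Ctrl.const_mul' Ctrl_one _
  have hF3 : Ctrl (fun l => (- τ₀ m) * (l.length : ℝ)) := Ctrl.const_mul' Ctrl_N _
  have hF12 := Ctrl.add' hF1 hF2
  have hF := Ctrl.add' hF12 hF3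
  have h1 := av_mono hc a hL hF (Ctrl_PP (eL m)) (fun l hl => by
    have := pd_pointwise m hW hL t hl
    rw [← hκ] at this
    calc _ = κ * (2 * t * (l.length : ℝ) - t ^ 2) - τ₀ m * (l.length : ℝ) := by ring
      _ ≤ _ := this)
  rw [av_add hc a hL hF12 hF3, av_add hc a hL hF1 hF2, av_const_mul, av_const_mul, av_const_mul,
    av_one hc a hL, ← ht] at h1
  calc _ = κ * (2 * t) * t + -(κ * t ^ 2) * 1 + -τ₀ m * t := by ring
    _ ≤ _ := h1

/-- The bound on all the tangent functionals. -/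
noncomputable def Λ₀ (a : ℝ) : ℝ := Real.exp (a + 1 + Arep / 2)

lemma Λ₀_mono : Monotone Λ₀ := fun a a' h => by
  unfold Λ₀
  rw [Real.exp_le_exp]
  linarith

/-- Tangent functionals in finite volume. -/
theorem fv_tangent {c : L1} (hc : c ∈ Dom 4) (a : ℝ) {L : ℝ} (hL : 0 < L) :
    ∃ (ρ : ℝ) (lam : L1 →ₗ[ℝ] ℝ), (∀ b, |lam b| ≤ Λ₀ a * ‖b‖) ∧ 0 ≤ ρ ∧ ρ ≤ Λ₀ a ∧
      (∀ c' ∈ Dom 4, ∀ a', lam (c' - c) + ρ * (a' - a) ≤ (gg c' a' L - gg c a L) / L ^ 3) ∧
      (∀ (m : ℕ) (W : ℝ), 0 < W →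
        Tm3 ((m:ℝ) + 1) W ^ 6 / 2 * (L ^ 3 / (L + 2 * W) ^ 3) * ρ ^ 2 - τ₀ m * ρ ≤ lam (eL m)) := by
  have hL0 := hL.le
  have hL3 : 0 < L ^ 3 := by positivity
  let lam : L1 →ₗ[ℝ] ℝ :=
    { toFun := fun b => av c a L (PP b) / L ^ 3
      map_add' := by
        intro b b'
        have e : PP (b + b') = fun l => PP b l + PP b' l := by
          funext l; exact PP_add b b' l
        rw [e, av_add hc a hL0 (Ctrl_PP b) (Ctrl_PP b'), add_div]
      map_smul' := by
        intro r b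
        have e : PP (r • b) = fun l => r * PP b l := by
          funext l; exact PP_smul r b l
        simp only [RingHom.id_apply, smul_eq_mul]
        rw [e, av_const_mul, mul_div_assoc] }
  have hlam : ∀ b, lam b = av c a L (PP b) / L ^ 3 := fun b => rfl
  obtain ⟨t, ht⟩ : ∃ t, t = av c a L (fun l => (l.length : ℝ)) := ⟨_, rfl⟩
  have hρeq : t = (t / L ^ 3) * L ^ 3 := by field_simp
  refine ⟨t / L ^ 3, lam, ?_, ?_, ?_, ?_, ?_⟩
  · intro b
    rw [hlam, abs_div, abs_of_pos hL3, div_le_iff₀ hL3]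
    have := av_PP_abs hc a hL0 b
    unfold Λ₀
    calc _ ≤ _ := this
      _ = _ := by ring
  · rw [ht]
    exact div_nonneg (av_N_nonneg hc a hL0) hL3.le
  · rw [ht, div_le_iff₀ hL3]
    exact av_N_le hc a hL0
  · intro c' hc' a'
    have h1 := av_tangent hc a hL0 hc' a'
    rw [← ht] at h1
    rw [hlam, le_div_iff₀ hL3]
    calc _ = (a' - a) * t + av c a L (PP (c' - c)) := by
          field_simp
          ring
      _ ≤ _ := h1
  · intro m W hW
    have h1 := av_pd hc a hL0 hW m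
    rw [← ht] at h1
    rw [hlam, le_div_iff₀ hL3]
    refine le_trans (le_of_eq ?_) h1
    field_simp

end Vale.Agent.Lib.P171
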