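import Mathlib

/-!
# Sums over pairs of a list of points
-/

set_option linter.unusedSectionVars false
set_option linter.unusedVariables false
set_option linter.unusedSimpArgs false

namespace Vale.Agent.Lib.P171

open Finset

variable {α : Type}

/-- Sum of a kernel over the unordered pairs of a list. -/
def pairSum (k : α → α → ℝ) : List α → ℝ
  | [] => 0
  | x :: l => (l.map (k x)).sum + pairSum k l

/-- Sum of a kernel over the pairs formed by two lists. -/
def crossSum (k : α → α → ℝ) (X Y : List α) : ℝ := (X.map (fun x => (Y.map (k x)).sum)).sum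

@[simp] lemma pairSum_nil (k : α → α → ℝ) : pairSum k [] = 0 := rfl

@[simp] lemma pairSum_cons (k : α → α → ℝ) (x : α) (l : List α) :
    pairSum k (x :: l) = (l.map (k x)).sum + pairSum k l := rfl

@[simp] lemma crossSum_nil_left (k : α → α → ℝ) (Y : List α) : crossSum k [] Y = 0 := rfl

@[simp] lemma crossSum_cons_left (k : α → α → ℝ) (x : α) (X Y : List α) :
    crossSum k (x :: X) Y = (Y.map (k x)).sum + crossSum k X Y := by
  simp [crossSum]

@[simp] lemma crossSum_nil_right (k : α → α → ℝ) (X : List α) : crossSum k X [] = 0 := by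
  induction X with
  | nil => rfl
  | cons x X ih => simp [ih]

lemma map_sum_append (f : α → ℝ) (X Y : List α) :
    ((X ++ Y).map f).sum = (X.map f).sum + (Y.map f).sum := by
  simp [List.sum_append]

lemma crossSum_append_right (k : α → α → ℝ) (X Y Z : List α) :
    crossSum k X (Y ++ Z) = crossSum k X Y + crossSum k X Z := by
  induction X with
  | nil => simp
  | cons x X ih =>
    simp only [crossSum_cons_left, ih, map_sum_append]
    ring

lemma crossSum_cons_right (k : α → α → ℝ) (x : α) (X Y : List α) :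
    crossSum k X (x :: Y) = (X.map (fun z => k z x)).sum + crossSum k X Y := by
  induction X with
  | nil => simp
  | cons z X ih =>
    simp only [crossSum_cons_left, ih, List.map_cons, List.sum_cons]
    ring

lemma crossSum_append_left (k : α → α → ℝ) (X Y Z : List α) :
    crossSum k (X ++ Y) Z = crossSum k X Z + crossSum k Y Z := by
  induction X with
  | nil => simp
  | cons x X ih =>
    simp only [List.cons_append, crossSum_cons_left, ih]
    ring

/-- Splitting the pair sum of a concatenation. -/
lemma pairSum_append (k : α → α → ℝ) (X Y : List α) :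
    pairSum k (X ++ Y) = pairSum k X + pairSum k Y + crossSum k X Y := by
  induction X with
  | nil => simp
  | cons x X ih =>
    simp only [List.cons_append, pairSum_cons, crossSum_cons_left, ih, map_sum_append]
    ring

/-- A symmetric kernel. -/
def SymK (k : α → α → ℝ) : Prop := ∀ x y, k x y = k y x

lemma pairSum_perm {k : α → α → ℝ} (hk : SymK k) {l l' : List α} (h : l.Perm l') :
    pairSum k l = pairSum k l' := by
  induction h with
  | nil => rfl
  | cons x h ih =>
    simp only [pairSum_cons, ih]
    rw [(h.map (k x)).sum_eq]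
  | swap x y l =>
    simp only [pairSum_cons, List.map_cons, List.sum_cons]
    rw [hk y x]
    ring
  | trans _ _ ih1 ih2 => rw [ih1, ih2]

lemma pairSum_add (k k' : α → α → ℝ) (l : List α) :
    pairSum (fun x y => k x y + k' x y) l = pairSum k l + pairSum k' l := by
  induction l with
  | nil => simp
  | cons x l ih =>
    simp only [pairSum_cons, ih, List.sum_map_add]
    ring

lemma pairSum_const_mul (c : ℝ) (k : α → α → ℝ) (l : List α) :
    pairSum (fun x y => c * k x y) l = c * pairSum k l := by
  induction l with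
  | nil => simp
  | cons x l ih =>
    simp only [pairSum_cons, ih, List.sum_map_mul_left]
    ring

lemma pairSum_neg (k : α → α → ℝ) (l : List α) :
    pairSum (fun x y => - k x y) l = - pairSum k l := by
  have := pairSum_const_mul (-1) k l
  simpa using this

lemma pairSum_sub (k k' : α → α → ℝ) (l : List α) :
    pairSum (fun x y => k x y - k' x y) l = pairSum k l - pairSum k' l := by
  have h1 := pairSum_add k (fun x y => - k' x y) l
  rw [pairSum_neg] at h1
  simpa [sub_eq_add_neg] using h1

lemma pairSum_zero (l : List α) : pairSum (fun _ _ => (0:ℝ)) l = 0 := by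
  have := pairSum_const_mul 0 (fun _ _ => (0:ℝ)) l
  simpa using this

lemma pairSum_finset_sum {ι : Type*} (F : Finset ι) (k : ι → α → α → ℝ) (l : List α) :
    pairSum (fun x y => ∑ i ∈ F, k i x y) l = ∑ i ∈ F, pairSum (k i) l := by
  classical
  induction F using Finset.induction_on with
  | empty => simp [pairSum_zero]
  | insert b F hb ih =>
    simp only [Finset.sum_insert hb]
    rw [pairSum_add, ih]

lemma list_sum_mono {l : List α} {f g : α → ℝ} (h : ∀ x ∈ l, f x ≤ g x) :
    (l.map f).sum ≤ (l.map g).sum := by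
  induction l with
  | nil => simp
  | cons x l ih =>
    simp only [List.map_cons, List.sum_cons]
    exact add_le_add (h x (by simp)) (ih (fun y hy => h y (by simp [hy])))

lemma list_sum_nonneg {l : List α} {f : α → ℝ} (h : ∀ x ∈ l, 0 ≤ f x) :
    0 ≤ (l.map f).sum := by
  have := list_sum_mono (l := l) (f := fun _ => (0:ℝ)) (g := f) h
  simpa using this

lemma pairSum_mono {k k' : α → α → ℝ} {l : List α} (h : ∀ x ∈ l, ∀ y ∈ l, k x y ≤ k' x y) :
    pairSum k l ≤ pairSum k' l := by
  induction l with
  | nil => simp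
  | cons x l ih =>
    simp only [pairSum_cons]
    refine add_le_add (list_sum_mono (fun y hy => h x (by simp) y (by simp [hy]))) ?_
    exact ih (fun a ha b hb => h a (by simp [ha]) b (by simp [hb]))

lemma pairSum_nonneg {k : α → α → ℝ} {l : List α} (h : ∀ x ∈ l, ∀ y ∈ l, 0 ≤ k x y) :
    0 ≤ pairSum k l := by
  have := pairSum_mono (k := fun _ _ => (0:ℝ)) (k' := k) (l := l) h
  rwa [pairSum_zero] at this

lemma crossSum_mono {k k' : α → α → ℝ} {X Y : List α} (h : ∀ x ∈ X, ∀ y ∈ Y, k x y ≤ k' x y) :
    crossSum k X Y ≤ crossSum k' X Y :=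
  list_sum_mono (fun x hx => list_sum_mono (fun y hy => h x hx y hy))

lemma crossSum_nonneg {k : α → α → ℝ} {X Y : List α} (h : ∀ x ∈ X, ∀ y ∈ Y, 0 ≤ k x y) :
    0 ≤ crossSum k X Y :=
  list_sum_nonneg (fun x hx => list_sum_nonneg (fun y hy => h x hx y hy))

lemma crossSum_eq_zero {k : α → α → ℝ} {X Y : List α} (h : ∀ x ∈ X, ∀ y ∈ Y, k x y = 0) :
    crossSum k X Y = 0 :=
  le_antisymm (by
    have := crossSum_mono (k := k) (k' := fun _ _ => (0:ℝ)) (X := X) (Y := Y)
      (fun x hx y hy => (h x hx y hy).le)
    refine this.trans (le_of_eq ?_)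
    simp [crossSum]) (crossSum_nonneg (fun x hx y hy => (h x hx y hy).ge))

lemma crossSum_const_mul (c : ℝ) (k : α → α → ℝ) (X Y : List α) :
    crossSum (fun x y => c * k x y) X Y = c * crossSum k X Y := by
  induction X with
  | nil => simp
  | cons x X ih =>
    simp only [crossSum_cons_left, ih, List.sum_map_mul_left]
    ring

/-- The full quadratic form of a symmetric kernel. -/
lemma crossSum_self {k : α → α → ℝ} (hk : SymK k) (l : List α) :
    crossSum k l l = 2 * pairSum k l + (l.map (fun x => k x x)).sum := by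
  induction l with
  | nil => simp
  | cons x l ih =>
    simp only [crossSum_cons_left, crossSum_cons_right, pairSum_cons, List.map_cons, List.sum_cons, ih]
    have : (l.map (fun z => k z x)).sum = (l.map (k x)).sum := by
      congr 1
      exact List.map_congr_left (fun z _ => hk z x)
    rw [this]
    ring

lemma pairSum_le_half_crossSum {k : α → α → ℝ} (hk : SymK k) (hk0 : ∀ x, 0 ≤ k x x) (l : List α) :
    pairSum k l ≤ crossSum k l l / 2 := by
  have h1 := crossSum_self hk l
  have h2 : 0 ≤ (l.map (fun x => k x x)).sum := list_sum_nonneg (fun x _ => hk0 x)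
  linarith

/-- The pair sum of a list given by a function. -/
lemma pairSum_ofFn (k : α → α → ℝ) {n : ℕ} (x : Fin n → α) :
    pairSum k (List.ofFn x) = ∑ i, ∑ j ∈ Finset.Ioi i, k (x i) (x j) := by
  induction n with
  | zero => simp
  | succ n ih =>
    rw [List.ofFn_succ, pairSum_cons, ih, Fin.sum_univ_succ]
    congr 1
    · rw [List.map_ofFn, List.sum_ofFn, Fin.Ioi_zero_eq_map, Finset.sum_map]
      rfl
    · refine Finset.sum_congr rfl (fun i _ => ?_)
      rw [Fin.Ioi_succ, Finset.sum_map]
      rfl

/-! ### Grouping by cells -/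

section group

variable {ι : Type} [DecidableEq ι]

/-- The number of points of a list in the cell `B`. -/
def nCell (idx : α → ι) (l : List α) (B : ι) : ℝ := ((l.map idx).count B : ℝ)

/-- The cells occupied by a list. -/
def cells (idx : α → ι) (l : List α) : Finset ι := (l.map idx).toFinset

lemma sum_map_idx (idx : α → ι) (h : ι → ℝ) (l : List α) :
    (l.map (fun x => h (idx x))).sum = ∑ B ∈ cells idx l, nCell idx l B * h B := by
  have h1 := Finset.sum_list_map_count (l.map idx) h
  simp only [List.map_map] at h1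
  have e : (h ∘ idx) = fun x => h (idx x) := rfl
  rw [e] at h1
  rw [h1]
  refine Finset.sum_congr rfl (fun B _ => ?_)
  simp [nCell]

lemma nCell_nonneg (idx : α → ι) (l : List α) (B : ι) : 0 ≤ nCell idx l B := by
  unfold nCell; positivity

lemma sum_nCell (idx : α → ι) (l : List α) : ∑ B ∈ cells idx l, nCell idx l B = l.length := by
  have := sum_map_idx idx (fun _ => (1:ℝ)) l
  simp only [mul_one] at this
  rw [← this]
  simp

lemma crossSum_group (idx : α → ι) (Q : ι → ι → ℝ) (l : List α) :
    crossSum (fun x y => Q (idx x) (idx y)) l l =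
      ∑ B ∈ cells idx l, ∑ B' ∈ cells idx l, nCell idx l B * nCell idx l B' * Q B B' := by
  have h1 : ∀ x, (l.map (fun y => Q (idx x) (idx y))).sum =
      ∑ B' ∈ cells idx l, nCell idx l B' * Q (idx x) B' := fun x => sum_map_idx idx (Q (idx x)) l
  unfold crossSum
  simp_rw [h1]
  have := sum_map_idx idx (fun B => ∑ B' ∈ cells idx l, nCell idx l B' * Q B B') l
  rw [this]
  refine Finset.sum_congr rfl (fun B _ => ?_)
  rw [Finset.mul_sum]
  refine Finset.sum_congr rfl (fun B' _ => ?_)
  ring

/-- Indicator of lying in the same cell. -/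
def sameK (idx : α → ι) (x y : α) : ℝ := if idx x = idx y then 1 else 0

/-- The ordered number of pairs in the same cell, with the diagonal. -/
def Dc (idx : α → ι) (l : List α) : ℝ := crossSum (sameK idx) l l

lemma Dc_eq (idx : α → ι) (l : List α) : Dc idx l = ∑ B ∈ cells idx l, nCell idx l B ^ 2 := by
  have h1 := crossSum_group idx (fun B B' => if B = B' then (1:ℝ) else 0) l
  unfold Dc sameK
  rw [h1]
  refine Finset.sum_congr rfl (fun B hB => ?_)
  rw [Finset.sum_eq_single B]
  · simp [sq]
  · intro b _ hb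
    simp [Ne.symm hb]
  · intro h; exact absurd hB h

lemma sameK_sym (idx : α → ι) : SymK (sameK idx) := by
  intro x y
  unfold sameK
  simp only [eq_comm]

lemma sameK_nonneg (idx : α → ι) (x y : α) : 0 ≤ sameK idx x y := by
  unfold sameK; split_ifs <;> norm_num

lemma sameK_self (idx : α → ι) (x : α) : sameK idx x x = 1 := by
  simp [sameK]

lemma Dc_eq_pairSum (idx : α → ι) (l : List α) :
    Dc idx l = 2 * pairSum (sameK idx) l + l.length := by
  unfold Dc
  rw [crossSum_self (sameK_sym idx)]
  simp [sameK_self]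

lemma Dc_nonneg (idx : α → ι) (l : List α) : 0 ≤ Dc idx l := by
  rw [Dc_eq]
  exact Finset.sum_nonneg (fun B _ => sq_nonneg _)

lemma length_sq_le (idx : α → ι) (l : List α) :
    (l.length : ℝ) ^ 2 ≤ (cells idx l).card * Dc idx l := by
  rw [Dc_eq, ← sum_nCell idx l]
  exact sq_sum_le_card_mul_sum_sq

/-- The Schur test on lists. -/
theorem schur {k : α → α → ℝ} (idx : α → ι) (Q : ι → ι → ℝ) {C : ℝ}
    (hQ0 : ∀ B B', 0 ≤ Q B B') (hQs : ∀ B B', Q B B' = Q B' B)
    (hC : ∀ B (F : Finset ι), ∑ B' ∈ F, Q B B' ≤ C)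
    (hk : ∀ x y, k x y ≤ Q (idx x) (idx y)) (l : List α) :
    crossSum k l l ≤ C * Dc idx l := by
  have h1 : crossSum k l l ≤ crossSum (fun x y => Q (idx x) (idx y)) l l :=
    crossSum_mono (fun x _ y _ => hk x y)
  rw [crossSum_group idx Q l] at h1
  refine h1.trans ?_
  rw [Dc_eq, Finset.mul_sum]
  obtain ⟨F, hF⟩ : ∃ F, F = cells idx l := ⟨_, rfl⟩
  rw [← hF]
  have hn := nCell_nonneg idx l
  have h2 : ∑ B ∈ F, ∑ B' ∈ F, nCell idx l B * nCell idx l B' * Q B B' ≤
      ∑ B ∈ F, ∑ B' ∈ F, ((nCell idx l B ^ 2 * Q B B' + nCell idx l B' ^ 2 * Q B' B) / 2) := by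
    refine Finset.sum_le_sum (fun B _ => Finset.sum_le_sum (fun B' _ => ?_))
    rw [hQs B' B]
    have := hQ0 B B'
    nlinarith [sq_nonneg (nCell idx l B - nCell idx l B'), mul_nonneg this (sq_nonneg (nCell idx l B - nCell idx l B'))]
  refine h2.trans ?_
  have h3 : ∑ B ∈ F, ∑ B' ∈ F, ((nCell idx l B ^ 2 * Q B B' + nCell idx l B' ^ 2 * Q B' B) / 2)
      = ∑ B ∈ F, nCell idx l B ^ 2 * ∑ B' ∈ F, Q B B' := by
    simp_rw [add_div, Finset.sum_add_distrib]
    have h4 : ∑ B ∈ F, ∑ B' ∈ F, nCell idx l B' ^ 2 * Q B' B / 2 =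
        ∑ B ∈ F, ∑ B' ∈ F, nCell idx l B ^ 2 * Q B B' / 2 := Finset.sum_comm
    rw [h4, ← Finset.sum_add_distrib]
    refine Finset.sum_congr rfl (fun B _ => ?_)
    rw [← Finset.sum_add_distrib, Finset.mul_sum]
    refine Finset.sum_congr rfl (fun B' _ => ?_)
    ring
  rw [h3]
  refine Finset.sum_le_sum (fun B _ => ?_)
  rw [mul_comm C]
  exact mul_le_mul_of_nonneg_left (hC B F) (sq_nonneg _)

end group

end Vale.Agent.Lib.P171
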