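import Vale.Agent.Lib.P171.Tangent

/-!
# The block decomposition: offsets and the pointwise bound
-/

set_option linter.unusedSectionVars false
set_option linter.unusedVariables false
set_option linter.unusedSimpArgs false

namespace Vale.Agent.Lib.P171

open Finset MeasureTheory Filter Topology
open scoped Real ENNReal

/-- Two points which are close in all coordinates. -/
def nearP (w : ℝ) (x y : E) : Prop := ∀ j, |x j - y j| ≤ w

open Classical in
/-- The close part of a kernel. -/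
noncomputable def nearK (w : ℝ) (v : E → E → ℝ) (x y : E) : ℝ := if nearP w x y then v x y else 0

open Classical in
/-- The remote part of a kernel. -/
noncomputable def farK (w : ℝ) (v : E → E → ℝ) (x y : E) : ℝ := if nearP w x y then 0 else v x y

lemma near_add_far (w : ℝ) (v : E → E → ℝ) (x y : E) : nearK w v x y + farK w v x y = v x y := by
  unfold nearK farK
  split_ifs <;> simp

lemma nearP_symm {w : ℝ} {x y : E} (h : nearP w x y) : nearP w y x := fun j => by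
  rw [abs_sub_comm]; exact h j

/-- The offset number `i`. -/
noncomputable def offs (ℓ : ℝ) (K : ℕ) (i : ℕ) : ℝ := i * ℓ / K

/-- The cell index with offset number `i`. -/
noncomputable def idxO (ℓ : ℝ) (K : ℕ) (i : ℕ) : E → Fin 3 → ℤ := idxL ℓ (offs ℓ K i)

/-- The one-dimensional combinatorial lemma: two close reals are separated by at most one
of the shifted grids. -/
lemma separated_unique_aux {ℓ : ℝ} (hℓ : 0 < ℓ) {K : ℕ} (hK : 0 < K) {x y : ℝ}
    (hxy : x ≤ y) (hclose : y - x ≤ ℓ / K) {i i' : ℕ} (hi : i < K) (hi' : i' < K)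
    (h1 : ⌊(x - offs ℓ K i) / ℓ⌋ ≠ ⌊(y - offs ℓ K i) / ℓ⌋)
    (h2 : ⌊(x - offs ℓ K i') / ℓ⌋ ≠ ⌊(y - offs ℓ K i') / ℓ⌋) : i = i' := by
  have hKr : (0:ℝ) < K := by exact_mod_cast hK
  -- the integers in the half-open interval
  have key : ∀ j : ℕ, ⌊(x - offs ℓ K j) / ℓ⌋ ≠ ⌊(y - offs ℓ K j) / ℓ⌋ →
      ∃ n : ℤ, x * K / ℓ < n * K + j ∧ (n * K + j : ℝ) ≤ y * K / ℓ := by
    intro j hj
    have hmono : ⌊(x - offs ℓ K j) / ℓ⌋ ≤ ⌊(y - offs ℓ K j) / ℓ⌋ :=
      Int.floor_le_floor (div_le_div_of_nonneg_right (by linarith) hℓ.le)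
    have hlt : ⌊(x - offs ℓ K j) / ℓ⌋ < ⌊(y - offs ℓ K j) / ℓ⌋ := lt_of_le_of_ne hmono hj
    refine ⟨⌊(y - offs ℓ K j) / ℓ⌋, ?_, ?_⟩
    · have h3 : (x - offs ℓ K j) / ℓ < (⌊(y - offs ℓ K j) / ℓ⌋ : ℝ) := Int.floor_lt.mp hlt
      have e : x * K / ℓ = (x - offs ℓ K j) / ℓ * K + j := by
        unfold offs
        field_simp
        ring
      rw [e]
      nlinarith
    · have h3 : (⌊(y - offs ℓ K j) / ℓ⌋ : ℝ) ≤ (y - offs ℓ K j) / ℓ := Int.floor_le _
      have e : y * K / ℓ = (y - offs ℓ K j) / ℓ * K + j := by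
        unfold offs
        field_simp
        ring
      rw [e]
      nlinarith
  obtain ⟨n, hn1, hn2⟩ := key i h1
  obtain ⟨n', hn1', hn2'⟩ := key i' h2
  have hlen : y * K / ℓ - x * K / ℓ ≤ 1 := by
    have e : y * K / ℓ - x * K / ℓ = (y - x) * K / ℓ := by ring
    rw [e, div_le_one hℓ]
    have := mul_le_mul_of_nonneg_right hclose hKr.le
    have e2 : ℓ / K * K = ℓ := by field_simp
    rwa [e2] at this
  -- the two integers coincide
  have h3 : ((n * K + i : ℤ) : ℝ) - ((n' * K + i' : ℤ) : ℝ) < 1 := by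
    push_cast
    linarith
  have h4 : ((n' * K + i' : ℤ) : ℝ) - ((n * K + i : ℤ) : ℝ) < 1 := by
    push_cast
    linarith
  have h5 : (n * K + i : ℤ) - (n' * K + i' : ℤ) < 1 := by exact_mod_cast h3
  have h6 : (n' * K + i' : ℤ) - (n * K + i : ℤ) < 1 := by exact_mod_cast h4
  have h7 : (n * K + i : ℤ) = n' * K + i' := by omega
  -- comparing residues
  have h8 : ((i : ℤ) - i') = (n' - n) * K := by linarith
  have hlt1 : |(i : ℤ) - i'| < K := by
    rw [abs_lt]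
    constructor <;> omega
  by_contra hne
  have hne' : (n' - n) ≠ 0 := by
    intro h0
    rw [h0, zero_mul] at h8
    omega
  have hge : (K : ℤ) ≤ |(i : ℤ) - i'| := by
    rw [h8, abs_mul, abs_of_pos (by exact_mod_cast hK : (0:ℤ) < K)]
    have : 1 ≤ |n' - n| := Int.one_le_abs hne'
    nlinarith
  omega

lemma separated_unique {ℓ : ℝ} (hℓ : 0 < ℓ) {K : ℕ} (hK : 0 < K) {x y : ℝ}
    (hclose : |x - y| ≤ ℓ / K) {i i' : ℕ} (hi : i < K) (hi' : i' < K)
    (h1 : ⌊(x - offs ℓ K i) / ℓ⌋ ≠ ⌊(y - offs ℓ K i) / ℓ⌋)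
    (h2 : ⌊(x - offs ℓ K i') / ℓ⌋ ≠ ⌊(y - offs ℓ K i') / ℓ⌋) : i = i' := by
  rcases le_total x y with hxy | hxy
  · exact separated_unique_aux hℓ hK hxy (by rw [abs_sub_comm] at hclose; linarith [le_abs_self (y - x)]) hi hi' h1 h2
  · exact separated_unique_aux hℓ hK hxy (by linarith [le_abs_self (x - y)]) hi hi' h1.symm h2.symm

/-- For close points, at most three of the shifted grids separate them. -/
lemma near_same_count {ℓ : ℝ} (hℓ : 0 < ℓ) {K : ℕ} (hK : 0 < K) {x y : E} (h : nearP (ℓ / K) x y) :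
    (K : ℝ) - 3 ≤ ∑ i ∈ Finset.range K, sameK (idxO ℓ K i) x y := by
  classical
  have hbad : ∀ j : Fin 3, ∑ i ∈ Finset.range K,
      (if ⌊(x j - offs ℓ K i) / ℓ⌋ ≠ ⌊(y j - offs ℓ K i) / ℓ⌋ then (1:ℝ) else 0) ≤ 1 := by
    intro j
    rw [Finset.sum_boole]
    have hc : ((Finset.range K).filter
        (fun i => ⌊(x j - offs ℓ K i) / ℓ⌋ ≠ ⌊(y j - offs ℓ K i) / ℓ⌋)).card ≤ 1 := by
      rw [Finset.card_le_one]
      intro i hi i' hi'
      rw [Finset.mem_filter, Finset.mem_range] at hi hi'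
      exact separated_unique hℓ hK (h j) hi.1 hi'.1 hi.2 hi'.2
    exact_mod_cast hc
  have hpt : ∀ i, 1 - sameK (idxO ℓ K i) x y ≤ ∑ j : Fin 3,
      (if ⌊(x j - offs ℓ K i) / ℓ⌋ ≠ ⌊(y j - offs ℓ K i) / ℓ⌋ then (1:ℝ) else 0) := by
    intro i
    unfold sameK
    by_cases hs : idxO ℓ K i x = idxO ℓ K i y
    · rw [if_pos hs]
      simp only [sub_self]
      exact Finset.sum_nonneg (fun j _ => by split_ifs <;> norm_num)
    · rw [if_neg hs]
      obtain ⟨j, hj⟩ := Function.ne_iff.mp hs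
      have hj' : ⌊(x j - offs ℓ K i) / ℓ⌋ ≠ ⌊(y j - offs ℓ K i) / ℓ⌋ := hj
      have h1 := Finset.single_le_sum (f := fun j : Fin 3 =>
        (if ⌊(x j - offs ℓ K i) / ℓ⌋ ≠ ⌊(y j - offs ℓ K i) / ℓ⌋ then (1:ℝ) else 0))
        (fun j _ => by split_ifs <;> norm_num) (Finset.mem_univ j)
      simp only [hj', ne_eq, not_false_eq_true, if_true] at h1
      simpa using h1
  have h1 : ∑ i ∈ Finset.range K, (1 - sameK (idxO ℓ K i) x y) ≤ 3 := by
    calc _ ≤ ∑ i ∈ Finset.range K, ∑ j : Fin 3,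
          (if ⌊(x j - offs ℓ K i) / ℓ⌋ ≠ ⌊(y j - offs ℓ K i) / ℓ⌋ then (1:ℝ) else 0) :=
          Finset.sum_le_sum (fun i _ => hpt i)
      _ = ∑ j : Fin 3, ∑ i ∈ Finset.range K,
          (if ⌊(x j - offs ℓ K i) / ℓ⌋ ≠ ⌊(y j - offs ℓ K i) / ℓ⌋ then (1:ℝ) else 0) := Finset.sum_comm
      _ ≤ ∑ _j : Fin 3, (1:ℝ) := Finset.sum_le_sum (fun j _ => hbad j)
      _ = 3 := by simp
  rw [Finset.sum_sub_distrib] at h1
  simp at h1
  linarith


lemma crossSum_finset_sum {ι : Type} (F : Finset ι) (k : ι → E → E → ℝ) (X Y : List E) :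
    crossSum (fun x y => ∑ i ∈ F, k i x y) X Y = ∑ i ∈ F, crossSum (k i) X Y := by
  classical
  have hadd : ∀ (k₁ k₂ : E → E → ℝ), crossSum (fun x y => k₁ x y + k₂ x y) X Y =
      crossSum k₁ X Y + crossSum k₂ X Y := by
    intro k₁ k₂
    induction X with
    | nil => simp
    | cons x X ih =>
      simp only [crossSum_cons_left, ih, List.sum_map_add]
      ring
  induction F using Finset.induction_on with
  | empty =>
    simp only [Finset.sum_empty]
    exact crossSum_eq_zero (fun _ _ _ _ => rfl)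
  | insert b F hb ih =>
    simp only [Finset.sum_insert hb]
    rw [hadd, ih]

/-- Pigeonhole: a shifted grid keeps most of the close attraction. -/
lemma exists_offset {K : ℕ} (hK : 4 ≤ K) {ℓ : ℝ} (hℓ : 0 < ℓ) {Φ : E → E → ℝ} (hΦ : ∀ x y, 0 ≤ Φ x y)
    (l : List E) : ∃ i ∈ Finset.range K, pairSum (nearK (ℓ / K) Φ) l ≤
      (1 + 3 / ((K:ℝ) - 3)) * pairSum (fun x y => sameK (idxO ℓ K i) x y * Φ x y) l := by
  have hKr : (4:ℝ) ≤ K := by exact_mod_cast hK
  have hK0 : 0 < K := by omega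
  obtain ⟨S, hS⟩ : ∃ S, S = ∑ i ∈ Finset.range K, pairSum (fun x y => sameK (idxO ℓ K i) x y * Φ x y) l :=
    ⟨_, rfl⟩
  have h1 : ((K:ℝ) - 3) * pairSum (nearK (ℓ / K) Φ) l ≤ S := by
    rw [← pairSum_const_mul, hS, ← pairSum_finset_sum]
    refine pairSum_mono (fun x _ y _ => ?_)
    rw [← Finset.sum_mul]
    unfold nearK
    by_cases hn : nearP (ℓ / K) x y
    · rw [if_pos hn]
      exact mul_le_mul_of_nonneg_right (near_same_count hℓ hK0 hn) (hΦ x y)
    · rw [if_neg hn, mul_zero]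
      exact mul_nonneg (Finset.sum_nonneg (fun i _ => sameK_nonneg _ x y)) (hΦ x y)
  have hne : (Finset.range K).Nonempty := Finset.nonempty_range_iff.mpr (by omega)
  obtain ⟨i, hi, hile⟩ := Finset.exists_le_of_sum_le hne
    (f := fun _ => S / K) (g := fun i => pairSum (fun x y => sameK (idxO ℓ K i) x y * Φ x y) l)
    (by
      simp only [Finset.sum_const, Finset.card_range, nsmul_eq_mul]
      rw [← hS]
      apply le_of_eq
      field_simp)
  refine ⟨i, hi, ?_⟩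
  have hpos : 0 < (K:ℝ) - 3 := by linarith
  have e : 1 + 3 / ((K:ℝ) - 3) = K / ((K:ℝ) - 3) := by
    field_simp
    ring
  rw [e, div_mul_eq_mul_div, le_div_iff₀ hpos]
  have hKpos : (0:ℝ) < K := by linarith
  have h2 : S ≤ K * pairSum (fun x y => sameK (idxO ℓ K i) x y * Φ x y) l := by
    rwa [div_le_iff₀ hKpos, mul_comm] at hile
  linarith

lemma sqrt2_cube_le : (√2) ^ 3 ≤ 3 := by
  have h1 : √2 ^ 2 = 2 := Real.sq_sqrt (by norm_num)
  have h2 : √2 ≤ 1.5 := by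
    rw [Real.sqrt_le_left (by norm_num)]
    norm_num
  have h3 : 0 ≤ √2 := Real.sqrt_nonneg _
  nlinarith

/-- A Gaussian at distance at least `w` is small relative to the Gaussian of twice the variance. -/
lemma γ_far_le {s w r : ℝ} (hs : 0 < s) (hw : 0 ≤ w) (hr : w ≤ |r|) :
    γ s r ≤ 3 * Real.exp (-w ^ 2 / (4 * s)) * γ (2 * s) r := by
  unfold γ
  have e1 : √(2 * π * (2 * s)) = √2 * √(2 * π * s) := by
    rw [← Real.sqrt_mul (by norm_num)]
    congr 1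
    ring
  have hp : 0 < √(2 * π * s) := Real.sqrt_pos.mpr (by positivity)
  have h2 : 0 < √2 := Real.sqrt_pos.mpr (by norm_num)
  rw [e1]
  have e2 : (√(2 * π * s))⁻¹ ^ 3 = (√2) ^ 3 * ((√2 * √(2 * π * s))⁻¹ ^ 3) := by
    field_simp
  rw [e2]
  have h3 : Real.exp (-r ^ 2 / (2 * s)) ≤ Real.exp (-w ^ 2 / (4 * s)) * Real.exp (-r ^ 2 / (2 * (2 * s))) := by
    rw [← Real.exp_add, Real.exp_le_exp]
    have h4 : w ^ 2 ≤ r ^ 2 := by
      have := sq_le_sq' (by linarith [abs_nonneg r]) hr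
      rwa [sq_abs] at this
    have e3 : -r ^ 2 / (2 * s) = -r ^ 2 / (4 * s) + -r ^ 2 / (2 * (2 * s)) := by
      field_simp
      ring
    rw [e3]
    have e4 : -r ^ 2 / (2 * (2 * s)) = -r ^ 2 / (4 * s) := by
      congr 1
      ring
    rw [e4]
    have h5 : -r ^ 2 / (4 * s) ≤ -w ^ 2 / (4 * s) :=
      div_le_div_of_nonneg_right (by linarith) (by positivity)
    linarith
  have h6 := sqrt2_cube_le
  have hnn : 0 ≤ (√2 * √(2 * π * s))⁻¹ ^ 3 := by positivity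
  calc (√2) ^ 3 * (√2 * √(2 * π * s))⁻¹ ^ 3 * Real.exp (-r ^ 2 / (2 * s))
      ≤ (√2) ^ 3 * (√2 * √(2 * π * s))⁻¹ ^ 3 * (Real.exp (-w ^ 2 / (4 * s)) * Real.exp (-r ^ 2 / (2 * (2 * s)))) :=
        mul_le_mul_of_nonneg_left h3 (by positivity)
    _ ≤ 3 * (√2 * √(2 * π * s))⁻¹ ^ 3 * (Real.exp (-w ^ 2 / (4 * s)) * Real.exp (-r ^ 2 / (2 * (2 * s)))) := by
        gcongr
    _ = _ := by ring

lemma dist3_ge_of_not_near {w : ℝ} {x y : E} (h : ¬ nearP w x y) : w ≤ |dist3 x y| := by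
  unfold nearP at h
  push Not at h
  obtain ⟨j, hj⟩ := h
  rw [abs_of_nonneg (dist3_nonneg x y)]
  exact hj.le.trans (abs_coord_le_dist3 x y j)

lemma C1_two_le {s ℓ : ℝ} (hs : 1 ≤ s) (hℓ : 1 ≤ ℓ) : C1 s ℓ ≤ 3 := by
  unfold C1
  have h1 := g1_zero_le hs
  have h2 : 1 / ℓ ≤ 1 := by
    rw [div_le_one (by linarith)]
    exact hℓ
  linarith

/-- The remote attraction is small. -/
lemma far_cross_le (m0 : ℕ) (c0 : ℕ → ℝ) (hc0 : ∀ k, 0 ≤ c0 k) (hsum : ∑ k ∈ Finset.range m0, c0 k ≤ 4)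
    {ℓ : ℝ} (hℓ : 1 ≤ ℓ) {w : ℝ} (hw : 0 ≤ w) (o : ℝ) (l : List E) :
    crossSum (farK w (fun x y => ∑ k ∈ Finset.range m0, c0 k * kG k x y)) l l ≤
      324 * Real.exp (-w ^ 2 / (4 * (m0:ℝ))) * Dc (idxL ℓ o) l := by
  have hpt : ∀ x y, farK w (fun x y => ∑ k ∈ Finset.range m0, c0 k * kG k x y) x y ≤
      ∑ k ∈ Finset.range m0, c0 k * (3 * Real.exp (-w ^ 2 / (4 * ((k:ℝ) + 1))) *
        γ (2 * ((k:ℝ) + 1)) (dist3 x y)) := by
    intro x y
    unfold farK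
    by_cases hn : nearP w x y
    · rw [if_pos hn]
      refine Finset.sum_nonneg (fun k _ => mul_nonneg (hc0 k) (mul_nonneg (by positivity) ?_))
      exact (γ_pos (by positivity) _).le
    · rw [if_neg hn]
      refine Finset.sum_le_sum (fun k _ => mul_le_mul_of_nonneg_left ?_ (hc0 k))
      exact γ_far_le (sk_pos k) hw (dist3_ge_of_not_near hn)
  have h1 := crossSum_mono (X := l) (Y := l) (fun x _ y _ => hpt x y)
  refine h1.trans ?_
  rw [crossSum_finset_sum]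
  have hD := Dc_nonneg (idxL ℓ o) l
  have hstep : ∀ k ∈ Finset.range m0, crossSum (fun x y => c0 k * (3 * Real.exp (-w ^ 2 / (4 * ((k:ℝ) + 1))) *
      γ (2 * ((k:ℝ) + 1)) (dist3 x y))) l l ≤ c0 k * (81 * Real.exp (-w ^ 2 / (4 * (m0:ℝ))) * Dc (idxL ℓ o) l) := by
    intro k hk
    rw [crossSum_const_mul, crossSum_const_mul]
    refine mul_le_mul_of_nonneg_left ?_ (hc0 k)
    have hs1 : (1:ℝ) ≤ 2 * ((k:ℝ) + 1) := by
      have := sk_ge_one k
      linarith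
    have h2 := schur_gauss (s := 2 * ((k:ℝ) + 1)) (by linarith) (by linarith : 0 < ℓ) o l
    have h3 : C1 (2 * ((k:ℝ) + 1)) ℓ ^ 3 ≤ 27 := by
      have h4 := C1_two_le hs1 hℓ
      have h5 := C1_nonneg (s := 2 * ((k:ℝ) + 1)) (by linarith) (by linarith : 0 < ℓ)
      calc _ ≤ (3:ℝ) ^ 3 := pow_le_pow_left₀ h5 h4 3
        _ = 27 := by norm_num
    have h6 : crossSum (fun x y => γ (2 * ((k:ℝ) + 1)) (dist3 x y)) l l ≤ 27 * Dc (idxL ℓ o) l :=
      h2.trans (mul_le_mul_of_nonneg_right h3 hD)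
    have hk' : (k:ℝ) + 1 ≤ m0 := by
      have := Finset.mem_range.mp hk
      exact_mod_cast this
    have h7 : Real.exp (-w ^ 2 / (4 * ((k:ℝ) + 1))) ≤ Real.exp (-w ^ 2 / (4 * (m0:ℝ))) := by
      rw [Real.exp_le_exp]
      have hk0 : (0:ℝ) < (k:ℝ) + 1 := sk_pos k
      have hw2 : 0 ≤ w ^ 2 := sq_nonneg w
      have e1 : -w ^ 2 / (4 * ((k:ℝ) + 1)) = -(w ^ 2 / (4 * ((k:ℝ) + 1))) := by ring
      have e2 : -w ^ 2 / (4 * (m0:ℝ)) = -(w ^ 2 / (4 * (m0:ℝ))) := by ring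
      rw [e1, e2, neg_le_neg_iff]
      exact div_le_div_of_nonneg_left hw2 (by positivity) (by linarith)
    have hnn : 0 ≤ crossSum (fun x y => γ (2 * ((k:ℝ) + 1)) (dist3 x y)) l l :=
      crossSum_nonneg (fun x _ y _ => (γ_pos (by linarith) _).le)
    calc 3 * Real.exp (-w ^ 2 / (4 * ((k:ℝ) + 1))) * crossSum (fun x y => γ (2 * ((k:ℝ) + 1)) (dist3 x y)) l l
        ≤ 3 * Real.exp (-w ^ 2 / (4 * (m0:ℝ))) * (27 * Dc (idxL ℓ o) l) := by
          gcongr
      _ = 81 * Real.exp (-w ^ 2 / (4 * (m0:ℝ))) * Dc (idxL ℓ o) l := by ring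
  refine (Finset.sum_le_sum hstep).trans ?_
  rw [← Finset.sum_mul]
  have hE : 0 ≤ 81 * Real.exp (-w ^ 2 / (4 * (m0:ℝ))) * Dc (idxL ℓ o) l := by positivity
  calc _ ≤ 4 * (81 * Real.exp (-w ^ 2 / (4 * (m0:ℝ))) * Dc (idxL ℓ o) l) :=
        mul_le_mul_of_nonneg_right hsum hE
    _ = _ := by ring

lemma farK_sym {w : ℝ} {v : E → E → ℝ} (hv : SymK v) : SymK (farK w v) := by
  intro x y
  unfold farK
  by_cases hn : nearP w x y
  · rw [if_pos hn, if_pos (nearP_symm hn)]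
  · have hn' : ¬ nearP w y x := fun h => hn (nearP_symm h)
    rw [if_neg hn, if_neg hn', hv]

/-- The pointwise bound with a well-chosen offset. -/
theorem pointwise_choice {K : ℕ} (hK : 4 ≤ K) {ℓ : ℝ} (hℓ : 1 ≤ ℓ) {c' : L1} (hc' : ∀ k, 0 ≤ c' k)
    {m0 : ℕ} (hform : ∀ x y, kC c' x y = ∑ k ∈ Finset.range m0, c' k * kG k x y)
    (hsum : ∑ k ∈ Finset.range m0, c' k ≤ 4) {t : ℝ} (ht : 0 ≤ t) (m : ℕ) {κ' : ℝ}
    (hκ : 324 * Real.exp (-(ℓ / K) ^ 2 / (4 * (m0:ℝ))) + t * C1 ((m:ℝ) + 1) ℓ ^ 3 ≤ 2 * κ') (l : List E) :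
    ∃ i ∈ Finset.range K, PP (c' + t • eL m) l - En0 l ≤ κ' * l.length +
      pairSum (fun x y => sameK (idxO ℓ K i) x y * (vφ ((1 + 3 / ((K:ℝ) - 3)) • c') x y + 2 * κ')) l := by
  have hℓ0 : 0 < ℓ := by linarith
  have hKr : (4:ℝ) ≤ K := by exact_mod_cast hK
  have hw : 0 ≤ ℓ / K := by positivity
  obtain ⟨i, hi, hnear⟩ := exists_offset hK hℓ0 (fun x y => kC_nonneg hc' x y) l
  refine ⟨i, hi, ?_⟩
  obtain ⟨θ, hθ⟩ : ∃ θ, θ = 3 / ((K:ℝ) - 3) := ⟨_, rfl⟩
  rw [← hθ] at hnear ⊢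
  obtain ⟨idx, hidx⟩ : ∃ idx, idx = idxO ℓ K i := ⟨_, rfl⟩
  rw [← hidx] at hnear ⊢
  have hidx' : idx = idxL ℓ (offs ℓ K i) := hidx
  have hD := Dc_nonneg idx l
  -- splitting the attractive energy
  have e1 : PP c' l = pairSum (nearK (ℓ / K) (kC c')) l + pairSum (farK (ℓ / K) (kC c')) l := by
    rw [← pairSum_add]
    unfold PP
    congr 1
    funext x y
    exact (near_add_far _ _ x y).symm
  -- the remote part
  have h2 : pairSum (farK (ℓ / K) (kC c')) l ≤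
      (324 * Real.exp (-(ℓ / K) ^ 2 / (4 * (m0:ℝ)))) * Dc idx l / 2 := by
    have h3 : SymK (farK (ℓ / K) (kC c')) := farK_sym (kC_sym c')
    have h4 : ∀ x, 0 ≤ farK (ℓ / K) (kC c') x x := by
      intro x
      unfold farK
      split_ifs
      · exact le_refl _
      · exact kC_nonneg hc' x x
    have h5 := pairSum_le_half_crossSum h3 h4 l
    have h6 : farK (ℓ / K) (kC c') = farK (ℓ / K) (fun x y => ∑ k ∈ Finset.range m0, c' k * kG k x y) := by
      funext x y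
      unfold farK
      rw [hform]
    have h7 := far_cross_le m0 (fun k => c' k) hc' hsum hℓ hw (offs ℓ K i) l
    rw [← h6, ← hidx'] at h7
    linarith
  -- the long-range Gaussian
  have h8 : t * PP (eL m) l ≤ t * (C1 ((m:ℝ) + 1) ℓ ^ 3 * Dc idx l / 2) := by
    refine mul_le_mul_of_nonneg_left ?_ ht
    rw [PP_eL]
    have h9 := pairSum_le_half_crossSum (kG_sym m) (fun x => kG_nonneg m x x) l
    have h10 := schur_gauss (s := (m:ℝ) + 1) (sk_pos m) hℓ0 (offs ℓ K i) l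
    rw [← hidx'] at h10
    have h11 : crossSum (kG m) l l = crossSum (fun x y => γ ((m:ℝ) + 1) (dist3 x y)) l l := rfl
    rw [h11] at h9
    linarith
  -- the repulsive part
  have h12 : pairSum (fun x y => sameK idx x y * kRep x y) l ≤ En0 l := by
    refine pairSum_mono (fun x _ y _ => ?_)
    have h13 := kRep_nonneg x y
    unfold sameK
    split_ifs
    · linarith
    · simpa using h13
  -- the right-hand side
  have e2 : pairSum (fun x y => sameK idx x y * (vφ ((1 + θ) • c') x y + 2 * κ')) l =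
      (1 + θ) * pairSum (fun x y => sameK idx x y * kC c' x y) l -
        pairSum (fun x y => sameK idx x y * kRep x y) l + 2 * κ' * pairSum (sameK idx) l := by
    rw [← pairSum_const_mul, ← pairSum_const_mul, ← pairSum_sub, ← pairSum_add]
    congr 1
    funext x y
    unfold vφ
    rw [kφ_eq, kC_smul]
    ring
  rw [e2]
  have e3 : PP (c' + t • eL m) l = PP c' l + t * PP (eL m) l := by
    rw [PP_add, PP_smul]
  rw [e3, e1]
  have h14 : Dc idx l = 2 * pairSum (sameK idx) l + l.length := Dc_eq_pairSum idx l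
  have h15 : (324 * Real.exp (-(ℓ / K) ^ 2 / (4 * (m0:ℝ)))) * Dc idx l / 2 + t * (C1 ((m:ℝ) + 1) ℓ ^ 3 * Dc idx l / 2)
      ≤ κ' * Dc idx l := by
    have := mul_le_mul_of_nonneg_right hκ hD
    nlinarith
  rw [h14] at h15
  have h16 : κ' * (2 * pairSum (sameK idx) l + l.length) = κ' * l.length + 2 * κ' * pairSum (sameK idx) l := by
    ring
  rw [h16] at h15
  rw [h14] at h2 h8
  linarith

end Vale.Agent.Lib.P171
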