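import Vale.Agent.Lib.P171.LP1

/-!
# The block decomposition: factorisation over cells
-/

set_option linter.unusedSectionVars false
set_option linter.unusedVariables false
set_option linter.unusedSimpArgs false

namespace Vale.Agent.Lib.P171

open Finset MeasureTheory Filter Topology
open scoped Real ENNReal

/-- The cell with index `b`. -/
def cell (ℓ o : ℝ) (b : Fin 3 → ℤ) : Set E := {x | idxL ℓ o x = b}

lemma measurableSet_cell (ℓ o : ℝ) (b : Fin 3 → ℤ) : MeasurableSet (cell ℓ o b) := by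
  have h1 : cell ℓ o b = ⋂ j, {x : E | ⌊(x j - o) / ℓ⌋ = b j} := by
    ext x
    simp only [cell, Set.mem_setOf_eq, Set.mem_iInter, idxL]
    exact funext_iff
  rw [h1]
  refine MeasurableSet.iInter (fun j => ?_)
  have hm : Measurable (fun x : E => ⌊(x j - o) / ℓ⌋) := Int.measurable_floor.comp (by fun_prop)
  exact hm (measurableSet_singleton (b j))

lemma cell_disjoint (ℓ o : ℝ) : Pairwise (Function.onFun Disjoint (cell ℓ o)) := by
  intro b b' hne
  rw [Function.onFun, Set.disjoint_left]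
  intro x hx hx'
  exact hne (hx.symm.trans hx')

lemma box_subset_cells {ℓ o L : ℝ} (hℓ : 0 < ℓ) :
    box L ⊆ ⋃ b ∈ cubeCells ℓ o L, cell ℓ o b := by
  intro x hx
  simp only [Set.mem_iUnion]
  refine ⟨idxL ℓ o x, ?_, rfl⟩
  unfold cubeCells
  rw [Fintype.mem_piFinset]
  exact fun j => idxL_mem_Icc hℓ hx j

lemma MK_same_mul {v : E → E → ℝ} (hv : MK v) (ℓ o : ℝ) :
    MK (fun x y => sameK (idxL ℓ o) x y * v x y) :=
  Measurable.mul (MK_sameK ℓ o) hv

lemma SymK_same_mul {v : E → E → ℝ} (hv : SymK v) (idx : E → Fin 3 → ℤ) :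
    SymK (fun x y => sameK idx x y * v x y) := fun x y => by
  simp only
  rw [sameK_sym idx x y, hv x y]

/-- Factorisation over the cells. -/
theorem cfg_cells {v : E → E → ℝ} (hv : MK v) (hs : SymK v) {ℓ o : ℝ} (hℓ : 0 < ℓ) (b₀ L : ℝ)
    {C : ℝ≥0∞} (hC : ∀ b, Cfg (volume.restrict (cell ℓ o b))
      (Wk (fun x y => sameK (idxL ℓ o) x y * v x y) b₀) ≤ C) :
    Cfg (μL L) (Wk (fun x y => sameK (idxL ℓ o) x y * v x y) b₀) ≤ C ^ (cubeCells ℓ o L).card := by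
  classical
  have h1 : Cfg (μL L) (Wk (fun x y => sameK (idxL ℓ o) x y * v x y) b₀) ≤
      Cfg (volume.restrict (⋃ b ∈ cubeCells ℓ o L, cell ℓ o b))
        (Wk (fun x y => sameK (idxL ℓ o) x y * v x y) b₀) :=
    Cfg_mono_measure (Measure.restrict_mono (box_subset_cells hℓ) (le_refl _)) _
  refine h1.trans ?_
  refine Cfg_biUnion_le volume (cell ℓ o) (measurableSet_cell ℓ o) (cell_disjoint ℓ o)
    (Wk_LMeas (MK_same_mul hv ℓ o) b₀) (Wk_PermInv (SymK_same_mul hs _) b₀) (Wk_nil _ _) hC ?_ _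
  intro F b hb X Y hX hY
  refine Wk_append_le (le_of_eq (crossSum_eq_zero (fun x hx y hy => ?_)))
  have hx' := hX x hx
  simp only [Set.mem_iUnion] at hx'
  obtain ⟨i, hi, hxi⟩ := hx'
  have hne : idxL ℓ o x ≠ idxL ℓ o y := by
    have h2 : idxL ℓ o x = i := hxi
    have h3 : idxL ℓ o y = b := hY y hy
    rw [h2, h3]
    exact fun e => hb (e ▸ hi)
  simp [sameK, hne]

lemma cell_subset_translate {ℓ o : ℝ} (hℓ : 0 < ℓ) (b : Fin 3 → ℤ) :
    cell ℓ o b ⊆ (fun x : E => x + (fun j => -((b j : ℝ) * ℓ + o))) ⁻¹' box ℓ := by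
  intro x hx j
  have h1 : ⌊(x j - o) / ℓ⌋ = b j := congrFun hx j
  have h2 : ((b j : ℤ) : ℝ) ≤ (x j - o) / ℓ := by rw [← h1]; exact Int.floor_le _
  have h3 : (x j - o) / ℓ < ((b j : ℤ) : ℝ) + 1 := by rw [← h1]; exact Int.lt_floor_add_one _
  rw [le_div_iff₀ hℓ] at h2
  rw [div_lt_iff₀ hℓ] at h3
  simp only [Pi.add_apply]
  constructor <;> nlinarith

/-- The bound on one cell. -/
lemma cell_le_box {v : E → E → ℝ} (hv : MK v) (hs : SymK v) (hinv : ∀ u x y : E, v (x + u) (y + u) = v x y)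
    {ℓ o : ℝ} (hℓ : 0 < ℓ) (b₀ : ℝ) (b : Fin 3 → ℤ) :
    Cfg (volume.restrict (cell ℓ o b)) (Wk (fun x y => sameK (idxL ℓ o) x y * v x y) b₀) ≤
      Cfg (μL ℓ) (Wk v b₀) := by
  have h1 : Cfg (volume.restrict (cell ℓ o b)) (Wk (fun x y => sameK (idxL ℓ o) x y * v x y) b₀) ≤
      Cfg (volume.restrict (cell ℓ o b)) (Wk v b₀) := by
    refine Cfg_mono_on volume (measurableSet_cell ℓ o b) (fun l hl => ?_)
    unfold Wk
    apply ENNReal.ofReal_le_ofReal
    rw [Real.exp_le_exp]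
    have h2 : pairSum (fun x y => sameK (idxL ℓ o) x y * v x y) l ≤ pairSum v l := by
      refine pairSum_mono (fun x hx y hy => ?_)
      have h3 : idxL ℓ o x = idxL ℓ o y := (hl x hx).trans (hl y hy).symm
      simp [sameK, h3]
    linarith
  refine h1.trans ?_
  have h2 := cell_subset_translate (o := o) hℓ b
  have h3 : Cfg (volume.restrict (cell ℓ o b)) (Wk v b₀) ≤
      Cfg (volume.restrict ((fun x : E => x + (fun j => -((b j : ℝ) * ℓ + o))) ⁻¹' box ℓ)) (Wk v b₀) :=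
    Cfg_mono_measure (Measure.restrict_mono h2 (le_refl _)) _
  refine h3.trans (le_of_eq ?_)
  exact Cfg_translate hv b₀ _ (fun x y => hinv _ x y) (measurableSet_box ℓ)

/-- The translation-invariant kernel of one cell. -/
noncomputable def v2 (c : L1) (κ : ℝ) (x y : E) : ℝ := vφ c x y + 2 * κ

lemma MK_v2 (c : L1) (κ : ℝ) : MK (v2 c κ) := (MK_vφ c).add (measurable_const)

lemma SymK_v2 (c : L1) (κ : ℝ) : SymK (v2 c κ) := fun x y => by
  unfold v2; rw [vφ_sym c x y]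

lemma v2_translate (c : L1) (κ : ℝ) (u x y : E) : v2 c κ (x + u) (y + u) = v2 c κ x y := by
  unfold v2; rw [vφ_translate]

/-- The pointwise bound on the weight. -/
lemma Wt_le_sum {K : ℕ} (hK : 4 ≤ K) {ℓ : ℝ} (hℓ : 1 ≤ ℓ) {c' : L1} (hc' : ∀ k, 0 ≤ c' k)
    {m0 : ℕ} (hform : ∀ x y, kC c' x y = ∑ k ∈ Finset.range m0, c' k * kG k x y)
    (hsum : ∑ k ∈ Finset.range m0, c' k ≤ 4) {t : ℝ} (ht : 0 ≤ t) (m : ℕ) {κ' : ℝ}
    (hκ : 324 * Real.exp (-(ℓ / K) ^ 2 / (4 * (m0:ℝ))) + t * C1 ((m:ℝ) + 1) ℓ ^ 3 ≤ 2 * κ') (a : ℝ)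
    (l : List E) :
    Wt (c' + t • eL m) a l ≤ ∑ i ∈ Finset.range K,
      Wk (fun x y => sameK (idxL ℓ (offs ℓ K i)) x y * v2 ((1 + 3 / ((K:ℝ) - 3)) • c') κ' x y) (a + κ') l := by
  obtain ⟨i, hi, hb⟩ := pointwise_choice hK hℓ hc' hform hsum ht m hκ l
  refine le_trans ?_ (Finset.single_le_sum (f := fun i => Wk (fun x y => sameK (idxL ℓ (offs ℓ K i)) x y *
    v2 ((1 + 3 / ((K:ℝ) - 3)) • c') κ' x y) (a + κ') l) (fun _ _ => bot_le) hi)
  rw [Wt_eq, En_eq]
  unfold Wk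
  apply ENNReal.ofReal_le_ofReal
  rw [Real.exp_le_exp]
  have e : (fun x y => sameK (idxL ℓ (offs ℓ K i)) x y * v2 ((1 + 3 / ((K:ℝ) - 3)) • c') κ' x y) =
      (fun x y => sameK (idxO ℓ K i) x y * (vφ ((1 + 3 / ((K:ℝ) - 3)) • c') x y + 2 * κ')) := rfl
  rw [e]
  nlinarith

/-- The bound in terms of the partition function of one block. -/
theorem block_bound {K : ℕ} (hK : 4 ≤ K) {ℓ : ℝ} (hℓ : 1 ≤ ℓ) {c' : L1} (hc' : ∀ k, 0 ≤ c' k)
    {m0 : ℕ} (hform : ∀ x y, kC c' x y = ∑ k ∈ Finset.range m0, c' k * kG k x y)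
    (hsum : ∑ k ∈ Finset.range m0, c' k ≤ 4) {t : ℝ} (ht : 0 ≤ t) (m : ℕ) {κ' : ℝ}
    (hκ : 324 * Real.exp (-(ℓ / K) ^ 2 / (4 * (m0:ℝ))) + t * C1 ((m:ℝ) + 1) ℓ ^ 3 ≤ 2 * κ') (a : ℝ)
    {R : ℝ} (hR : 1 ≤ R)
    (hS : Cfg (μL ℓ) (Wk (v2 ((1 + 3 / ((K:ℝ) - 3)) • c') κ') (a + κ')) ≤ ENNReal.ofReal R)
    (hdom : c' + t • eL m ∈ Dom 4) :
    ff (c' + t • eL m) a ≤ Real.log R / ℓ ^ 3 := by
  have hℓ0 : 0 < ℓ := by linarith
  have hlogR : 0 ≤ Real.log R := Real.log_nonneg hR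
  have hK0 : (0:ℝ) < K := by
    have : 0 < K := by omega
    exact_mod_cast this
  obtain ⟨c'', hc''⟩ : ∃ c'', c'' = (1 + 3 / ((K:ℝ) - 3)) • c' := ⟨_, rfl⟩
  rw [← hc''] at hS
  have hL : ∀ L : ℝ, 0 < L → gg (c' + t • eL m) a L / L ^ 3 ≤
      Real.log K / L ^ 3 + (1 / ℓ + 2 / L) ^ 3 * Real.log R := by
    intro L hLpos
    have h1 : XI (c' + t • eL m) a L ≤ ENNReal.ofReal (K * Real.exp ((L / ℓ + 2) ^ 3 * Real.log R)) := by
      have h2 : XI (c' + t • eL m) a L ≤ Cfg (μL L) (fun l => ∑ i ∈ Finset.range K,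
          Wk (fun x y => sameK (idxL ℓ (offs ℓ K i)) x y * v2 c'' κ' x y) (a + κ') l) := by
        unfold XI
        refine Cfg_mono (fun l => ?_)
        rw [hc'']
        exact Wt_le_sum hK hℓ hc' hform hsum ht m hκ a l
      refine h2.trans ?_
      rw [Cfg_sum_fun _ _ (fun i => Wk_LMeas (MK_same_mul (MK_v2 c'' κ') ℓ _) _)]
      have h3 : ∀ i ∈ Finset.range K, Cfg (μL L)
          (Wk (fun x y => sameK (idxL ℓ (offs ℓ K i)) x y * v2 c'' κ' x y) (a + κ')) ≤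
          ENNReal.ofReal (Real.exp ((L / ℓ + 2) ^ 3 * Real.log R)) := by
        intro i _
        have h4 := cfg_cells (v := v2 c'' κ') (MK_v2 c'' κ') (SymK_v2 c'' κ') (o := offs ℓ K i) hℓ0 (a + κ') L
          (C := ENNReal.ofReal R) (fun b => (cell_le_box (MK_v2 c'' κ') (SymK_v2 c'' κ')
            (fun u x y => v2_translate c'' κ' u x y) hℓ0 (a + κ') b).trans hS)
        refine h4.trans ?_
        rw [← ENNReal.ofReal_pow (by linarith)]
        apply ENNReal.ofReal_le_ofReal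
        have hRpos : 0 < R := by linarith
        have e : R ^ (cubeCells ℓ (offs ℓ K i) L).card =
            Real.exp (((cubeCells ℓ (offs ℓ K i) L).card : ℝ) * Real.log R) := by
          rw [Real.exp_nat_mul, Real.exp_log hRpos]
        rw [e, Real.exp_le_exp]
        exact mul_le_mul_of_nonneg_right (cubeCells_card hℓ0 hLpos.le) hlogR
      refine (Finset.sum_le_sum h3).trans (le_of_eq ?_)
      rw [Finset.sum_const, Finset.card_range, nsmul_eq_mul, ENNReal.ofReal_mul hK0.le,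
        ENNReal.ofReal_natCast]
    have h5 := ENNReal.toReal_mono ENNReal.ofReal_ne_top h1
    rw [ENNReal.toReal_ofReal (by positivity)] at h5
    have h6 := one_le_XI_toReal hdom a hLpos.le
    have h7 := Real.log_le_log (by linarith) h5
    rw [Real.log_mul hK0.ne' (Real.exp_pos _).ne', Real.log_exp] at h7
    have h8 : gg (c' + t • eL m) a L ≤ Real.log K + (L / ℓ + 2) ^ 3 * Real.log R := h7
    have hL3 : 0 < L ^ 3 := by positivity
    rw [div_le_iff₀ hL3]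
    have e : (L / ℓ + 2) = (1 / ℓ + 2 / L) * L := by
      field_simp
    rw [e] at h8
    calc _ ≤ _ := h8
      _ = _ := by
        field_simp
  have hlim1 := tendsto_gg hdom a
  have hlim2 : Tendsto (fun L : ℝ => Real.log K / L ^ 3 + (1 / ℓ + 2 / L) ^ 3 * Real.log R) atTop
      (𝓝 (0 + (1 / ℓ + 0) ^ 3 * Real.log R)) := by
    refine Tendsto.add ?_ (Tendsto.mul_const _ (Tendsto.pow (Tendsto.add tendsto_const_nhds ?_) 3))
    · exact tendsto_const_nhds.div_atTop (tendsto_pow_atTop (by norm_num))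
    · exact tendsto_const_nhds.div_atTop tendsto_id
  have hle := le_of_tendsto_of_tendsto hlim1 hlim2
    ((eventually_gt_atTop 0).mono (fun L hL' => hL L hL'))
  refine hle.trans (le_of_eq ?_)
  field_simp
  ring

end Vale.Agent.Lib.P171
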