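import Vale.Agent.Lib.P171.LP2

/-!
# The Lebowitz-Penrose bound
-/

set_option linter.unusedSectionVars false
set_option linter.unusedVariables false
set_option linter.unusedSimpArgs false

namespace Vale.Agent.Lib.P171

open Finset MeasureTheory Filter Topology
open scoped Real ENNReal

lemma It_congr_len (μ : Measure E) (n : ℕ) :
    ∀ {G G' : List E → ℝ≥0∞}, (∀ l, l.length = n → G l = G' l) → It μ n G = It μ n G' := by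
  induction n with
  | zero =>
    intro G G' h
    exact h [] rfl
  | succ n ih =>
    intro G G' h
    simp only [It]
    refine lintegral_congr (fun y => ?_)
    exact ih (fun l hl => h (y :: l) (by simp [hl]))

lemma pairSum_const (κ : ℝ) (l : List E) :
    pairSum (fun _ _ => κ) l = κ * ((l.length : ℝ) * ((l.length : ℝ) - 1) / 2) := by
  induction l with
  | nil => simp
  | cons x l ih =>
    simp only [pairSum_cons, ih, List.length_cons, List.map_const', List.sum_replicate, smul_eq_mul, nsmul_eq_mul]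
    push_cast
    ring

lemma Wk_v2_eq (c : L1) (κ a : ℝ) (l : List E) :
    Wk (v2 c κ) (a + κ) l = ENNReal.ofReal (Real.exp (-κ * (l.length : ℝ) ^ 2)) *
      Wt c (a + 2 * κ * l.length) l := by
  rw [Wt_eq]
  unfold Wk v2
  rw [← ENNReal.ofReal_mul (Real.exp_pos _).le, ← Real.exp_add, pairSum_add, pairSum_vφ, pairSum_const]
  congr 2
  ring

/-- The single-cell sum in terms of partition functions at shifted activities. -/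
lemma S_le (c : L1) (κ a ℓ : ℝ) :
    Cfg (μL ℓ) (Wk (v2 c κ) (a + κ)) ≤ ∑' n : ℕ, ENNReal.ofReal (Real.exp (-κ * (n:ℝ) ^ 2)) *
      XI c (a + 2 * κ * n) ℓ := by
  unfold Cfg
  refine ENNReal.tsum_le_tsum (fun n => ?_)
  have h1 : It (μL ℓ) n (Wk (v2 c κ) (a + κ)) =
      It (μL ℓ) n (fun l => ENNReal.ofReal (Real.exp (-κ * (n:ℝ) ^ 2)) * Wt c (a + 2 * κ * n) l) :=
    It_congr_len _ n (fun l hl => by rw [Wk_v2_eq, hl])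
  rw [h1, It_const_mul _ _ n (Wt_LMeas _ _)]
  have h2 := Cfg_term_le (μL ℓ) (Wt c (a + 2 * κ * n)) n
  calc _ = ENNReal.ofReal (Real.exp (-κ * (n:ℝ) ^ 2)) *
        (((n.factorial : ℝ≥0∞))⁻¹ * It (μL ℓ) n (Wt c (a + 2 * κ * n))) := by ring
    _ ≤ _ := by
      gcongr
      exact h2

lemma XI_le_exp_ff {c : L1} (hc : c ∈ Dom 4) (a : ℝ) {ℓ : ℝ} (hℓ : 0 < ℓ) :
    XI c a ℓ ≤ ENNReal.ofReal (Real.exp ((ℓ + r0) ^ 3 * ff c a)) := by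
  have h1 := gg_le_ff hc a hℓ
  have h2 := one_le_XI_toReal hc a hℓ.le
  have h3 : (XI c a ℓ).toReal = Real.exp (gg c a ℓ) := by
    unfold gg
    rw [Real.exp_log (by linarith)]
  rw [← ENNReal.ofReal_toReal (XI_ne_top hc a hℓ.le), h3]
  apply ENNReal.ofReal_le_ofReal
  exact Real.exp_le_exp.mpr h1

/-- The geometric bound. -/
lemma S_le_geom {c : L1} (hc : c ∈ Dom 4) (κ a : ℝ) {ℓ : ℝ} (hℓ : 0 < ℓ) {A₀ q : ℝ} (hq : 0 < q)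
    (h : ∀ n : ℕ, -κ * (n:ℝ) ^ 2 + (ℓ + r0) ^ 3 * ff c (a + 2 * κ * n) ≤ A₀ - q * n) :
    Cfg (μL ℓ) (Wk (v2 c κ) (a + κ)) ≤ ENNReal.ofReal (Real.exp A₀ * (1 - Real.exp (-q))⁻¹) := by
  refine (S_le c κ a ℓ).trans ?_
  have hr : Real.exp (-q) < 1 := by
    rw [Real.exp_lt_one_iff]
    linarith
  have hr0 : 0 ≤ Real.exp (-q) := (Real.exp_pos _).le
  have hs := hasSum_geometric_of_lt_one hr0 hr
  have hs2 := hs.mul_left (Real.exp A₀)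
  rw [← hs2.tsum_eq, ENNReal.ofReal_tsum_of_nonneg (fun n => by positivity) hs2.summable]
  refine ENNReal.tsum_le_tsum (fun n => ?_)
  calc _ ≤ ENNReal.ofReal (Real.exp (-κ * (n:ℝ) ^ 2)) * ENNReal.ofReal (Real.exp ((ℓ + r0) ^ 3 * ff c (a + 2 * κ * n))) := by
        gcongr
        exact XI_le_exp_ff hc _ hℓ
    _ = ENNReal.ofReal (Real.exp (-κ * (n:ℝ) ^ 2 + (ℓ + r0) ^ 3 * ff c (a + 2 * κ * n))) := by
        rw [← ENNReal.ofReal_mul (Real.exp_pos _).le, ← Real.exp_add]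
    _ ≤ _ := by
        apply ENNReal.ofReal_le_ofReal
        have e : Real.exp A₀ * Real.exp (-q) ^ n = Real.exp (A₀ - q * n) := by
          rw [← Real.exp_nat_mul, ← Real.exp_add]
          congr 1
          ring
        rw [e, Real.exp_le_exp]
        exact h n

/-- Lipschitz continuity in the coupling. -/
lemma ff_lip {c c' : L1} (hc : c ∈ Dom 4) (hc' : c' ∈ Dom 4) (a : ℝ) :
    ff c a ≤ ff c' a + Λ₀ a * ‖c - c'‖ := by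
  obtain ⟨ρ, lam, hb, _, _, ht, _⟩ := tangent_limit hc a
  have h1 := ht c' hc' a
  have h2 := (abs_le.mp (hb (c' - c))).1
  rw [norm_sub_rev c' c] at h2
  simp only [sub_self, mul_zero, add_zero] at h1
  linarith

/-- The elementary inequality for each value of the shift. -/
lemma bracket {c c'' : L1} (hc : c ∈ Dom 4) (hc'' : c'' ∈ Dom 4) {a t t'' q W σ₂ B₁ γ' : ℝ}
    (ht : 0 < t) (ht1 : t ≤ t'') (ht2 : t'' ≤ 5) (hq1 : 1 ≤ q) (hq2 : q ≤ 2)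
    (hW : ∀ b, 0 ≤ b → ff c (a + b) - b ^ 2 / (2 * t) ≤ W) (hW0 : 0 ≤ W) (hσ₂ : 0 ≤ σ₂)
    (hB1 : 1 ≤ B₁) (hC2 : 2 + 4 * Γ₀ * (a + Arep / 2) ^ 2 ≤ B₁ ^ 2 / 20)
    (hγ0 : 0 ≤ γ') (hγ1 : γ' ≤ 1 / 40) (hγ2 : γ' * B₁ ^ 2 ≤ σ₂ / 2)
    (herr : Λ₀ (a + B₁) * ‖c - c''‖ + (q - 1) * (1 + Γ₀ * (|a| + B₁ + Arep / 2) ^ 2) +
      B₁ ^ 2 * (t'' - t) / (2 * t ^ 2) ≤ σ₂ / 2) {b : ℝ} (hb : 0 ≤ b) :
    q * ff c'' (a + b) - b ^ 2 / (2 * t'') ≤ W + σ₂ - γ' * b ^ 2 := by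
  have ht'' : 0 < t'' := by linarith
  have hArep := Arep_pos
  have hnn := ff_nonneg hc'' (a + b)
  have hg := ff_le_growth hc'' (a + b)
  by_cases hbB : b ≤ B₁
  · -- small shift
    have h1 := ff_lip hc'' hc (a + b)
    have h2 : Λ₀ (a + b) * ‖c'' - c‖ ≤ Λ₀ (a + B₁) * ‖c - c''‖ := by
      rw [norm_sub_rev]
      exact mul_le_mul_of_nonneg_right (Λ₀_mono (by linarith)) (norm_nonneg _)
    have h3 : ff c'' (a + b) ≤ 1 + Γ₀ * (|a| + B₁ + Arep / 2) ^ 2 := by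
      refine hg.trans ?_
      have h4 : (a + b + Arep / 2) ^ 2 ≤ (|a| + B₁ + Arep / 2) ^ 2 := by
        apply sq_le_sq'
        · have := neg_abs_le a
          have := le_abs_self a
          linarith [abs_nonneg a]
        · have := le_abs_self a
          linarith
      have hΓ : 0 ≤ Γ₀ := by unfold Γ₀; norm_num
      nlinarith
    have h5 : q * ff c'' (a + b) ≤ ff c'' (a + b) + (q - 1) * (1 + Γ₀ * (|a| + B₁ + Arep / 2) ^ 2) := by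
      have := mul_le_mul_of_nonneg_left h3 (by linarith : 0 ≤ q - 1)
      nlinarith
    have h6 : b ^ 2 / (2 * t) - b ^ 2 / (2 * t'') ≤ B₁ ^ 2 * (t'' - t) / (2 * t ^ 2) := by
      have e : b ^ 2 / (2 * t) - b ^ 2 / (2 * t'') = b ^ 2 * (t'' - t) / (2 * t * t'') := by
        field_simp
      rw [e]
      have hb2 : b ^ 2 ≤ B₁ ^ 2 := pow_le_pow_left₀ hb hbB 2
      have h7 : 2 * t ^ 2 ≤ 2 * t * t'' := by nlinarith
      calc b ^ 2 * (t'' - t) / (2 * t * t'') ≤ B₁ ^ 2 * (t'' - t) / (2 * t * t'') := by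
            apply div_le_div_of_nonneg_right _ (by positivity)
            exact mul_le_mul_of_nonneg_right hb2 (by linarith)
        _ ≤ _ := by
            apply div_le_div_of_nonneg_left _ (by positivity) h7
            exact mul_nonneg (sq_nonneg _) (by linarith)
    have h8 := hW b hb
    have h9 : γ' * b ^ 2 ≤ σ₂ / 2 := by
      have hb2 : b ^ 2 ≤ B₁ ^ 2 := pow_le_pow_left₀ hb hbB 2
      exact (mul_le_mul_of_nonneg_left hb2 hγ0).trans hγ2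
    linarith
  · -- large shift
    push Not at hbB
    have hbpos : 0 < b := by linarith
    have h1 : q * ff c'' (a + b) ≤ 2 * (1 + Γ₀ * (a + b + Arep / 2) ^ 2) := by
      have := mul_le_mul_of_nonneg_right hq2 hnn
      linarith
    have h2 : (a + b + Arep / 2) ^ 2 ≤ 2 * (a + Arep / 2) ^ 2 + 2 * b ^ 2 := by
      nlinarith [sq_nonneg (a + Arep / 2 - b)]
    have hΓ : Γ₀ = 1 / 190 := rfl
    have h3 : q * ff c'' (a + b) ≤ (2 + 4 * Γ₀ * (a + Arep / 2) ^ 2) + (2 / 95) * b ^ 2 := by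
      rw [hΓ] at h1 ⊢
      nlinarith
    have h4 : b ^ 2 / 10 ≤ b ^ 2 / (2 * t'') := by
      apply div_le_div_of_nonneg_left (sq_nonneg b) (by positivity)
      linarith
    have h5 : B₁ ^ 2 ≤ b ^ 2 := pow_le_pow_left₀ (by linarith) hbB.le 2
    have h6 : γ' * b ^ 2 ≤ (1 / 40) * b ^ 2 := mul_le_mul_of_nonneg_right hγ1 (sq_nonneg b)
    have h7 := sq_nonneg b
    linarith


/-- Truncation of a coupling. -/
lemma trunc_exists {c : L1} (hc : ∀ k, 0 ≤ c k) {η : ℝ} (hη : 0 < η) :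
    ∃ (m0 : ℕ) (c' : L1), 1 ≤ m0 ∧ (∀ k, 0 ≤ c' k) ∧ ‖c'‖ ≤ ‖c‖ ∧ ‖c - c'‖ ≤ η ∧
      (∀ x y, kC c' x y = ∑ k ∈ Finset.range m0, c' k * kG k x y) ∧
      ∑ k ∈ Finset.range m0, c' k ≤ ‖c‖ := by
  have hs := lp.hasSum_single (E := fun _ : ℕ => ℝ) (p := 1) (by norm_num) c
  have ht := hs.tendsto_sum_nat
  have hev := (Metric.tendsto_atTop.mp ht) η hη
  obtain ⟨N, hN⟩ := hev
  refine ⟨N + 1, ∑ i ∈ Finset.range (N + 1), lp.single 1 i (c i), by omega, ?_⟩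
  obtain ⟨c', hc'⟩ : ∃ c', c' = ∑ i ∈ Finset.range (N + 1), (lp.single 1 i (c i) : L1) := ⟨_, rfl⟩
  rw [← hc']
  have hcoord : ∀ j, c' j = if j < N + 1 then c j else 0 := by
    intro j
    rw [hc', lp.coeFn_sum]
    simp only [Finset.sum_apply, lp.single_apply, Pi.single_apply]
    split_ifs with hj
    · rw [Finset.sum_eq_single j]
      · simp
      · intro k _ hk
        simp [Ne.symm hk]
      · intro h
        exact absurd (Finset.mem_range.mpr hj) h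
    · refine Finset.sum_eq_zero (fun k hk => ?_)
      have : j ≠ k := fun e => hj (e ▸ Finset.mem_range.mp hk)
      simp [this]
  have hnn : ∀ j, 0 ≤ c' j := by
    intro j
    rw [hcoord]
    split_ifs
    · exact hc j
    · exact le_refl _
  have hle : ∀ j, |c' j| ≤ |c j| := by
    intro j
    rw [hcoord]
    split_ifs
    · exact le_refl _
    · simp
  refine ⟨hnn, ?_, ?_, ?_, ?_⟩
  · rw [L1_norm, L1_norm]
    exact (L1_summable c').tsum_le_tsum hle (L1_summable c)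
  · have := hN (N + 1) (by omega)
    rw [dist_comm, dist_eq_norm, ← hc'] at this
    exact this.le
  · intro x y
    unfold kC
    refine tsum_eq_sum (fun k hk => ?_)
    rw [hcoord, if_neg (fun h => hk (Finset.mem_range.mpr h)), zero_mul]
  · have h1 : ∑ k ∈ Finset.range (N + 1), c' k ≤ ∑ k ∈ Finset.range (N + 1), |c k| :=
      Finset.sum_le_sum (fun k _ => (le_abs_self _).trans (hle k))
    refine h1.trans ?_
    rw [L1_norm]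
    exact (L1_summable c).sum_le_tsum _ (fun k _ => abs_nonneg _)

lemma lim_far {m0 K : ℕ} (hm0 : 1 ≤ m0) (hK : 0 < K) {δ : ℝ} (hδ : 0 < δ) :
    ∀ᶠ ℓ : ℝ in atTop, 324 * ℓ ^ 3 * Real.exp (-(ℓ / K) ^ 2 / (4 * (m0:ℝ))) ≤ δ := by
  have hm : (0:ℝ) < m0 := by exact_mod_cast hm0
  have hKr : (0:ℝ) < K := by exact_mod_cast hK
  obtain ⟨α, hα⟩ : ∃ α : ℝ, α = 1 / (K ^ 2 * (4 * m0)) := ⟨_, rfl⟩
  have hαpos : 0 < α := by rw [hα]; positivity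
  have e : ∀ ℓ : ℝ, -(ℓ / K) ^ 2 / (4 * (m0:ℝ)) = -(α * ℓ ^ 2) := by
    intro ℓ
    rw [hα]
    field_simp
  have h1 : Tendsto (fun ℓ : ℝ => α * ℓ ^ 2) atTop atTop :=
    (tendsto_pow_atTop (by norm_num)).const_mul_atTop hαpos
  have h2 := (Real.tendsto_pow_mul_exp_neg_atTop_nhds_zero 2).comp h1
  have h3 : Tendsto (fun ℓ : ℝ => 324 * (α ^ 2)⁻¹ * ((α * ℓ ^ 2) ^ 2 * Real.exp (-(α * ℓ ^ 2)))) atTop (𝓝 (324 * (α ^ 2)⁻¹ * 0)) :=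
    h2.const_mul _
  rw [mul_zero] at h3
  filter_upwards [h3.eventually (gt_mem_nhds hδ), eventually_ge_atTop 1] with ℓ hℓ hℓ1
  rw [e]
  refine le_trans ?_ hℓ.le
  have hexp := Real.exp_pos (-(α * ℓ ^ 2))
  have e2 : 324 * (α ^ 2)⁻¹ * ((α * ℓ ^ 2) ^ 2 * Real.exp (-(α * ℓ ^ 2))) =
      324 * ℓ ^ 4 * Real.exp (-(α * ℓ ^ 2)) := by
    field_simp
  rw [e2]
  have h4 : ℓ ^ 3 ≤ ℓ ^ 4 := pow_le_pow_right₀ hℓ1 (by norm_num)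
  gcongr

lemma lim_q {δ : ℝ} (hδ : 0 < δ) : ∀ᶠ ℓ : ℝ in atTop, (1 + r0 / ℓ) ^ 3 ≤ 1 + δ := by
  have h1 : Tendsto (fun ℓ : ℝ => (1 + r0 / ℓ) ^ 3) atTop (𝓝 ((1 + 0) ^ 3)) :=
    (tendsto_const_nhds.add (tendsto_const_nhds.div_atTop tendsto_id)).pow 3
  have e : ((1:ℝ) + 0) ^ 3 = 1 := by norm_num
  rw [e] at h1
  exact (h1.eventually (gt_mem_nhds (by linarith))).mono (fun _ h => h.le)

lemma lim_log {Q δ : ℝ} (hQ : 0 < Q) (hδ : 0 < δ) :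
    ∀ᶠ ℓ : ℝ in atTop, Real.log (1 + ℓ ^ 3 / Q) / ℓ ^ 3 ≤ δ := by
  have h1 : Tendsto (fun ℓ : ℝ => 1 + ℓ ^ 3 / Q) atTop atTop :=
    tendsto_atTop_add_const_left _ _ ((tendsto_pow_atTop (by norm_num)).atTop_div_const hQ)
  have h2 := (Real.tendsto_pow_log_div_mul_add_atTop Q (-Q) 1 hQ.ne').comp h1
  filter_upwards [h2.eventually (gt_mem_nhds hδ), eventually_gt_atTop 0] with ℓ hℓ hℓ0
  simp only [Function.comp, pow_one] at hℓ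
  have e : Q * (1 + ℓ ^ 3 / Q) + -Q = ℓ ^ 3 := by
    field_simp
    ring
  rw [e] at hℓ
  exact hℓ.le

lemma lim_C1 {ℓ t δ : ℝ} (hℓ : 0 < ℓ) (ht : 0 ≤ t) (hδ : 0 < δ) :
    ∀ᶠ m : ℕ in atTop, t * C1 ((m:ℝ) + 1) ℓ ^ 3 ≤ (t + δ) / ℓ ^ 3 := by
  have h1 : Tendsto (fun m : ℕ => (m:ℝ) + 1) atTop atTop :=
    tendsto_atTop_add_const_right _ _ tendsto_natCast_atTop_atTop
  have h2 : Tendsto (fun m : ℕ => 2 * π * ((m:ℝ) + 1)) atTop atTop :=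
    h1.const_mul_atTop (by positivity)
  have h3 : Tendsto (fun m : ℕ => √(2 * π * ((m:ℝ) + 1))) atTop atTop :=
    Real.tendsto_sqrt_atTop.comp h2
  have h4 : Tendsto (fun m : ℕ => (√(2 * π * ((m:ℝ) + 1)))⁻¹) atTop (𝓝 0) :=
    tendsto_inv_atTop_zero.comp h3
  have h5 : Tendsto (fun m : ℕ => t * (3 * (√(2 * π * ((m:ℝ) + 1)))⁻¹ + 1 / ℓ) ^ 3) atTop
      (𝓝 (t * (3 * 0 + 1 / ℓ) ^ 3)) :=
    (((h4.const_mul 3).add_const _).pow 3).const_mul t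
  have e : t * (3 * 0 + 1 / ℓ) ^ 3 = t / ℓ ^ 3 := by
    field_simp
    ring
  rw [e] at h5
  have hlt : t / ℓ ^ 3 < (t + δ) / ℓ ^ 3 := by
    apply div_lt_div_of_pos_right (by linarith) (by positivity)
  refine (h5.eventually (gt_mem_nhds hlt)).mono (fun m hm => ?_)
  refine le_trans (le_of_eq ?_) hm.le
  unfold C1 g1
  simp

lemma neg_log_geom {q : ℝ} (hq : 0 < q) : -Real.log (1 - Real.exp (-q)) ≤ Real.log (1 + 1 / q) := by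
  have h1 : Real.exp (-q) ≤ 1 / (1 + q) := by
    rw [Real.exp_neg, one_div]
    apply inv_anti₀ (by positivity)
    have := Real.add_one_le_exp q
    linarith
  have h2 : q / (1 + q) ≤ 1 - Real.exp (-q) := by
    have e : q / (1 + q) = 1 - 1 / (1 + q) := by
      field_simp
      ring
    rw [e]
    linarith
  have h3 : 0 < q / (1 + q) := by positivity
  have h4 := Real.log_le_log h3 h2
  have e2 : 1 + 1 / q = (q / (1 + q))⁻¹ := by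
    field_simp
    ring
  rw [e2, Real.log_inv]
  linarith

lemma nat_le_sq (n : ℕ) : (n:ℝ) ≤ (n:ℝ) ^ 2 := by
  rcases Nat.eq_zero_or_pos n with h0 | h0
  · simp [h0]
  · have : (1:ℝ) ≤ n := by exact_mod_cast h0
    nlinarith

/-- The inequality for each term of the sum over `n`. -/
lemma per_n_ineq {c c'' : L1} (hc : c ∈ Dom 4) (hc'' : c'' ∈ Dom 4) {ℓ : ℝ} (hℓ0 : 0 < ℓ)
    {t t'' σ₂ W a B₁ γ' q : ℝ} (ht : 0 < t) (htt : t ≤ t'') (ht5 : t'' ≤ 5)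
    (hW : ∀ b, 0 ≤ b → ff c (a + b) - b ^ 2 / (2 * t) ≤ W) (hW0 : 0 ≤ W) (hσ₂ : 0 ≤ σ₂)
    (hB1 : 1 ≤ B₁) (hC2 : 2 + 4 * Γ₀ * (a + Arep / 2) ^ 2 ≤ B₁ ^ 2 / 20)
    (hγ0 : 0 < γ') (hγ1 : γ' ≤ 1 / 40) (hγ2 : γ' * B₁ ^ 2 ≤ σ₂ / 2)
    (hq1 : 1 ≤ q) (hq2 : q ≤ 2) (hqℓ : (ℓ + r0) ^ 3 = q * ℓ ^ 3)
    (herr : Λ₀ (a + B₁) * ‖c - c''‖ + (q - 1) * (1 + Γ₀ * (|a| + B₁ + Arep / 2) ^ 2) +
      B₁ ^ 2 * (t'' - t) / (2 * t ^ 2) ≤ σ₂ / 2) (n : ℕ) :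
    -(t'' / (2 * ℓ ^ 3)) * (n:ℝ) ^ 2 + (ℓ + r0) ^ 3 * ff c'' (a + 2 * (t'' / (2 * ℓ ^ 3)) * n) ≤
      ℓ ^ 3 * (W + σ₂) - (γ' * t ^ 2 / ℓ ^ 3) * n := by
  have hℓ3 : 0 < ℓ ^ 3 := by positivity
  have ht''pos : 0 < t'' := by linarith
  obtain ⟨κ', hκ'⟩ : ∃ κ', κ' = t'' / (2 * ℓ ^ 3) := ⟨_, rfl⟩
  rw [← hκ']
  have hκ'pos : 0 < κ' := by rw [hκ']; positivity
  have hb : 0 ≤ 2 * κ' * (n:ℝ) := by positivity
  have h1 := bracket hc hc'' ht htt ht5 hq1 hq2 hW hW0 hσ₂ hB1 hC2 hγ0.le hγ1 hγ2 herr hb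
  have h2 : (2 * κ' * (n:ℝ)) ^ 2 / (2 * t'') = κ' * (n:ℝ) ^ 2 / ℓ ^ 3 := by
    rw [hκ']
    field_simp
  rw [h2] at h1
  have h3 := mul_le_mul_of_nonneg_left h1 hℓ3.le
  have h4 : ℓ ^ 3 * (q * ff c'' (a + 2 * κ' * n) - κ' * (n:ℝ) ^ 2 / ℓ ^ 3) =
      -κ' * (n:ℝ) ^ 2 + (ℓ + r0) ^ 3 * ff c'' (a + 2 * κ' * n) := by
    rw [hqℓ]
    field_simp
    ring
  rw [h4] at h3
  refine h3.trans ?_
  have h5 : ℓ ^ 3 * (γ' * (2 * κ' * (n:ℝ)) ^ 2) = γ' * t'' ^ 2 * (n:ℝ) ^ 2 / ℓ ^ 3 := by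
    rw [hκ']
    field_simp
  have h6 : (γ' * t ^ 2 / ℓ ^ 3) * (n:ℝ) ≤ γ' * t'' ^ 2 * (n:ℝ) ^ 2 / ℓ ^ 3 := by
    rw [div_mul_eq_mul_div]
    apply div_le_div_of_nonneg_right _ hℓ3.le
    have h7 := nat_le_sq n
    have h8 : t ^ 2 ≤ t'' ^ 2 := pow_le_pow_left₀ ht.le htt 2
    have h9 : (0:ℝ) ≤ n := Nat.cast_nonneg n
    calc γ' * t ^ 2 * n ≤ γ' * t ^ 2 * (n:ℝ) ^ 2 := mul_le_mul_of_nonneg_left h7 (by positivity)
      _ ≤ γ' * t'' ^ 2 * (n:ℝ) ^ 2 := by gcongr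
  have e : ℓ ^ 3 * (W + σ₂ - γ' * (2 * κ' * ↑n) ^ 2) =
      ℓ ^ 3 * (W + σ₂) - ℓ ^ 3 * (γ' * (2 * κ' * (n:ℝ)) ^ 2) := by ring
  rw [e, h5]
  linarith

/-- The logarithm of the block bound. -/
lemma log_block {A₀ q' ℓ W σ₂ Q : ℝ} (hℓ3 : 0 < ℓ ^ 3) (hq' : 0 < q') (hA₀ : A₀ = ℓ ^ 3 * (W + σ₂))
    (hqQ : 1 / q' = ℓ ^ 3 / Q) (hexp1 : 0 < 1 - Real.exp (-q')) :
    Real.log (Real.exp A₀ * (1 - Real.exp (-q'))⁻¹) / ℓ ^ 3 ≤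
      W + σ₂ + Real.log (1 + ℓ ^ 3 / Q) / ℓ ^ 3 := by
  rw [Real.log_mul (Real.exp_pos _).ne' (inv_pos.mpr hexp1).ne', Real.log_exp, Real.log_inv]
  have h1 := neg_log_geom hq'
  rw [hqQ] at h1
  rw [div_le_iff₀ hℓ3, hA₀]
  have h2 : (W + σ₂ + Real.log (1 + ℓ ^ 3 / Q) / ℓ ^ 3) * ℓ ^ 3 =
      ℓ ^ 3 * (W + σ₂) + Real.log (1 + ℓ ^ 3 / Q) := by
    rw [add_mul, div_mul_cancel₀ _ hℓ3.ne']
    ring
  rw [h2]
  linarith

/-- The bound on the coupling with truncated attraction. -/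
lemma block_final {c c' : L1} (hc : c ∈ Dom 4) {K : ℕ} (hK : 4 ≤ K) {ℓ : ℝ} (hℓ : 1 ≤ ℓ)
    (hc'0 : ∀ k, 0 ≤ c' k) {m0 : ℕ} (hform : ∀ x y, kC c' x y = ∑ k ∈ Finset.range m0, c' k * kG k x y)
    (hsum : ∑ k ∈ Finset.range m0, c' k ≤ 4) {t σ₁ σ₂ W a B₁ γ' : ℝ} (ht : 0 < t) (hσ₁ : 0 < σ₁)
    (ht5 : t + σ₁ ≤ 5) (m : ℕ)
    (hκ : 324 * Real.exp (-(ℓ / K) ^ 2 / (4 * (m0:ℝ))) + t * C1 ((m:ℝ) + 1) ℓ ^ 3 ≤ (t + σ₁) / ℓ ^ 3)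
    (hdom : c' + t • eL m ∈ Dom 4) (hc'' : (1 + 3 / ((K:ℝ) - 3)) • c' ∈ Dom 4)
    (hW : ∀ b, 0 ≤ b → ff c (a + b) - b ^ 2 / (2 * t) ≤ W) (hW0 : 0 ≤ W) (hσ₂ : 0 ≤ σ₂)
    (hB1 : 1 ≤ B₁) (hC2 : 2 + 4 * Γ₀ * (a + Arep / 2) ^ 2 ≤ B₁ ^ 2 / 20)
    (hγ0 : 0 < γ') (hγ1 : γ' ≤ 1 / 40) (hγ2 : γ' * B₁ ^ 2 ≤ σ₂ / 2)
    (hq2 : (1 + r0 / ℓ) ^ 3 ≤ 2)
    (herr : Λ₀ (a + B₁) * ‖c - (1 + 3 / ((K:ℝ) - 3)) • c'‖ + ((1 + r0 / ℓ) ^ 3 - 1) * (1 + Γ₀ * (|a| + B₁ + Arep / 2) ^ 2) +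
      B₁ ^ 2 * (t + σ₁ - t) / (2 * t ^ 2) ≤ σ₂ / 2) :
    ff (c' + t • eL m) a ≤ W + σ₂ + Real.log (1 + ℓ ^ 3 / (γ' * t ^ 2)) / ℓ ^ 3 := by
  have hℓ0 : 0 < ℓ := by linarith
  have hℓ3 : 0 < ℓ ^ 3 := by positivity
  have hr := r0_pos
  have hκ2 : 324 * Real.exp (-(ℓ / K) ^ 2 / (4 * (m0:ℝ))) + t * C1 ((m:ℝ) + 1) ℓ ^ 3 ≤
      2 * ((t + σ₁) / (2 * ℓ ^ 3)) := by
    refine hκ.trans (le_of_eq ?_)
    field_simp
  have hq1 : 1 ≤ (1 + r0 / ℓ) ^ 3 := by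
    have : 1 ≤ 1 + r0 / ℓ := by
      have : 0 < r0 / ℓ := by positivity
      linarith
    exact one_le_pow₀ this
  have hqℓ : (ℓ + r0) ^ 3 = (1 + r0 / ℓ) ^ 3 * ℓ ^ 3 := by
    field_simp
  have hper := per_n_ineq hc hc'' hℓ0 ht (by linarith : t ≤ t + σ₁) ht5 hW hW0 hσ₂ hB1 hC2 hγ0 hγ1 hγ2
    hq1 hq2 hqℓ herr
  have hq'pos : 0 < γ' * t ^ 2 / ℓ ^ 3 := by positivity
  have hS := S_le_geom hc'' ((t + σ₁) / (2 * ℓ ^ 3)) a hℓ0 hq'pos (A₀ := ℓ ^ 3 * (W + σ₂)) hper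
  have hexp1 : 0 < 1 - Real.exp (-(γ' * t ^ 2 / ℓ ^ 3)) := by
    have : Real.exp (-(γ' * t ^ 2 / ℓ ^ 3)) < 1 := by
      rw [Real.exp_lt_one_iff]; linarith
    linarith
  have hexp2 : 1 - Real.exp (-(γ' * t ^ 2 / ℓ ^ 3)) ≤ 1 := by
    have := Real.exp_pos (-(γ' * t ^ 2 / ℓ ^ 3))
    linarith
  have hA₀nn : 0 ≤ ℓ ^ 3 * (W + σ₂) := by positivity
  have hR : 1 ≤ Real.exp (ℓ ^ 3 * (W + σ₂)) * (1 - Real.exp (-(γ' * t ^ 2 / ℓ ^ 3)))⁻¹ := by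
    have h1 : 1 ≤ Real.exp (ℓ ^ 3 * (W + σ₂)) := Real.one_le_exp hA₀nn
    have h2 : 1 ≤ (1 - Real.exp (-(γ' * t ^ 2 / ℓ ^ 3)))⁻¹ := (one_le_inv₀ hexp1).mpr hexp2
    exact one_le_mul_of_one_le_of_one_le h1 h2
  have hb := block_bound hK hℓ hc'0 hform hsum ht.le m hκ2 a hR hS hdom
  refine hb.trans ?_
  exact log_block hℓ3 hq'pos rfl (by field_simp) hexp1

end Vale.Agent.Lib.P171
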