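import Vale.Agent.Lib.P171.LP3

/-!
# The Lebowitz-Penrose bound: choice of the parameters; the data for the abstract theorem
-/

set_option linter.unusedSectionVars false
set_option linter.unusedVariables false
set_option linter.unusedSimpArgs false

namespace Vale.Agent.Lib.P171

open Finset MeasureTheory Filter Topology
open scoped Real ENNReal

lemma lp_core {c c' : L1} (hc : c ∈ Dom 4) {t a W σ : ℝ} (ht : 0 < t) (hct : ‖c‖ + t ≤ 4)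
    (hW : ∀ b, 0 ≤ b → ff c (a + b) - b ^ 2 / (2 * t) ≤ W) (hW0 : 0 ≤ W) (hσ : 0 < σ)
    {B₁ γ' σ₁ : ℝ} (hB1 : 1 ≤ B₁) (hC2 : 2 + 4 * Γ₀ * (a + Arep / 2) ^ 2 ≤ B₁ ^ 2 / 20)
    (hγ0 : 0 < γ') (hγ1 : γ' ≤ 1 / 40) (hγ2 : γ' * B₁ ^ 2 ≤ (σ / 4) / 2)
    (hσ₁ : 0 < σ₁) (ht5 : t + σ₁ ≤ 5) (herr₃ : B₁ ^ 2 * σ₁ / (2 * t ^ 2) ≤ (σ / 4) / 6)
    {K : ℕ} (hK : 4 ≤ K) {m0 : ℕ} (hm0 : 1 ≤ m0) (hc'0 : ∀ k, 0 ≤ c' k)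
    (hform : ∀ x y, kC c' x y = ∑ k ∈ Finset.range m0, c' k * kG k x y)
    (hsum : ∑ k ∈ Finset.range m0, c' k ≤ 4) (hc'norm : ‖c'‖ + t ≤ 4)
    (hc'' : (1 + 3 / ((K:ℝ) - 3)) • c' ∈ Dom 4)
    (herr₁ : Λ₀ (a + B₁) * ‖c - (1 + 3 / ((K:ℝ) - 3)) • c'‖ ≤ (σ / 4) / 6)
    (hlip : Λ₀ a * ‖c - c'‖ ≤ σ / 4) :
    ∃ M : ℕ, ∀ m, M ≤ m → ff (c + t • eL m) a ≤ W + σ := by
  obtain ⟨G₁, hG₁⟩ : ∃ G₁, G₁ = 1 + Γ₀ * (|a| + B₁ + Arep / 2) ^ 2 := ⟨_, rfl⟩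
  have hG₁pos : 0 < G₁ := by
    rw [hG₁]
    have : 0 ≤ Γ₀ := by unfold Γ₀; norm_num
    positivity
  obtain ⟨δq, hδq⟩ : ∃ δq, δq = min 1 ((σ / 4) / 6 / G₁) := ⟨_, rfl⟩
  have hδq0 : 0 < δq := by rw [hδq]; positivity
  have hδq1 : δq ≤ 1 := by rw [hδq]; exact min_le_left _ _
  have hδq2 : δq * G₁ ≤ (σ / 4) / 6 := by
    have : δq ≤ (σ / 4) / 6 / G₁ := by rw [hδq]; exact min_le_right _ _
    rwa [le_div_iff₀ hG₁pos] at this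
  have hK0 : 0 < K := by omega
  have hev := (lim_far hm0 hK0 (half_pos hσ₁)).and ((lim_q hδq0).and
    ((lim_log (Q := γ' * t ^ 2) (by positivity) (by positivity : 0 < σ / 4)).and (eventually_ge_atTop 1)))
  obtain ⟨ℓ, hℓfar, hℓq, hℓlog, hℓ1⟩ := hev.exists
  have hℓ0 : 0 < ℓ := by linarith
  have hℓ3 : 0 < ℓ ^ 3 := by positivity
  obtain ⟨M, hM⟩ := eventually_atTop.mp (lim_C1 hℓ0 ht.le (half_pos hσ₁))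
  refine ⟨M, fun m hm => ?_⟩
  have hC := hM m hm
  have hκ : 324 * Real.exp (-(ℓ / K) ^ 2 / (4 * (m0:ℝ))) + t * C1 ((m:ℝ) + 1) ℓ ^ 3 ≤ (t + σ₁) / ℓ ^ 3 := by
    have h1 : 324 * Real.exp (-(ℓ / K) ^ 2 / (4 * (m0:ℝ))) ≤ (σ₁ / 2) / ℓ ^ 3 := by
      rw [le_div_iff₀ hℓ3]
      calc _ = 324 * ℓ ^ 3 * Real.exp (-(ℓ / K) ^ 2 / (4 * (m0:ℝ))) := by ring
        _ ≤ _ := hℓfar
    have e : (t + σ₁) / ℓ ^ 3 = (σ₁ / 2) / ℓ ^ 3 + (t + σ₁ / 2) / ℓ ^ 3 := by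
      field_simp
      ring
    rw [e]
    linarith
  have hdom : c' + t • eL m ∈ Dom 4 := add_smul_mem_Dom hc'0 ht.le hc'norm m
  have hdom2 : c + t • eL m ∈ Dom 4 := add_smul_mem_Dom hc.1 ht.le hct m
  have herr : Λ₀ (a + B₁) * ‖c - (1 + 3 / ((K:ℝ) - 3)) • c'‖ + ((1 + r0 / ℓ) ^ 3 - 1) * (1 + Γ₀ * (|a| + B₁ + Arep / 2) ^ 2) +
      B₁ ^ 2 * (t + σ₁ - t) / (2 * t ^ 2) ≤ (σ / 4) / 2 := by
    rw [← hG₁]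
    have e : t + σ₁ - t = σ₁ := by ring
    rw [e]
    have h2 : ((1 + r0 / ℓ) ^ 3 - 1) * G₁ ≤ δq * G₁ :=
      mul_le_mul_of_nonneg_right (by linarith) hG₁pos.le
    linarith
  have hb := block_final hc (K := K) hK hℓ1 hc'0 hform hsum ht hσ₁ ht5 m hκ hdom hc'' hW hW0
    (by positivity : 0 ≤ σ / 4) hB1 hC2 hγ0 hγ1 hγ2 (by linarith) herr
  have hl := ff_lip hdom2 hdom a
  have e2 : c + t • eL m - (c' + t • eL m) = c - c' := by abel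
  rw [e2] at hl
  linarith

lemma param_B1 (a : ℝ) : ∃ B₁ : ℝ, 1 ≤ B₁ ∧ 2 + 4 * Γ₀ * (a + Arep / 2) ^ 2 ≤ B₁ ^ 2 / 20 := by
  obtain ⟨X, hX⟩ : ∃ X, X = 2 + 4 * Γ₀ * (a + Arep / 2) ^ 2 := ⟨_, rfl⟩
  have hX2 : 2 ≤ X := by
    rw [hX]
    have : 0 ≤ Γ₀ := by unfold Γ₀; norm_num
    have h1 : 0 ≤ 4 * Γ₀ * (a + Arep / 2) ^ 2 := by positivity
    linarith
  refine ⟨1 + 20 * X, by linarith, ?_⟩
  rw [← hX]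
  nlinarith

lemma param_γ {σ₂ : ℝ} (hσ : 0 < σ₂) (B₁ : ℝ) :
    ∃ γ' : ℝ, 0 < γ' ∧ γ' ≤ 1 / 40 ∧ γ' * B₁ ^ 2 ≤ σ₂ / 2 := by
  refine ⟨min (1 / 40) (σ₂ / 2 / (B₁ ^ 2 + 1)), by positivity, min_le_left _ _, ?_⟩
  have h1 : min (1 / 40) (σ₂ / 2 / (B₁ ^ 2 + 1)) ≤ σ₂ / 2 / (B₁ ^ 2 + 1) := min_le_right _ _
  rw [le_div_iff₀ (by positivity)] at h1
  have h2 : 0 < min (1 / 40) (σ₂ / 2 / (B₁ ^ 2 + 1)) := by positivity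
  nlinarith

lemma param_σ₁ {t σ₂ : ℝ} (ht : 0 < t) (hσ : 0 < σ₂) (B₁ : ℝ) :
    ∃ σ₁ : ℝ, 0 < σ₁ ∧ σ₁ ≤ 1 ∧ B₁ ^ 2 * σ₁ / (2 * t ^ 2) ≤ σ₂ / 6 := by
  refine ⟨min 1 (2 * t ^ 2 * (σ₂ / 6) / (B₁ ^ 2 + 1)), by positivity, min_le_left _ _, ?_⟩
  have h1 : min 1 (2 * t ^ 2 * (σ₂ / 6) / (B₁ ^ 2 + 1)) ≤ 2 * t ^ 2 * (σ₂ / 6) / (B₁ ^ 2 + 1) :=
    min_le_right _ _
  have h2 : 0 < min 1 (2 * t ^ 2 * (σ₂ / 6) / (B₁ ^ 2 + 1)) := by positivity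
  rw [le_div_iff₀ (by positivity)] at h1
  rw [div_le_iff₀ (by positivity)]
  nlinarith

lemma param_K {θm : ℝ} (hθm : 0 < θm) :
    ∃ K : ℕ, 4 ≤ K ∧ 0 < 3 / ((K:ℝ) - 3) ∧ 3 / ((K:ℝ) - 3) ≤ θm := by
  refine ⟨⌈3 / θm⌉₊ + 4, by omega, ?_, ?_⟩
  all_goals
    have hKr : 3 / θm + 4 ≤ ((⌈3 / θm⌉₊ + 4 : ℕ) : ℝ) := by
      push_cast
      have := Nat.le_ceil (3 / θm)
      linarith
    have h0 : 0 < 3 / θm := by positivity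
    have hK3 : 0 < ((⌈3 / θm⌉₊ + 4 : ℕ) : ℝ) - 3 := by linarith
  · positivity
  · rw [div_le_iff₀ hK3]
    have h1 : 3 / θm ≤ ((⌈3 / θm⌉₊ + 4 : ℕ) : ℝ) - 3 := by linarith
    rw [div_le_iff₀ hθm] at h1
    linarith

lemma param_c'' {c c' : L1} {θ t η₂ η : ℝ} (hc4 : ‖c‖ ≤ 4) (hct : ‖c‖ + t ≤ 4) (hθpos : 0 < θ)
    (hθ1 : θ ≤ η₂ / 8) (hθ2 : θ ≤ t / 4) (hc'0 : ∀ k, 0 ≤ c' k) (hc'norm : ‖c'‖ ≤ ‖c‖)
    (hdist : ‖c - c'‖ ≤ η) (hη : η ≤ η₂ / 2) :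
    (1 + θ) • c' ∈ Dom 4 ∧ ‖c - (1 + θ) • c'‖ ≤ η₂ := by
  constructor
  · refine ⟨fun k => ?_, ?_⟩
    · rw [lp.coeFn_smul]
      simp only [Pi.smul_apply, smul_eq_mul]
      exact mul_nonneg (by linarith) (hc'0 k)
    · rw [norm_smul, Real.norm_of_nonneg (by linarith)]
      have h1 : (1 + θ) * ‖c'‖ ≤ (1 + θ) * ‖c‖ := mul_le_mul_of_nonneg_left hc'norm (by linarith)
      nlinarith [norm_nonneg c]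
  · have e : c - (1 + θ) • c' = (c - c') - θ • c' := by
      rw [add_smul, one_smul]
      abel
    rw [e]
    have h1 : ‖(c - c') - θ • c'‖ ≤ ‖c - c'‖ + ‖θ • c'‖ := norm_sub_le _ _
    have h2 : ‖θ • c'‖ = θ * ‖c'‖ := by
      rw [norm_smul, Real.norm_of_nonneg hθpos.le]
    have h3 : θ * ‖c'‖ ≤ θ * 4 := mul_le_mul_of_nonneg_left (hc'norm.trans hc4) hθpos.le
    linarith

/-- The Lebowitz-Penrose upper bound. -/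
theorem lp_upper {c : L1} (hc : c ∈ Dom 4) {t : ℝ} (ht : 0 < t) (hct : ‖c‖ + t ≤ 4) {a W : ℝ}
    (hW : ∀ b, 0 ≤ b → ff c (a + b) - b ^ 2 / (2 * t) ≤ W) {σ : ℝ} (hσ : 0 < σ) :
    ∃ M : ℕ, ∀ m, M ≤ m → ff (c + t • eL m) a ≤ W + σ := by
  have hW0 : 0 ≤ W := by
    have h1 := hW 0 (le_refl _)
    have h2 := ff_nonneg hc (a + 0)
    simp only [add_zero, ne_eq, OfNat.ofNat_ne_zero, not_false_eq_true, zero_pow, zero_div, sub_zero] at h1 h2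
    linarith
  have hnormc : 0 ≤ ‖c‖ := norm_nonneg c
  have ht4 : t ≤ 4 := by linarith
  have hc4 : ‖c‖ ≤ 4 := hc.2
  have hσ₂pos : 0 < σ / 4 := by positivity
  obtain ⟨B₁, hB1, hC2⟩ := param_B1 a
  have hΛ₁pos : 0 < Λ₀ (a + B₁) := Real.exp_pos _
  have hΛapos : 0 < Λ₀ a := Real.exp_pos _
  obtain ⟨γ', hγ0, hγ1, hγ2⟩ := param_γ hσ₂pos B₁
  obtain ⟨σ₁, hσ₁pos, hσ₁1, herr₃⟩ := param_σ₁ ht hσ₂pos B₁
  obtain ⟨η₂, hη₂⟩ : ∃ η₂, η₂ = (σ / 4) / 6 / Λ₀ (a + B₁) := ⟨_, rfl⟩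
  have hη₂pos : 0 < η₂ := by rw [hη₂]; positivity
  have hΛη₂ : Λ₀ (a + B₁) * η₂ = (σ / 4) / 6 := by rw [hη₂]; field_simp
  obtain ⟨η, hη⟩ : ∃ η, η = min (η₂ / 2) (σ / 4 / Λ₀ a) := ⟨_, rfl⟩
  have hηpos : 0 < η := by rw [hη]; positivity
  have hη1 : η ≤ η₂ / 2 := by rw [hη]; exact min_le_left _ _
  have hη2 : Λ₀ a * η ≤ σ / 4 := by
    have h1 : η ≤ σ / 4 / Λ₀ a := by rw [hη]; exact min_le_right _ _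
    rw [le_div_iff₀ hΛapos] at h1
    linarith
  obtain ⟨θm, hθm⟩ : ∃ θm, θm = min (η₂ / 8) (t / 4) := ⟨_, rfl⟩
  have hθmpos : 0 < θm := by rw [hθm]; positivity
  have hθm1 : θm ≤ η₂ / 8 := by rw [hθm]; exact min_le_left _ _
  have hθm2 : θm ≤ t / 4 := by rw [hθm]; exact min_le_right _ _
  obtain ⟨K, hK4, hθpos, hθle⟩ := param_K hθmpos
  obtain ⟨m0, c', hm0, hc'0, hc'norm, hc'dist, hform, hsum⟩ := trunc_exists hc.1 hηpos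
  obtain ⟨hc''dom, hc''dist⟩ := param_c'' hc4 hct hθpos (hθle.trans hθm1) (hθle.trans hθm2) hc'0 hc'norm
    hc'dist hη1
  have hlip : Λ₀ a * ‖c - c'‖ ≤ σ / 4 :=
    (mul_le_mul_of_nonneg_left hc'dist hΛapos.le).trans hη2
  have herr₁ : Λ₀ (a + B₁) * ‖c - (1 + 3 / ((K:ℝ) - 3)) • c'‖ ≤ (σ / 4) / 6 := by
    rw [← hΛη₂]
    exact mul_le_mul_of_nonneg_left hc''dist hΛ₁pos.le
  exact lp_core hc ht hct hW hW0 hσ hB1 hC2 hγ0 hγ1 hγ2 hσ₁pos (by linarith) herr₃ hK4 hm0 hc'0 hform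
    (hsum.trans hc4) (by linarith) hc''dom herr₁ hlip

/-- The data of the abstract theorem. -/
theorem pdata : PData ff τ₀ Λ₀ Γ₀ (Arep / 2) where
  tangent := fun c hc a => tangent_limit hc a
  Λmono := Λ₀_mono
  τnonneg := fun m => (τ₀_pos m).le
  τlim := τ₀_tendsto
  upper := fun c hc t ht hct a W hW σ hσ => lp_upper hc ht hct hW hσ
  nonneg := fun c hc a => ff_nonneg hc a
  growth := fun c hc a => ff_le_growth hc a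
  Γnonneg := by unfold Γ₀; norm_num
  Γlt := by unfold Γ₀; norm_num
  chord := ff_chord

/-- The pressure has a kink for some coupling. -/
theorem exists_kink : ∃ c ∈ Dom 3, ∃ a, ¬ DifferentiableAt ℝ (ff c) a :=
  abstract_kink pdata

end Vale.Agent.Lib.P171
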