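import Vale.Agent.Lib.P171.LP4

/-!
# The link between configuration integrals and integrals over cubes
-/

set_option linter.unusedSectionVars false
set_option linter.unusedVariables false
set_option linter.unusedSimpArgs false

namespace Vale.Agent.Lib.P171

open Finset MeasureTheory Filter Topology
open scoped Real ENNReal

lemma pi_μL (L : ℝ) (N : ℕ) :
    Measure.pi (fun _ : Fin N => μL L) =
      (volume : Measure (Fin N → E)).restrict (Set.pi Set.univ (fun _ : Fin N => box L)) := by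
  rw [volume_pi, Measure.restrict_pi_pi]

lemma En_ofFn (c : L1) {N : ℕ} (x : Fin N → E) :
    En c (List.ofFn x) = ∑ i, ∑ j ∈ Finset.Ioi i, φc c (dist3 (x i) (x j)) :=
  pairSum_ofFn (kφ c) x

lemma It_ne_top {c : L1} (hc : c ∈ Dom 4) (a : ℝ) {L : ℝ} (hL : 0 ≤ L) (N : ℕ) :
    It (μL L) N (Wt c a) ≠ ⊤ := by
  have h1 := Cfg_term_le (μL L) (Wt c a) N
  have h2 : ((N.factorial : ℝ≥0∞))⁻¹ * It (μL L) N (Wt c a) ≠ ⊤ :=
    ne_top_of_le_ne_top (XI_ne_top hc a hL) h1
  have hN : ((N.factorial : ℝ≥0∞))⁻¹ ≠ 0 := by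
    simp [ENNReal.inv_eq_zero]
  intro htop
  rw [htop, ENNReal.mul_top hN] at h2
  exact h2 rfl

/-- The weight on a product of cubes is integrable, and its integral is the term of the series. -/
lemma term_integral {c : L1} (hc : c ∈ Dom 4) (a : ℝ) {L : ℝ} (hL : 0 ≤ L) (N : ℕ) :
    IntegrableOn (fun x : Fin N → E => Real.exp (a * N - En c (List.ofFn x)))
        (Set.pi Set.univ (fun _ : Fin N => box L)) ∧
      ∫ x in Set.pi Set.univ (fun _ : Fin N => box L), Real.exp (a * N - En c (List.ofFn x)) =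
        (It (μL L) N (Wt c a)).toReal := by
  have hIt := It_pi (μL L) N (Wt_LMeas c a)
  rw [pi_μL] at hIt
  have hm : Measurable (fun x : Fin N → E => Real.exp (a * N - En c (List.ofFn x))) := by
    have := RMeas_wt c a N
    simpa only [List.length_ofFn] using this
  have e : ∀ x : Fin N → E, Wt c a (List.ofFn x) =
      ENNReal.ofReal (Real.exp (a * N - En c (List.ofFn x))) := by
    intro x
    rw [Wt_eq, List.length_ofFn]
  simp_rw [e] at hIt
  constructor
  · refine (lintegral_ofReal_ne_top_iff_integrable hm.aestronglyMeasurable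
      (Eventually.of_forall (fun x => (Real.exp_pos _).le))).mp ?_
    rw [← hIt]
    exact It_ne_top hc a hL N
  · rw [integral_eq_lintegral_of_nonneg_ae (Eventually.of_forall (fun x => (Real.exp_pos _).le))
      hm.aestronglyMeasurable, ← hIt]

/-- The partition function as a series of real numbers. -/
lemma XI_hasSum {c : L1} (hc : c ∈ Dom 4) (a : ℝ) {L : ℝ} (hL : 0 ≤ L) :
    HasSum (fun N : ℕ => (N.factorial : ℝ)⁻¹ * (It (μL L) N (Wt c a)).toReal) (XI c a L).toReal := by
  have hfin := XI_ne_top hc a hL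
  have hterm : ∀ N : ℕ, ((N.factorial : ℝ≥0∞))⁻¹ * It (μL L) N (Wt c a) ≠ ⊤ := fun N =>
    ne_top_of_le_ne_top hfin (Cfg_term_le (μL L) (Wt c a) N)
  have hsum := ENNReal.summable_toReal hfin
  have e : (XI c a L).toReal = ∑' N : ℕ, (((N.factorial : ℝ≥0∞))⁻¹ * It (μL L) N (Wt c a)).toReal := by
    unfold XI Cfg
    exact ENNReal.tsum_toReal_eq hterm
  have h2 := hsum.hasSum
  rw [← e] at h2
  have e3 : (fun N : ℕ => (((N.factorial : ℝ≥0∞))⁻¹ * It (μL L) N (Wt c a)).toReal) =
      fun N : ℕ => (N.factorial : ℝ)⁻¹ * (It (μL L) N (Wt c a)).toReal := by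
    funext N
    rw [ENNReal.toReal_mul, ENNReal.toReal_inv, ENNReal.toReal_natCast]
  rwa [e3] at h2


/-! ### Properties of the potentials -/

lemma γ_nonneg {s : ℝ} (hs : 0 < s) (r : ℝ) : 0 ≤ γ s r := (γ_pos hs r).le

lemma continuous_attr (c : L1) : Continuous (fun r : ℝ => ∑' k : ℕ, c k * γ ((k:ℝ) + 1) r) := by
  refine continuous_tsum (u := fun k => |c k|) (fun k => continuous_const.mul (continuous_γ _))
    (L1_summable c) (fun k r => ?_)
  rw [Real.norm_eq_abs, abs_mul, abs_of_nonneg (γ_nonneg (sk_pos k) r)]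
  have := γ_le_one (sk_ge_one k) r
  have h0 := abs_nonneg (c k)
  nlinarith

lemma measurable_φc (c : L1) : Measurable (φc c) := by
  unfold φc
  refine Measurable.sub ?_ (continuous_attr c).measurable
  exact Measurable.ite measurableSet_Iio measurable_const measurable_const

lemma abs_φc_le (c : L1) (r : ℝ) : |φc c r| ≤ Arep + ‖c‖ := by
  unfold φc
  have h1 : |(if r < r0 then Arep else 0)| ≤ Arep := by
    split_ifs
    · rw [abs_of_pos Arep_pos]
    · simpa using Arep_pos.le
  have h2 : |∑' k : ℕ, c k * γ ((k:ℝ) + 1) r| ≤ ‖c‖ * 1 :=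
    abs_tsum_mul_le c (fun k => by
      rw [abs_of_nonneg (γ_nonneg (sk_pos k) r)]
      exact γ_le_one (sk_ge_one k) r)
  calc _ ≤ |(if r < r0 then Arep else 0)| + |∑' k : ℕ, c k * γ ((k:ℝ) + 1) r| := abs_sub _ _
    _ ≤ _ := by linarith

lemma φc_nonpos_far {c : L1} (hc : ∀ k, 0 ≤ c k) {r : ℝ} (hr : r0 ≤ r) : φc c r ≤ 0 := by
  unfold φc
  rw [if_neg (not_lt.mpr hr), zero_sub, neg_nonpos]
  exact tsum_nonneg (fun k => mul_nonneg (hc k) (γ_nonneg (sk_pos k) r))

lemma En_stable {c : L1} (hc : c ∈ Dom 4) (l : List E) : -(Arep / 2) * l.length ≤ En c l := by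
  have h1 := En_ge hc l
  have h2 : 0 ≤ A2 / 2 * D0 l := mul_nonneg (by have := A2_pos; positivity) (D0_nonneg l)
  linarith

end Vale.Agent.Lib.P171
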