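import Vale.Agent.Lib.P171.Energy

/-!
# The pressure
-/

set_option linter.unusedSectionVars false
set_option linter.unusedVariables false
set_option linter.unusedSimpArgs false

namespace Vale.Agent.Lib.P171

open Finset MeasureTheory Filter Topology
open scoped Real ENNReal

/-- The cube of side `L`. -/
def box (L : ℝ) : Set E := {x | ∀ j, 0 ≤ x j ∧ x j ≤ L}

lemma box_eq_Icc (L : ℝ) : box L = Set.Icc (fun _ => 0) (fun _ => L) := by
  ext x
  simp only [box, Set.mem_setOf_eq, Set.mem_Icc, Pi.le_def]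
  exact ⟨fun h => ⟨fun j => (h j).1, fun j => (h j).2⟩, fun h j => ⟨h.1 j, h.2 j⟩⟩

lemma measurableSet_box (L : ℝ) : MeasurableSet (box L) := by
  rw [box_eq_Icc]; exact measurableSet_Icc

lemma volume_box {L : ℝ} (hL : 0 ≤ L) : volume (box L) = ENNReal.ofReal (L ^ 3) := by
  rw [box_eq_Icc, Real.volume_Icc_pi]
  simp [Fin.prod_univ_three, ENNReal.ofReal_pow hL]

lemma box_mono {L L' : ℝ} (h : L ≤ L') : box L ⊆ box L' := fun x hx j =>
  ⟨(hx j).1, (hx j).2.trans h⟩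

/-- Lebesgue measure on the cube. -/
noncomputable abbrev μL (L : ℝ) : Measure E := volume.restrict (box L)

instance (L : ℝ) : IsFiniteMeasure (volume.restrict (box L)) := by
  refine ⟨?_⟩
  rw [Measure.restrict_apply_univ, box_eq_Icc]
  exact isCompact_Icc.measure_lt_top

/-- Measurable kernels. -/
def MK (v : E → E → ℝ) : Prop := Measurable (fun p : E × E => v p.1 p.2)

/-- The Boltzmann weight with pair kernel `v` and one-body weight `b`. -/
noncomputable def Wk (v : E → E → ℝ) (b : ℝ) (l : List E) : ℝ≥0∞ :=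
  ENNReal.ofReal (Real.exp (b * l.length + pairSum v l))

lemma Wk_nil (v : E → E → ℝ) (b : ℝ) : Wk v b [] = 1 := by
  simp [Wk]

lemma Wk_LMeas {v : E → E → ℝ} (hv : MK v) (b : ℝ) : LMeas (Wk v b) := by
  intro n
  unfold Wk
  simp only [List.length_ofFn, pairSum_ofFn]
  refine ENNReal.measurable_ofReal.comp (Real.measurable_exp.comp ?_)
  refine measurable_const.add (Finset.measurable_sum _ (fun i _ => Finset.measurable_sum _ (fun j _ => ?_)))
  exact Measurable.comp (g := fun p : E × E => v p.1 p.2) (f := fun x : Fin n → E => (x i, x j)) hv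
    ((measurable_pi_apply i).prodMk (measurable_pi_apply j))

lemma Wk_PermInv {v : E → E → ℝ} (hv : SymK v) (b : ℝ) : PermInv (Wk v b) := by
  intro l l' h
  unfold Wk
  rw [pairSum_perm hv h, h.length_eq]

lemma Wk_append (v : E → E → ℝ) (b : ℝ) (X Y : List E) :
    Wk v b (X ++ Y) = Wk v b X * Wk v b Y * ENNReal.ofReal (Real.exp (crossSum v X Y)) := by
  unfold Wk
  rw [← ENNReal.ofReal_mul (Real.exp_pos _).le, ← ENNReal.ofReal_mul (by positivity)]
  congr 1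
  rw [← Real.exp_add, ← Real.exp_add, pairSum_append, List.length_append]
  congr 1
  push_cast
  ring

lemma Wk_append_le {v : E → E → ℝ} {b : ℝ} {X Y : List E} (h : crossSum v X Y ≤ 0) :
    Wk v b (X ++ Y) ≤ Wk v b X * Wk v b Y := by
  rw [Wk_append]
  calc _ ≤ Wk v b X * Wk v b Y * 1 := by
        gcongr
        rw [← ENNReal.ofReal_one]
        exact ENNReal.ofReal_le_ofReal (Real.exp_le_one_iff.mpr h)
    _ = _ := mul_one _

lemma Wk_append_ge {v : E → E → ℝ} {b : ℝ} {X Y : List E} (h : 0 ≤ crossSum v X Y) :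
    Wk v b X * Wk v b Y ≤ Wk v b (X ++ Y) := by
  rw [Wk_append]
  calc _ = Wk v b X * Wk v b Y * 1 := (mul_one _).symm
    _ ≤ _ := by
        gcongr
        rw [← ENNReal.ofReal_one]
        exact ENNReal.ofReal_le_ofReal (Real.one_le_exp h)

lemma pairSum_map_inv {v : E → E → ℝ} {τ : E → E} (h : ∀ x y, v (τ x) (τ y) = v x y) (l : List E) :
    pairSum v (l.map τ) = pairSum v l := by
  induction l with
  | nil => rfl
  | cons x l ih =>
    simp only [List.map_cons, pairSum_cons, ih, List.map_map]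
    congr 2
    exact List.map_congr_left (fun y _ => h x y)

lemma Wk_map_inv {v : E → E → ℝ} {τ : E → E} (h : ∀ x y, v (τ x) (τ y) = v x y) (b : ℝ) (l : List E) :
    Wk v b (l.map τ) = Wk v b l := by
  unfold Wk
  rw [pairSum_map_inv h, List.length_map]

/-- Translation invariance of configuration integrals. -/
lemma Cfg_translate {v : E → E → ℝ} (hv : MK v) (b : ℝ) (u : E)
    (hinv : ∀ x y, v (x + u) (y + u) = v x y) {R : Set E} (hR : MeasurableSet R) :
    Cfg (volume.restrict ((fun x => x + u) ⁻¹' R)) (Wk v b) = Cfg (volume.restrict R) (Wk v b) := by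
  have hmp : MeasurePreserving (fun x : E => x + u) volume volume := measurePreserving_add_right volume u
  have h1 := (hmp.restrict_preimage hR).map_eq
  rw [← h1, Cfg_map _ hmp.measurable (Wk_LMeas hv b)]
  congr 1
  funext l
  exact (Wk_map_inv hinv b l).symm

lemma Cfg_const_mul (μ : Measure E) [SFinite μ] (C : ℝ≥0∞) {G : List E → ℝ≥0∞} (hG : LMeas G) :
    Cfg μ (fun l => C * G l) = C * Cfg μ G := by
  unfold Cfg
  rw [← ENNReal.tsum_mul_left]
  refine tsum_congr (fun n => ?_)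
  rw [It_const_mul μ C n hG]
  ring

lemma Cfg_one (μ : Measure E) [SFinite μ] (hμ : μ Set.univ ≠ ⊤) :
    Cfg μ (fun _ => 1) = ENNReal.ofReal (Real.exp (μ Set.univ).toReal) := by
  have h := Cfg_exp_card μ 0 hμ
  simpa using h

/-! ### Measurability of the kernels -/

lemma continuous_dist3 : Continuous (fun p : E × E => dist3 p.1 p.2) := by
  unfold dist3
  fun_prop

lemma continuous_γ (s : ℝ) : Continuous (γ s) := by
  unfold γ
  fun_prop

lemma continuous_kG (k : ℕ) : Continuous (fun p : E × E => kG k p.1 p.2) :=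
  (continuous_γ _).comp continuous_dist3

lemma continuous_kC (b : L1) : Continuous (fun p : E × E => kC b p.1 p.2) := by
  unfold kC
  refine continuous_tsum (u := fun k => |b k|) (fun k => continuous_const.mul (continuous_kG k))
    (L1_summable b) (fun k p => ?_)
  rw [Real.norm_eq_abs, abs_mul, abs_of_nonneg (kG_nonneg k _ _)]
  have := kG_le_one k p.1 p.2
  have h0 := abs_nonneg (b k)
  nlinarith

lemma MK_kC (b : L1) : MK (kC b) := (continuous_kC b).measurable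

lemma MK_kRep : MK kRep := by
  unfold MK kRep
  refine Measurable.ite ?_ measurable_const measurable_const
  exact measurableSet_lt continuous_dist3.measurable measurable_const

lemma MK_kφ (c : L1) : MK (kφ c) := MK_kRep.sub (MK_kC c)

lemma MK.neg {v : E → E → ℝ} (hv : MK v) : MK (fun x y => - v x y) := Measurable.neg hv

lemma MK.add {v v' : E → E → ℝ} (hv : MK v) (hv' : MK v') : MK (fun x y => v x y + v' x y) :=
  Measurable.add hv hv'

lemma MK.const_mul {v : E → E → ℝ} (hv : MK v) (r : ℝ) : MK (fun x y => r * v x y) :=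
  Measurable.const_mul hv r

lemma dist3_add_right (x y u : E) : dist3 (x + u) (y + u) = dist3 x y := by
  unfold dist3
  congr 1
  refine Finset.sum_congr rfl (fun j _ => ?_)
  simp

/-! ### The partition function -/

/-- The negative of the energy kernel. -/
noncomputable def vφ (c : L1) (x y : E) : ℝ := - kφ c x y

lemma MK_vφ (c : L1) : MK (vφ c) := (MK_kφ c).neg

lemma vφ_sym (c : L1) : SymK (vφ c) := fun x y => by
  unfold vφ; rw [kφ_sym c x y]

lemma vφ_translate (c : L1) (u x y : E) : vφ c (x + u) (y + u) = vφ c x y := by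
  unfold vφ kφ
  rw [dist3_add_right]

lemma pairSum_vφ (c : L1) (l : List E) : pairSum (vφ c) l = - En c l := by
  unfold En vφ
  exact pairSum_neg _ _

/-- The Boltzmann weight of a list in the model with coupling `c` and log-activity `a`. -/
noncomputable def Wt (c : L1) (a : ℝ) : List E → ℝ≥0∞ := Wk (vφ c) a

lemma Wt_eq (c : L1) (a : ℝ) (l : List E) :
    Wt c a l = ENNReal.ofReal (Real.exp (a * l.length - En c l)) := by
  unfold Wt Wk
  rw [pairSum_vφ]
  rfl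

lemma Wt_LMeas (c : L1) (a : ℝ) : LMeas (Wt c a) := Wk_LMeas (MK_vφ c) a

lemma Wt_PermInv (c : L1) (a : ℝ) : PermInv (Wt c a) := Wk_PermInv (vφ_sym c) a

/-- The grand partition function. -/
noncomputable def XI (c : L1) (a L : ℝ) : ℝ≥0∞ := Cfg (μL L) (Wt c a)

lemma one_le_XI (c : L1) (a L : ℝ) : 1 ≤ XI c a L :=
  one_le_Cfg _ (by unfold Wt; rw [Wk_nil])

/-- The quantity controlling the growth in the log-activity. -/
lemma exponent_le {c : L1} (hc : c ∈ Dom 4) (a : ℝ) {M : ℝ} (hM : 0 < M) (l : List E)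
    (hl : ((cells idx0 l).card : ℝ) ≤ M) :
    a * l.length - En c l ≤ M * (a + Arep / 2) ^ 2 / (2 * A2) := by
  have h1 := En_ge hc l
  have h2 := length_sq_le idx0 l
  have hD := D0_nonneg l
  have h3 : (l.length : ℝ) ^ 2 ≤ M * D0 l :=
    h2.trans (mul_le_mul_of_nonneg_right hl hD)
  have hA := A2_pos
  obtain ⟨T, hT⟩ : ∃ T, T = a + Arep / 2 := ⟨_, rfl⟩
  rw [← hT]
  have h4 : T * l.length - A2 / 2 * ((l.length : ℝ) ^ 2 / M) ≤ M * T ^ 2 / (2 * A2) := by
    have h5 : 0 ≤ (M * T - A2 * l.length) ^ 2 / (2 * A2 * M) := by positivity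
    have h6 : (M * T - A2 * l.length) ^ 2 / (2 * A2 * M) =
        M * T ^ 2 / (2 * A2) - (T * l.length - A2 / 2 * ((l.length : ℝ) ^ 2 / M)) := by
      field_simp
      ring
    linarith
  have h7 : (l.length : ℝ) ^ 2 / M ≤ D0 l := by
    rw [div_le_iff₀ hM]; linarith
  have h8 : A2 / 2 * ((l.length : ℝ) ^ 2 / M) ≤ A2 / 2 * D0 l :=
    mul_le_mul_of_nonneg_left h7 (by positivity)
  rw [hT] at h4 ⊢
  nlinarith

/-- Counting the cells met by a list of points of a cube. -/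
lemma idxL_mem_Icc {ℓ o L : ℝ} (hℓ : 0 < ℓ) {x : E} (hx : x ∈ box L) (j : Fin 3) :
    idxL ℓ o x j ∈ Finset.Icc ⌊(0 - o) / ℓ⌋ ⌊(L - o) / ℓ⌋ := by
  simp only [Finset.mem_Icc, idxL]
  constructor
  · apply Int.floor_le_floor
    exact div_le_div_of_nonneg_right (by linarith [(hx j).1]) hℓ.le
  · apply Int.floor_le_floor
    exact div_le_div_of_nonneg_right (by linarith [(hx j).2]) hℓ.le

/-- The finite index set of cells meeting the cube. -/
noncomputable def cubeCells (ℓ o L : ℝ) : Finset (Fin 3 → ℤ) :=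
  Fintype.piFinset (fun _ => Finset.Icc ⌊(0 - o) / ℓ⌋ ⌊(L - o) / ℓ⌋)

lemma cubeCells_card {ℓ o L : ℝ} (hℓ : 0 < ℓ) (hL : 0 ≤ L) :
    ((cubeCells ℓ o L).card : ℝ) ≤ (L / ℓ + 2) ^ 3 := by
  unfold cubeCells
  rw [Fintype.card_piFinset]
  simp only [Finset.prod_const, Finset.card_univ, Fintype.card_fin, Int.card_Icc]
  push_cast
  have h1 : ((⌊(L - o) / ℓ⌋ + 1 - ⌊(0 - o) / ℓ⌋).toNat : ℝ) ≤ L / ℓ + 2 := by
    have hu := Int.floor_le ((L - o) / ℓ)
    have hv := Int.lt_floor_add_one ((0 - o) / ℓ)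
    have hle : ⌊(0 - o) / ℓ⌋ ≤ ⌊(L - o) / ℓ⌋ := by
      apply Int.floor_le_floor
      exact div_le_div_of_nonneg_right (by linarith) hℓ.le
    have hn : 0 ≤ ⌊(L - o) / ℓ⌋ + 1 - ⌊(0 - o) / ℓ⌋ := by omega
    have e1 : (((⌊(L - o) / ℓ⌋ + 1 - ⌊(0 - o) / ℓ⌋).toNat : ℤ) : ℝ) =
        ((⌊(L - o) / ℓ⌋ + 1 - ⌊(0 - o) / ℓ⌋ : ℤ) : ℝ) := by
      rw [Int.toNat_of_nonneg hn]
    have e2 : ((⌊(L - o) / ℓ⌋ + 1 - ⌊(0 - o) / ℓ⌋).toNat : ℝ) =
        (((⌊(L - o) / ℓ⌋ + 1 - ⌊(0 - o) / ℓ⌋).toNat : ℤ) : ℝ) := by push_cast; rfl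
    rw [e2, e1]
    push_cast
    have e3 : (L - o) / ℓ - (0 - o) / ℓ = L / ℓ := by ring
    linarith
  exact pow_le_pow_left₀ (Nat.cast_nonneg _) h1 3

lemma cells_subset_cube {ℓ o L : ℝ} (hℓ : 0 < ℓ) {l : List E} (hl : ∀ x ∈ l, x ∈ box L) :
    cells (idxL ℓ o) l ⊆ cubeCells ℓ o L := by
  intro B hB
  unfold cells at hB
  simp only [List.mem_toFinset, List.mem_map] at hB
  obtain ⟨x, hx, rfl⟩ := hB
  unfold cubeCells
  rw [Fintype.mem_piFinset]
  exact fun j => idxL_mem_Icc hℓ (hl x hx) j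

lemma w0_cube {L : ℝ} (hL : 0 ≤ L) : (L / w0 + 2) ^ 3 = (L + r0) ^ 3 / w0 ^ 3 := by
  unfold r0 w0
  field_simp
  ring

/-- The bound on the weight on a cube. -/
lemma Wt_le_on_box {c : L1} (hc : c ∈ Dom 4) (a : ℝ) {L : ℝ} (hL : 0 ≤ L) (l : List E)
    (hl : ∀ x ∈ l, x ∈ box L) :
    Wt c a l ≤ ENNReal.ofReal (Real.exp ((L / w0 + 2) ^ 3 * (a + Arep / 2) ^ 2 / (2 * A2))) * 1 := by
  rw [Wt_eq, mul_one]
  apply ENNReal.ofReal_le_ofReal
  apply Real.exp_le_exp.mpr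
  refine exponent_le hc a (by have := w0_pos; positivity) l ?_
  have h1 := Finset.card_le_card (cells_subset_cube (o := 0) w0_pos hl)
  have h2 : ((cells idx0 l).card : ℝ) ≤ ((cubeCells w0 0 L).card : ℝ) := by
    exact_mod_cast h1
  exact h2.trans (cubeCells_card w0_pos hL)

lemma μL_univ {L : ℝ} (hL : 0 ≤ L) : (μL L) Set.univ = ENNReal.ofReal (L ^ 3) := by
  unfold μL
  rw [Measure.restrict_apply_univ, volume_box hL]

/-- The upper bound on the partition function. -/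
theorem XI_le {c : L1} (hc : c ∈ Dom 4) (a : ℝ) {L : ℝ} (hL : 0 ≤ L) :
    XI c a L ≤ ENNReal.ofReal (Real.exp ((L / w0 + 2) ^ 3 * (a + Arep / 2) ^ 2 / (2 * A2) + L ^ 3)) := by
  unfold XI μL
  have h1 := Cfg_mono_on volume (measurableSet_box L) (Wt_le_on_box hc a hL)
  refine h1.trans ?_
  have hmeas : LMeas (fun _ : List E => (1:ℝ≥0∞)) := fun n => measurable_const
  rw [Cfg_const_mul _ _ hmeas, Cfg_one _ (measure_ne_top _ _)]
  have h2 : (volume.restrict (box L)) Set.univ = ENNReal.ofReal (L ^ 3) := μL_univ hL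
  rw [h2, ENNReal.toReal_ofReal (by positivity), ← ENNReal.ofReal_mul (Real.exp_pos _).le,
    ← Real.exp_add]

lemma XI_ne_top {c : L1} (hc : c ∈ Dom 4) (a : ℝ) {L : ℝ} (hL : 0 ≤ L) : XI c a L ≠ ⊤ :=
  ne_top_of_le_ne_top ENNReal.ofReal_ne_top (XI_le hc a hL)

/-- The logarithm of the partition function. -/
noncomputable def gg (c : L1) (a L : ℝ) : ℝ := Real.log (XI c a L).toReal

lemma one_le_XI_toReal {c : L1} (hc : c ∈ Dom 4) (a : ℝ) {L : ℝ} (hL : 0 ≤ L) :
    1 ≤ (XI c a L).toReal := by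
  have := ENNReal.toReal_mono (XI_ne_top hc a hL) (one_le_XI c a L)
  simpa using this

lemma gg_nonneg {c : L1} (hc : c ∈ Dom 4) (a : ℝ) {L : ℝ} (hL : 0 ≤ L) : 0 ≤ gg c a L :=
  Real.log_nonneg (one_le_XI_toReal hc a hL)

lemma gg_le {c : L1} (hc : c ∈ Dom 4) (a : ℝ) {L : ℝ} (hL : 0 ≤ L) :
    gg c a L ≤ (L / w0 + 2) ^ 3 * (a + Arep / 2) ^ 2 / (2 * A2) + L ^ 3 := by
  unfold gg
  have h1 := ENNReal.toReal_mono ENNReal.ofReal_ne_top (XI_le hc a hL)
  rw [ENNReal.toReal_ofReal (Real.exp_pos _).le] at h1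
  have h2 := Real.log_le_log (by linarith [one_le_XI_toReal hc a hL]) h1
  rwa [Real.log_exp] at h2

/-- The growth constant. -/
noncomputable def Γ₀ : ℝ := 1 / 190

lemma gg_div_le {c : L1} (hc : c ∈ Dom 4) (a : ℝ) {L : ℝ} (hL : 0 ≤ L) :
    gg c a L / (L + r0) ^ 3 ≤ 1 + Γ₀ * (a + Arep / 2) ^ 2 := by
  have h1 := gg_le hc a hL
  have hr := r0_pos
  have hpos : 0 < (L + r0) ^ 3 := by positivity
  rw [div_le_iff₀ hpos]
  rw [w0_cube hL] at h1
  have hA : 190 ≤ 2 * A2 * w0 ^ 3 := by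
    have := A2_val
    unfold w0
    norm_num
    linarith
  have hw : 0 < w0 := w0_pos
  have h2 : (L + r0) ^ 3 / w0 ^ 3 * (a + Arep / 2) ^ 2 / (2 * A2) ≤
      Γ₀ * (a + Arep / 2) ^ 2 * (L + r0) ^ 3 := by
    have hA2 := A2_pos
    have e : (L + r0) ^ 3 / w0 ^ 3 * (a + Arep / 2) ^ 2 / (2 * A2) =
        ((L + r0) ^ 3 * (a + Arep / 2) ^ 2) * (1 / (2 * A2 * w0 ^ 3)) := by
      field_simp
    rw [e]
    have h3 : 1 / (2 * A2 * w0 ^ 3) ≤ Γ₀ := by
      unfold Γ₀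
      exact one_div_le_one_div_of_le (by norm_num) hA
    have h4 : 0 ≤ (L + r0) ^ 3 * (a + Arep / 2) ^ 2 := by positivity
    calc _ ≤ ((L + r0) ^ 3 * (a + Arep / 2) ^ 2) * Γ₀ := mul_le_mul_of_nonneg_left h3 h4
      _ = _ := by ring
  have h5 : L ^ 3 ≤ (L + r0) ^ 3 := pow_le_pow_left₀ hL (by linarith) 3
  nlinarith


lemma XI_mono (c : L1) (a : ℝ) {L L' : ℝ} (h : L ≤ L') : XI c a L ≤ XI c a L' :=
  Cfg_mono_measure (Measure.restrict_mono (box_mono h) (le_refl _)) _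

lemma gg_mono {c : L1} (hc : c ∈ Dom 4) (a : ℝ) {L L' : ℝ} (hL : 0 ≤ L) (h : L ≤ L') :
    gg c a L ≤ gg c a L' := by
  unfold gg
  apply Real.log_le_log (by linarith [one_le_XI_toReal hc a hL])
  exact ENNReal.toReal_mono (XI_ne_top hc a (hL.trans h)) (XI_mono c a h)

/-- A translate of the cube, at a site of the lattice of mesh `x`. -/
def Rb (L x : ℝ) (b : Fin 3 → ℕ) : Set E := {y | ∀ j, (b j : ℝ) * x ≤ y j ∧ y j ≤ (b j : ℝ) * x + L}

lemma Rb_eq_preimage (L x : ℝ) (b : Fin 3 → ℕ) :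
    Rb L x b = (fun y : E => y + (fun j => - ((b j : ℝ) * x))) ⁻¹' box L := by
  ext y
  simp only [Rb, box, Set.mem_setOf_eq, Set.mem_preimage, Pi.add_apply]
  refine forall_congr' (fun j => ?_)
  constructor
  · rintro ⟨h1, h2⟩; constructor <;> linarith
  · rintro ⟨h1, h2⟩; constructor <;> linarith

lemma measurableSet_Rb (L x : ℝ) (b : Fin 3 → ℕ) : MeasurableSet (Rb L x b) := by
  rw [Rb_eq_preimage]
  exact (measurable_add_const _) (measurableSet_box L)


lemma Rb_disjoint {L x : ℝ} (hLx : L < x) (hx : 0 < x) : Pairwise (Function.onFun Disjoint (Rb L x)) := by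
  intro b b' hne
  rw [Function.onFun, Set.disjoint_left]
  intro y hy hy'
  obtain ⟨j, hj⟩ : ∃ j, b j ≠ b' j := Function.ne_iff.mp hne
  have h1 := hy j
  have h2 := hy' j
  rcases Nat.lt_or_gt_of_ne hj with hlt | hlt
  · have h3 : ((b j : ℝ) + 1) ≤ (b' j : ℝ) := by exact_mod_cast hlt
    nlinarith [h1.2, h2.1]
  · have h3 : ((b' j : ℝ) + 1) ≤ (b j : ℝ) := by exact_mod_cast hlt
    nlinarith [h1.1, h2.2]

lemma Rb_far {L x : ℝ} (hL : 0 ≤ L) (hLx : L + r0 ≤ x) {b b' : Fin 3 → ℕ} (hne : b ≠ b') {y y' : E}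
    (hy : y ∈ Rb L x b) (hy' : y' ∈ Rb L x b') : r0 ≤ dist3 y y' := by
  obtain ⟨j, hj⟩ : ∃ j, b j ≠ b' j := Function.ne_iff.mp hne
  have h1 := hy j
  have h2 := hy' j
  have hr := r0_pos
  have hxp : 0 ≤ x := by linarith
  refine le_trans ?_ (abs_coord_le_dist3 y y' j)
  rcases Nat.lt_or_gt_of_ne hj with hlt | hlt
  · have h3 : ((b j : ℝ) + 1) ≤ (b' j : ℝ) := by exact_mod_cast hlt
    have h4 : ((b j : ℝ) + 1) * x ≤ (b' j : ℝ) * x := mul_le_mul_of_nonneg_right h3 hxp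
    rw [abs_sub_comm]
    exact le_trans (by nlinarith [h1.2, h2.1]) (le_abs_self _)
  · have h3 : ((b' j : ℝ) + 1) ≤ (b j : ℝ) := by exact_mod_cast hlt
    have h4 : ((b' j : ℝ) + 1) * x ≤ (b j : ℝ) * x := mul_le_mul_of_nonneg_right h3 hxp
    exact le_trans (by nlinarith [h1.1, h2.2]) (le_abs_self _)

lemma vφ_nonneg_of_far {c : L1} (hc : ∀ k, 0 ≤ c k) {x y : E} (h : r0 ≤ dist3 x y) : 0 ≤ vφ c x y := by
  unfold vφ
  rw [kφ_eq]
  unfold kRep
  rw [if_neg (not_lt.mpr h)]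
  have := kC_nonneg hc x y
  linarith

/-- Superadditivity of the partition function. -/
theorem XI_superadd {c : L1} (hc : c ∈ Dom 4) (a : ℝ) {L : ℝ} (hL : 0 ≤ L) {k : ℕ} (hk : 1 ≤ k) :
    XI c a L ^ (k ^ 3) ≤ XI c a (k * (L + r0) - r0) := by
  classical
  have hr := r0_pos
  obtain ⟨x, hx⟩ : ∃ x, x = L + r0 := ⟨_, rfl⟩
  have hxpos : 0 < x := by rw [hx]; linarith
  rw [← hx]
  have hcard : (Fintype.piFinset (fun _ : Fin 3 => Finset.range k)).card = k ^ 3 := by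
    simp [Fintype.card_piFinset]
  have hRb : ∀ b, XI c a L ≤ Cfg (volume.restrict (Rb L x b)) (Wt c a) := by
    intro b
    rw [Rb_eq_preimage]
    unfold Wt XI Wt
    rw [Cfg_translate (MK_vφ c) a _ (fun p q => vφ_translate c _ p q) (measurableSet_box L)]
  have h1 := Cfg_biUnion_ge volume (Rb L x) (measurableSet_Rb L x) (Rb_disjoint (by rw [hx]; linarith) hxpos)
    (Wt_LMeas c a) (Wt_PermInv c a) (Wk_nil _ _) hRb
    (fun F b hb X Y hX hY => by
      refine Wk_append_ge (crossSum_nonneg (fun p hp q hq => ?_))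
      have hp' := hX p hp
      simp only [Set.mem_iUnion] at hp'
      obtain ⟨i, hi, hpi⟩ := hp'
      have hne : i ≠ b := fun e => hb (e ▸ hi)
      exact vφ_nonneg_of_far hc.1 (Rb_far hL (le_of_eq hx.symm) hne hpi (hY q hq)))
    (Fintype.piFinset (fun _ : Fin 3 => Finset.range k))
  rw [hcard] at h1
  refine h1.trans ?_
  refine Cfg_mono_measure (Measure.restrict_mono ?_ (le_refl _)) _
  intro y hy
  simp only [Set.mem_iUnion] at hy
  obtain ⟨b, hb, hyb⟩ := hy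
  rw [Fintype.mem_piFinset] at hb
  intro j
  have h2 := hyb j
  have h3 : (b j : ℝ) + 1 ≤ k := by
    have := Finset.mem_range.mp (hb j)
    exact_mod_cast this
  have h4 : ((b j : ℝ) + 1) * x ≤ k * x := mul_le_mul_of_nonneg_right h3 hxpos.le
  have h5 : (0:ℝ) ≤ b j := Nat.cast_nonneg _
  constructor
  · nlinarith [h2.1]
  · rw [hx] at h2 h4 ⊢
    nlinarith [h2.2]

lemma k_box_nonneg {L : ℝ} (hL : 0 ≤ L) {k : ℕ} (hk : 1 ≤ k) : 0 ≤ (k:ℝ) * (L + r0) - r0 := by
  have h1 : (1:ℝ) ≤ k := by exact_mod_cast hk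
  have hr := r0_pos
  nlinarith

theorem gg_superadd {c : L1} (hc : c ∈ Dom 4) (a : ℝ) {L : ℝ} (hL : 0 ≤ L) {k : ℕ} (hk : 1 ≤ k) :
    (k:ℝ) ^ 3 * gg c a L ≤ gg c a (k * (L + r0) - r0) := by
  unfold gg
  have h1 := XI_superadd hc a hL hk
  have hfin := XI_ne_top hc a (k_box_nonneg hL hk)
  have h2 := ENNReal.toReal_mono hfin h1
  rw [ENNReal.toReal_pow] at h2
  have h3 := one_le_XI_toReal hc a hL
  have h4 := Real.log_le_log (by positivity) h2
  rw [Real.log_pow] at h4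
  push_cast at h4
  exact h4

/-- The pressure. -/
noncomputable def ff (c : L1) (a : ℝ) : ℝ := ⨆ L : {L : ℝ // 0 < L}, gg c a L / ((L:ℝ) + r0) ^ 3

lemma ff_bdd {c : L1} (hc : c ∈ Dom 4) (a : ℝ) :
    BddAbove (Set.range (fun L : {L : ℝ // 0 < L} => gg c a L / ((L:ℝ) + r0) ^ 3)) := by
  refine ⟨1 + Γ₀ * (a + Arep / 2) ^ 2, ?_⟩
  rintro _ ⟨L, rfl⟩
  exact gg_div_le hc a L.2.le

lemma gg_div_le_ff {c : L1} (hc : c ∈ Dom 4) (a : ℝ) {L : ℝ} (hL : 0 < L) :
    gg c a L / (L + r0) ^ 3 ≤ ff c a :=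
  le_ciSup (ff_bdd hc a) (⟨L, hL⟩ : {L : ℝ // 0 < L})

lemma gg_le_ff {c : L1} (hc : c ∈ Dom 4) (a : ℝ) {L : ℝ} (hL : 0 < L) :
    gg c a L ≤ (L + r0) ^ 3 * ff c a := by
  have h := gg_div_le_ff hc a hL
  have hr := r0_pos
  have hpos : 0 < (L + r0) ^ 3 := by positivity
  rw [div_le_iff₀ hpos] at h
  linarith

lemma ff_nonneg {c : L1} (hc : c ∈ Dom 4) (a : ℝ) : 0 ≤ ff c a := by
  have hr := r0_pos
  refine le_trans ?_ (gg_div_le_ff hc a (L := 1) (by norm_num))
  exact div_nonneg (gg_nonneg hc a (by norm_num)) (by positivity)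

lemma ff_le_growth {c : L1} (hc : c ∈ Dom 4) (a : ℝ) : ff c a ≤ 1 + Γ₀ * (a + Arep / 2) ^ 2 := by
  have : Nonempty {L : ℝ // 0 < L} := ⟨⟨1, by norm_num⟩⟩
  exact ciSup_le (fun L => gg_div_le hc a L.2.le)

/-- Convergence of the finite-volume pressures. -/
theorem tendsto_gg {c : L1} (hc : c ∈ Dom 4) (a : ℝ) :
    Tendsto (fun L : ℝ => gg c a L / L ^ 3) atTop (𝓝 (ff c a)) := by
  have hr := r0_pos
  refine tendsto_order.2 ⟨fun y hy => ?_, fun y hy => ?_⟩
  · -- lower bound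
    have : Nonempty {L : ℝ // 0 < L} := ⟨⟨1, by norm_num⟩⟩
    obtain ⟨L₀, hL₀⟩ := exists_lt_of_lt_ciSup hy
    obtain ⟨L₀, hL₀pos⟩ := L₀
    simp only at hL₀
    obtain ⟨q, hq⟩ : ∃ q, q = gg c a L₀ / (L₀ + r0) ^ 3 := ⟨_, rfl⟩
    rw [← hq] at hL₀
    have hq0 : 0 ≤ q := by
      rw [hq]
      exact div_nonneg (gg_nonneg hc a hL₀pos.le) (by positivity)
    have hlim : Tendsto (fun L : ℝ => ((1 - L₀ / L) ^ 3) * q) atTop (𝓝 ((1 - 0) ^ 3 * q)) := by
      refine Tendsto.mul_const _ (Tendsto.pow (Tendsto.sub tendsto_const_nhds ?_) 3)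
      exact tendsto_const_nhds.div_atTop tendsto_id
    have hlim' : Tendsto (fun L : ℝ => ((1 - L₀ / L) ^ 3) * q) atTop (𝓝 q) := by
      simpa using hlim
    filter_upwards [hlim'.eventually (lt_mem_nhds hL₀), eventually_gt_atTop (L₀ + r0)] with L hL1 hL2
    refine lt_of_lt_of_le hL1 ?_
    have hLpos : 0 < L := by linarith
    obtain ⟨x₀, hx₀⟩ : ∃ x₀, x₀ = L₀ + r0 := ⟨_, rfl⟩
    have hx₀pos : 0 < x₀ := by rw [hx₀]; linarith
    obtain ⟨k, hk⟩ : ∃ k, k = ⌊(L + r0) / x₀⌋₊ := ⟨_, rfl⟩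
    have hk1 : 1 ≤ k := by
      rw [hk]
      apply Nat.le_floor
      rw [Nat.cast_one, le_div_iff₀ hx₀pos]
      rw [hx₀] at *
      linarith
    have hk2 : (k:ℝ) ≤ (L + r0) / x₀ := by
      rw [hk]; exact Nat.floor_le (by positivity)
    have hk3 : (L + r0) / x₀ < k + 1 := by
      rw [hk]; exact Nat.lt_floor_add_one _
    have hk2' : (k:ℝ) * x₀ ≤ L + r0 := by rwa [le_div_iff₀ hx₀pos] at hk2
    have hk3' : L + r0 < (k + 1) * x₀ := by rwa [div_lt_iff₀ hx₀pos] at hk3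
    have hg1 := gg_superadd hc a hL₀pos.le hk1
    rw [← hx₀] at hg1
    have hg2 : gg c a (k * x₀ - r0) ≤ gg c a L :=
      gg_mono hc a (by rw [hx₀]; exact k_box_nonneg hL₀pos.le hk1) (by linarith)
    have hgq : gg c a L₀ = q * x₀ ^ 3 := by
      rw [hq, hx₀]
      field_simp
    have h3 : (1 - L₀ / L) * L ≤ (k:ℝ) * x₀ := by
      have e : (1 - L₀ / L) * L = L - L₀ := by field_simp
      rw [e]
      rw [hx₀] at hk3' ⊢
      nlinarith
    have hbase : 0 ≤ 1 - L₀ / L := by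
      rw [sub_nonneg, div_le_one hLpos]
      linarith
    have h4 : ((1 - L₀ / L) * L) ^ 3 ≤ ((k:ℝ) * x₀) ^ 3 :=
      pow_le_pow_left₀ (by positivity) h3 3
    rw [le_div_iff₀ (by positivity)]
    calc (1 - L₀ / L) ^ 3 * q * L ^ 3 = q * ((1 - L₀ / L) * L) ^ 3 := by ring
      _ ≤ q * ((k:ℝ) * x₀) ^ 3 := mul_le_mul_of_nonneg_left h4 hq0
      _ = (k:ℝ) ^ 3 * gg c a L₀ := by rw [hgq]; ring
      _ ≤ gg c a L := hg1.trans hg2
  · -- upper bound
    have hlim : Tendsto (fun L : ℝ => ff c a * (1 + r0 / L) ^ 3) atTop (𝓝 (ff c a * (1 + 0) ^ 3)) := by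
      refine Tendsto.const_mul _ (Tendsto.pow (Tendsto.add tendsto_const_nhds ?_) 3)
      exact tendsto_const_nhds.div_atTop tendsto_id
    have hlim' : Tendsto (fun L : ℝ => ff c a * (1 + r0 / L) ^ 3) atTop (𝓝 (ff c a)) := by
      simpa using hlim
    filter_upwards [hlim'.eventually (gt_mem_nhds hy), eventually_gt_atTop 0] with L hL1 hL2
    refine lt_of_le_of_lt ?_ hL1
    have h1 := gg_le_ff hc a hL2
    have e : (L + r0) ^ 3 = (1 + r0 / L) ^ 3 * L ^ 3 := by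
      field_simp
    rw [div_le_iff₀ (by positivity)]
    rw [e] at h1
    linarith

/-! ### Lower and upper bounds at zero coupling -/

lemma It_one_Wt (c : L1) (a : ℝ) (L : ℝ) (hL : 0 ≤ L) :
    It (μL L) 1 (Wt c a) = ENNReal.ofReal (Real.exp a * L ^ 3) := by
  simp only [It]
  have h1 : ∀ y : E, Wt c a [y] = ENNReal.ofReal (Real.exp a) := by
    intro y
    rw [Wt_eq]
    simp [En]
  simp_rw [h1]
  rw [lintegral_const, μL_univ hL, ENNReal.ofReal_mul (Real.exp_pos _).le]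

lemma XI_ge_two_terms (c : L1) (a : ℝ) (L : ℝ) (hL : 0 ≤ L) :
    ENNReal.ofReal (1 + Real.exp a * L ^ 3) ≤ XI c a L := by
  have h1 : ∑ n ∈ Finset.range 2, ((n.factorial : ℝ≥0∞))⁻¹ * It (μL L) n (Wt c a) ≤ XI c a L :=
    ENNReal.sum_le_tsum _
  refine le_trans (le_of_eq ?_) h1
  rw [Finset.sum_range_succ, Finset.sum_range_one, It_one_Wt c a L hL]
  have h2 : It (μL L) 0 (Wt c a) = 1 := Wk_nil _ _
  rw [h2, ENNReal.ofReal_add (by norm_num) (by positivity)]
  simp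

lemma log_one_add_ge {x : ℝ} (hx : 0 ≤ x) : x / (1 + x) ≤ Real.log (1 + x) := by
  have h := Real.one_sub_inv_le_log_of_pos (x := 1 + x) (by linarith)
  have e : 1 - (1 + x)⁻¹ = x / (1 + x) := by
    field_simp
    ring
  rwa [e] at h

lemma ff_lower {c : L1} (hc : c ∈ Dom 4) (a : ℝ) {L : ℝ} (hL : 0 < L) :
    Real.log (1 + Real.exp a * L ^ 3) / (L + r0) ^ 3 ≤ ff c a := by
  refine le_trans ?_ (gg_div_le_ff hc a hL)
  have hr := r0_pos
  apply div_le_div_of_nonneg_right _ (by positivity)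
  unfold gg
  have h1 := ENNReal.toReal_mono (XI_ne_top hc a hL.le) (XI_ge_two_terms c a L hL.le)
  rw [ENNReal.toReal_ofReal (by positivity)] at h1
  exact Real.log_le_log (by positivity) h1

lemma PP_zero (l : List E) : PP 0 l = 0 := by
  have := PP_smul 0 0 l
  simpa using this

lemma En0_nonneg (l : List E) : 0 ≤ En0 l :=
  pairSum_nonneg (fun x _ y _ => kRep_nonneg x y)

lemma ff_zero_zero_le : ff 0 0 ≤ 1 := by
  have h0 : (0 : L1) ∈ Dom 4 := zero_mem_Dom (by norm_num)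
  have : Nonempty {L : ℝ // 0 < L} := ⟨⟨1, by norm_num⟩⟩
  refine ciSup_le (fun L => ?_)
  obtain ⟨L, hL⟩ := L
  have hr := r0_pos
  simp only
  rw [div_le_one (by positivity)]
  have h1 : XI 0 0 L ≤ ENNReal.ofReal (Real.exp (L ^ 3)) := by
    unfold XI μL
    have h2 : Cfg (volume.restrict (box L)) (Wt 0 0) ≤ Cfg (volume.restrict (box L)) (fun _ => 1) := by
      refine Cfg_mono (fun l => ?_)
      rw [Wt_eq, En_eq, PP_zero]
      rw [← ENNReal.ofReal_one]
      apply ENNReal.ofReal_le_ofReal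
      rw [Real.exp_le_one_iff]
      have := En0_nonneg l
      linarith
    refine h2.trans ?_
    rw [Cfg_one _ (measure_ne_top _ _)]
    have h3 : (volume.restrict (box L)) Set.univ = ENNReal.ofReal (L ^ 3) := μL_univ hL.le
    rw [h3, ENNReal.toReal_ofReal (by positivity)]
  have h2 := ENNReal.toReal_mono ENNReal.ofReal_ne_top h1
  rw [ENNReal.toReal_ofReal (Real.exp_pos _).le] at h2
  unfold gg
  have h3 := Real.log_le_log (by linarith [one_le_XI_toReal h0 0 hL.le]) h2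
  rw [Real.log_exp] at h3
  refine h3.trans ?_
  exact pow_le_pow_left₀ hL.le (by linarith) 3

/-- The chord inequality. -/
theorem ff_chord : ff 0 0 < (ff 0 1 + ff 0 (-1)) / 2 - 1 / 4 := by
  have h0 : (0 : L1) ∈ Dom 4 := zero_mem_Dom (by norm_num)
  have h1 := ff_lower h0 1 (L := 1 / 5) (by norm_num)
  have h2 := ff_lower h0 (-1) (L := 1 / 5) (by norm_num)
  have h3 := ff_zero_zero_le
  have he1 : (2.7:ℝ) < Real.exp 1 := by
    have := Real.exp_one_gt_d9
    linarith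
  have he2 : Real.exp 1 < 2.72 := by
    have := Real.exp_one_lt_d9
    linarith
  have hem : (1 / 2.72 : ℝ) < Real.exp (-1) := by
    rw [Real.exp_neg, one_div]
    exact inv_strictAnti₀ (Real.exp_pos 1) he2
  have hr : (1 / 5 + r0 : ℝ) ^ 3 = (101 / 500) ^ 3 := by unfold r0; norm_num
  rw [hr] at h1 h2
  have hl1 : (0.021 : ℝ) ≤ Real.log (1 + Real.exp 1 * (1 / 5) ^ 3) := by
    refine le_trans ?_ (log_one_add_ge (by positivity))
    rw [le_div_iff₀ (by positivity)]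
    nlinarith
  have hl2 : (0.0029 : ℝ) ≤ Real.log (1 + Real.exp (-1) * (1 / 5) ^ 3) := by
    refine le_trans ?_ (log_one_add_ge (by positivity))
    rw [le_div_iff₀ (by positivity)]
    have : (0.0029 : ℝ) * 1.01 ≤ Real.exp (-1) * (1 / 5) ^ 3 := by
      norm_num at hem ⊢
      linarith
    have h5 : Real.exp (-1) ≤ 1 := by
      rw [Real.exp_le_one_iff]; norm_num
    nlinarith
  have h4 : (2.5 : ℝ) ≤ Real.log (1 + Real.exp 1 * (1 / 5) ^ 3) / (101 / 500) ^ 3 := by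
    rw [le_div_iff₀ (by positivity)]
    norm_num at hl1 ⊢
    linarith
  have h5 : (0.35 : ℝ) ≤ Real.log (1 + Real.exp (-1) * (1 / 5) ^ 3) / (101 / 500) ^ 3 := by
    rw [le_div_iff₀ (by positivity)]
    norm_num at hl2 ⊢
    linarith
  linarith

end Vale.Agent.Lib.P171
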