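import Vale.Agent.Lib.P171.Gibbs

/-!
# Tangent functionals of the pressure
-/

set_option linter.unusedSectionVars false
set_option linter.unusedVariables false
set_option linter.unusedSimpArgs false

namespace Vale.Agent.Lib.P171

open Finset MeasureTheory Filter Topology
open scoped Real ENNReal

lemma ulim_exists (U : Ultrafilter ℕ) {x : ℕ → ℝ} {M : ℝ} (h : ∀ n, |x n| ≤ M) :
    ∃ y, Tendsto x U (𝓝 y) ∧ |y| ≤ M := by
  have hK : IsCompact (Set.Icc (-M) M) := isCompact_Icc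
  have hle : ((U.map x : Ultrafilter ℝ) : Filter ℝ) ≤ 𝓟 (Set.Icc (-M) M) := by
    rw [Ultrafilter.coe_map, le_principal_iff, Filter.mem_map]
    refine Eventually.of_forall (fun n => ?_)
    exact abs_le.mp (h n)
  obtain ⟨y, hy, hyl⟩ := hK.ultrafilter_le_nhds (U.map x) hle
  exact ⟨y, hyl, abs_le.mpr hy⟩

lemma tendsto_cube_ratio {W : ℝ} :
    Tendsto (fun L : ℝ => L ^ 3 / (L + 2 * W) ^ 3) atTop (𝓝 1) := by
  have h1 : Tendsto (fun L : ℝ => (1 + 2 * W / L) ^ 3) atTop (𝓝 ((1 + 0) ^ 3)) :=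
    (tendsto_const_nhds.add (tendsto_const_nhds.div_atTop tendsto_id)).pow 3
  have h2 : Tendsto (fun L : ℝ => ((1 + 2 * W / L) ^ 3)⁻¹) atTop (𝓝 (((1 + 0) ^ 3)⁻¹)) :=
    h1.inv₀ (by norm_num)
  have e : (((1:ℝ) + 0) ^ 3)⁻¹ = 1 := by norm_num
  rw [e] at h2
  refine h2.congr' ?_
  filter_upwards [eventually_gt_atTop 0] with L hL
  have e2 : L + 2 * W = L * (1 + 2 * W / L) := by field_simp
  rw [e2, mul_pow, div_mul_eq_div_div, div_self (by positivity), one_div]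

/-- The tangent functionals of the pressure. -/
theorem tangent_limit {c : L1} (hc : c ∈ Dom 4) (a : ℝ) :
    ∃ (ρ : ℝ) (lam : L1 →ₗ[ℝ] ℝ), (∀ b, |lam b| ≤ Λ₀ a * ‖b‖) ∧ 0 ≤ ρ ∧ ρ ≤ Λ₀ a ∧
      (∀ c' ∈ Dom 4, ∀ a', ff c a + lam (c' - c) + ρ * (a' - a) ≤ ff c' a') ∧
      (∀ m, ρ ^ 2 / 2 - τ₀ m * ρ ≤ lam (eL m)) := by
  let U : Ultrafilter ℕ := hyperfilter ℕ
  have hU : (U : Filter ℕ) ≤ atTop := Nat.hyperfilter_le_atTop
  have hLpos : ∀ n : ℕ, 0 < (n:ℝ) + 1 := fun n => by positivity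
  have hLtop : Tendsto (fun n : ℕ => (n:ℝ) + 1) U atTop :=
    (tendsto_atTop_add_const_right _ _ tendsto_natCast_atTop_atTop).mono_left hU
  choose ρn lamn h1 h2 h3 h4 h5 using fun n : ℕ => fv_tangent hc a (hLpos n)
  have hΛ0 : 0 ≤ Λ₀ a := (Real.exp_pos _).le
  obtain ⟨ρ, hρ, hρb⟩ := ulim_exists U (x := ρn) (M := Λ₀ a) (fun n => by
    rw [abs_of_nonneg (h2 n)]; exact h3 n)
  have hl : ∀ b, ∃ y, Tendsto (fun n => lamn n b) U (𝓝 y) ∧ |y| ≤ Λ₀ a * ‖b‖ := fun b =>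
    ulim_exists U (fun n => h1 n b)
  choose lamf hlamf hlamb using hl
  let lam : L1 →ₗ[ℝ] ℝ :=
    { toFun := lamf
      map_add' := by
        intro b b'
        refine tendsto_nhds_unique (hlamf (b + b')) ?_
        simp_rw [map_add]
        exact (hlamf b).add (hlamf b')
      map_smul' := by
        intro r b
        refine tendsto_nhds_unique (hlamf (r • b)) ?_
        simp only [map_smul, smul_eq_mul, RingHom.id_apply]
        exact (hlamf b).const_mul r }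
  have hlam : ∀ b, lam b = lamf b := fun b => rfl
  have hρ0 : 0 ≤ ρ := ge_of_tendsto' hρ (fun n => h2 n)
  refine ⟨ρ, lam, fun b => hlamb b, hρ0, le_of_tendsto' hρ (fun n => h3 n), ?_, ?_⟩
  · intro c' hc' a'
    have hg1 := (tendsto_gg hc' a').comp hLtop
    have hg2 := (tendsto_gg hc a).comp hLtop
    have hlim := hg1.sub hg2
    have hle := le_of_tendsto_of_tendsto' ((hlamf (c' - c)).add (hρ.mul_const (a' - a))) hlim
      (fun n => by
        have := h4 n c' hc' a'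
        simp only [Function.comp]
        calc _ ≤ _ := this
          _ = _ := by ring)
    rw [hlam]
    linarith
  · intro m
    have hW : ∀ W : ℝ, 0 < W → Tm3 ((m:ℝ) + 1) W ^ 6 / 2 * ρ ^ 2 - τ₀ m * ρ ≤ lam (eL m) := by
      intro W hW
      have hr := (tendsto_cube_ratio (W := W)).comp hLtop
      have hlim : Tendsto (fun n : ℕ => Tm3 ((m:ℝ) + 1) W ^ 6 / 2 * (((n:ℝ) + 1) ^ 3 / (((n:ℝ) + 1) + 2 * W) ^ 3) *
          ρn n ^ 2 - τ₀ m * ρn n) U (𝓝 (Tm3 ((m:ℝ) + 1) W ^ 6 / 2 * 1 * ρ ^ 2 - τ₀ m * ρ)) :=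
        ((hr.const_mul _).mul (hρ.pow 2)).sub (hρ.const_mul _)
      have hle := le_of_tendsto_of_tendsto' hlim (hlamf (eL m)) (fun n => h5 n m W hW)
      rw [hlam]
      linarith
    have hT := Tm3_tendsto (s := (m:ℝ) + 1) (sk_pos m)
    have hlim : Tendsto (fun W : ℝ => Tm3 ((m:ℝ) + 1) W ^ 6 / 2 * ρ ^ 2 - τ₀ m * ρ) atTop
        (𝓝 (1 ^ 6 / 2 * ρ ^ 2 - τ₀ m * ρ)) :=
      (((hT.pow 6).div_const 2).mul_const _).sub_const _
    have hle := le_of_tendsto hlim ((eventually_gt_atTop 0).mono hW)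
    have e : (1:ℝ) ^ 6 / 2 * ρ ^ 2 - τ₀ m * ρ = ρ ^ 2 / 2 - τ₀ m * ρ := by ring
    rwa [e] at hle

end Vale.Agent.Lib.P171
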